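import Vale.Agent.P245.H464.ESA

/-!
# P245 (helper464), row OP-2: totality of the resolvent equation `u - s L u = g` in the sense of
limits of test functions, for all `s > 0`.
-/

set_option linter.all false

open MeasureTheory Filter Topology
open scoped ContDiff NNReal ENNReal InnerProductSpace

namespace Vale.Agent.P245.H464

open Vale.Agent.P227.M Vale.Agent.P227.M.K814 Vale.Agent.P254.SN Vale.Agent.P245.E456

/-! ## abstract part -/

namespace Abs

variable {H : Type*} [NormedAddCommGroup H] [InnerProductSpace ℝ H]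
variable {D : Type*} [AddCommGroup D] [Module ℝ D]

theorem norm_le' {J A : D →ₗ[ℝ] H} (hneg : ∀ f, inner ℝ (A f) (J f) ≤ 0) {s : ℝ} (hs : 0 ≤ s)
    (f : D) : ‖J f‖ ≤ ‖J f - s • A f‖ := by
  have h1 : ‖J f - s • A f‖ ^ 2 = ‖J f‖ ^ 2 - 2 * inner ℝ (J f) (s • A f) + ‖s • A f‖ ^ 2 :=
    norm_sub_sq_real _ _
  have h2 : inner ℝ (J f) (s • A f) ≤ 0 := by
    rw [real_inner_smul_right, real_inner_comm]
    exact mul_nonpos_of_nonneg_of_nonpos hs (hneg f)
  have h3 : ‖J f‖ ^ 2 ≤ ‖J f - s • A f‖ ^ 2 := by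
    rw [h1]; nlinarith [sq_nonneg ‖s • A f‖]
  exact (pow_le_pow_iff_left₀ (norm_nonneg _) (norm_nonneg _) two_ne_zero).1 h3

/-- `J r - s A r = g` in the sense of sequences -/
theorem total_of_dense [CompleteSpace H] {J A : D →ₗ[ℝ] H}
    (hneg : ∀ f, inner ℝ (A f) (J f) ≤ 0) {s : ℝ} (hs : 0 ≤ s)
    (hdense : Dense (Set.range fun f => J f - s • A f)) (g : H) :
    ∃ (r : H) (f : ℕ → D), Tendsto (fun m => J (f m)) atTop (𝓝 r) ∧
      Tendsto (fun m => J (f m) - s • A (f m)) atTop (𝓝 g) := by
  obtain ⟨u, hu, hlim⟩ := mem_closure_iff_seq_limit.mp (hdense g)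
  choose f hf using hu
  have hs' : ∀ m, J (f m) - s • A (f m) = u m := hf
  have hB : CauchySeq u := hlim.cauchySeq
  have hC : CauchySeq (fun m => J (f m)) := by
    rw [Metric.cauchySeq_iff'] at hB ⊢
    intro ε hε
    obtain ⟨N, hN⟩ := hB ε hε
    refine ⟨N, fun m hm => ?_⟩
    have h1 := hN m hm
    rw [dist_eq_norm] at h1 ⊢
    have h2 : ‖J (f m - f N)‖ ≤ ‖J (f m - f N) - s • A (f m - f N)‖ := norm_le' hneg hs _
    have h3 : J (f m - f N) - s • A (f m - f N) = u m - u N := by
      rw [map_sub, map_sub, ← hs' m, ← hs' N, smul_sub]; abel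
    rw [h3, map_sub] at h2
    exact lt_of_le_of_lt h2 h1
  obtain ⟨r, hr⟩ := cauchySeq_tendsto_of_complete hC
  exact ⟨r, f, hr, hlim.congr (fun m => (hs' m).symm)⟩

/-- density of the range of `1 - A` implies density of the range of `1 - s A` -/
theorem dense_smul [CompleteSpace H] {J A : D →ₗ[ℝ] H}
    (hsym : ∀ f g, inner ℝ (A f) (J g) = inner ℝ (J f) (A g))
    (hneg : ∀ f, inner ℝ (A f) (J f) ≤ 0)
    (hdense : Dense (Set.range fun f => J f - A f)) {s : ℝ} (hs : 0 < s) :
    Dense (Set.range fun f => J f - s • A f) := by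
  have h1 : (LinearMap.range (J - s • A)).topologicalClosure = ⊤ := by
    rw [Submodule.topologicalClosure_eq_top_iff, Submodule.eq_bot_iff]
    intro g hg
    rw [Submodule.mem_orthogonal'] at hg
    have hg' : ∀ f, inner ℝ g (J f) = s * inner ℝ g (A f) := by
      intro f
      have h3 := hg ((J - s • A) f) (LinearMap.mem_range_self _ _)
      rw [LinearMap.sub_apply, inner_sub_right, LinearMap.smul_apply, real_inner_smul_right] at h3
      linarith
    have hd1 : Dense (Set.range fun f => J f - (1 : ℝ) • A f) := by simpa using hdense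
    obtain ⟨u, f, hf1, hf2⟩ := total_of_dense hneg (s := 1) zero_le_one hd1 (g - s⁻¹ • g)
    -- `g - u` is orthogonal to the range of `J - A`
    have h2 : ∀ φ : D, inner ℝ (g - u) (J φ - A φ) = 0 := by
      intro φ
      have e1 : Tendsto (fun m => inner ℝ (J (f m)) (J φ - A φ)) atTop (𝓝 (inner ℝ u (J φ - A φ))) :=
        hf1.inner tendsto_const_nhds
      have e2 : Tendsto (fun m => inner ℝ (J (f m) - (1 : ℝ) • A (f m)) (J φ)) atTop
          (𝓝 (inner ℝ (g - s⁻¹ • g) (J φ))) := hf2.inner tendsto_const_nhds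
      have e3 : (fun m => inner ℝ (J (f m)) (J φ - A φ)) =
          fun m => inner ℝ (J (f m) - (1 : ℝ) • A (f m)) (J φ) := by
        funext m
        rw [one_smul, inner_sub_right, inner_sub_left, hsym]
      rw [e3] at e1
      have e4 := tendsto_nhds_unique e1 e2
      rw [inner_sub_left, e4, inner_sub_right, inner_sub_left, real_inner_smul_left, hg' φ]
      field_simp
      ring
    have h3 : g - u = 0 := by
      have h4 : (LinearMap.range (J - A)).topologicalClosure = ⊤ := by
        rw [← Submodule.dense_iff_topologicalClosure_eq_top]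
        have e : ((LinearMap.range (J - A) : Submodule ℝ H) : Set H) =
            Set.range fun f => J f - A f := by
          ext y; simp
        rw [e]; exact hdense
      rw [Submodule.topologicalClosure_eq_top_iff, Submodule.eq_bot_iff] at h4
      refine h4 _ ?_
      rw [Submodule.mem_orthogonal']
      rintro _ ⟨φ, rfl⟩
      exact h2 φ
    have h4 : u = g := (sub_eq_zero.1 h3).symm
    -- `⟨A f, J f⟩ → |g|²/s`
    have h5 : Tendsto (fun m => A (f m)) atTop (𝓝 (s⁻¹ • g)) := by
      have := hf1.sub hf2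
      simp only [one_smul, sub_sub_cancel] at this
      rw [h4] at this
      simpa using this
    have h6 : Tendsto (fun m => inner ℝ (A (f m)) (J (f m))) atTop (𝓝 (inner ℝ (s⁻¹ • g) g)) := by
      have := h5.inner (𝕜 := ℝ) hf1
      rwa [h4] at this
    have h7 : inner ℝ (s⁻¹ • g) g ≤ 0 := le_of_tendsto' h6 fun m => hneg _
    rw [real_inner_smul_left, real_inner_self_eq_norm_sq] at h7
    have h8 : ‖g‖ ^ 2 ≤ 0 := by
      have h9 : 0 < s⁻¹ := by positivity
      by_contra hcon
      push Not at hcon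
      have := mul_pos h9 hcon
      linarith
    have h9 : ‖g‖ = 0 := by
      have := le_antisymm h8 (by positivity)
      exact pow_eq_zero_iff two_ne_zero |>.1 this
    exact norm_eq_zero.1 h9
  have h2 := Submodule.dense_iff_topologicalClosure_eq_top.2 h1
  have h3 : Set.range (fun f => J f - s • A f) = ((LinearMap.range (J - s • A) : Submodule ℝ _) : Set _) := by
    ext y; simp
  rw [h3]
  exact h2

end Abs

/-! ## the measure -/

variable {n : ℕ} {V : E n → ℝ} {t : E n → Matrix (Fin n) (Fin n) ℝ} {lam Lam : ℝ}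

/-- the measure `e^{-V} dx` -/
noncomputable def mu (V : E n → ℝ) : Measure (E n) :=
  volume.withDensity (fun x => ENNReal.ofReal (Real.exp (-V x)))

theorem integral_mu (hV : Continuous V) (g : E n → ℝ) :
    ∫ x, g x ∂(mu V) = ∫ x, g x * Real.exp (-V x) := by
  unfold mu
  rw [integral_withDensity_eq_integral_toReal_smul (by fun_prop) (by simp)]
  refine integral_congr_ae (Eventually.of_forall fun x => ?_)
  simp only [ENNReal.toReal_ofReal (Real.exp_pos _).le, smul_eq_mul, mul_comm]

theorem integrable_mu (hV : Continuous V) (g : E n → ℝ) :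
    Integrable g (mu V) ↔ Integrable (fun x => g x * Real.exp (-V x)) := by
  unfold mu
  rw [integrable_withDensity_iff_integrable_smul' (by fun_prop) (by simp)]
  refine integrable_congr (Eventually.of_forall fun x => ?_)
  simp only [ENNReal.toReal_ofReal (Real.exp_pos _).le, smul_eq_mul, mul_comm]

theorem mu_ac (V : E n → ℝ) : mu V ≪ volume := withDensity_absolutelyContinuous _ _

theorem ac_mu (hV : Continuous V) : (volume : Measure (E n)) ≪ mu V :=
  withDensity_absolutelyContinuous' (by fun_prop)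
    (Eventually.of_forall fun x => by simp [Real.exp_pos])

theorem memLp_iff (hV : Continuous V) {g : E n → ℝ} (hg : AEStronglyMeasurable g volume) :
    MemLp g 2 (mu V) ↔ Integrable (fun x => g x ^ 2 * Real.exp (-V x)) := by
  rw [memLp_two_iff_integrable_sq (hg.mono_ac (mu_ac V)), integrable_mu hV]

theorem inner_toLp (hV : Continuous V) {f g : E n → ℝ} (hf : MemLp f 2 (mu V))
    (hg : MemLp g 2 (mu V)) :
    inner ℝ (hf.toLp f) (hg.toLp g) = ∫ x, f x * g x * Real.exp (-V x) := by
  rw [L2.inner_def, ← integral_mu hV]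
  refine integral_congr_ae ?_
  filter_upwards [hf.coeFn_toLp, hg.coeFn_toLp] with x h1 h2
  rw [h1, h2]
  simp [mul_comm]

theorem inner_lp_toLp (hV : Continuous V) (f : MeasureTheory.Lp ℝ 2 (mu V)) {g : E n → ℝ}
    (hg : MemLp g 2 (mu V)) :
    inner ℝ f (hg.toLp g) = ∫ x, f x * g x * Real.exp (-V x) := by
  have h := inner_toLp hV (MeasureTheory.Lp.memLp f) hg
  rwa [MeasureTheory.Lp.toLp_coeFn] at h

/-- continuous functions with compact support are square integrable -/
theorem memLp_ci (hV : Continuous V) {f : E n → ℝ} (hf : CI f) : MemLp f 2 (mu V) := by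
  have h2 : CI (fun x => f x * f x) := CI.mul_right hf hf.1
  have h3 := CI.integrable hV h2
  rw [memLp_iff hV hf.1.1.aestronglyMeasurable]
  refine h3.congr (Eventually.of_forall fun x => ?_)
  simp only [sq]

/-! ## test functions -/

/-- the submodule of test functions -/
noncomputable def TS (n : ℕ) : Submodule ℝ (E n → ℝ) where
  carrier := {f | Test f}
  add_mem' := fun {a b} ha hb => ⟨ha.1.add hb.1, ha.2.add hb.2⟩
  zero_mem' := ⟨contDiff_const, HasCompactSupport.zero⟩
  smul_mem' := fun r f hf => ⟨contDiff_const.smul hf.1, by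
    have : HasCompactSupport ((fun _ : E n => r) • f) := HasCompactSupport.smul_left hf.2
    exact this⟩

theorem test_diff {f : E n → ℝ} (hf : Test f) : Differentiable ℝ f :=
  hf.1.differentiable (by simp)

theorem test_pd' {f : E n → ℝ} (hf : Test f) (i : Fin n) : Test (pd i f) := test_pd hf i

theorem pd_add' {f g : E n → ℝ} (hf : Differentiable ℝ f) (hg : Differentiable ℝ g) (i : Fin n) :
    pd i (fun y => f y + g y) = fun x => pd i f x + pd i g x := by
  funext x
  unfold pd
  have h2 : fderiv ℝ (fun y => f y + g y) x = fderiv ℝ f x + fderiv ℝ g x := fderiv_add (hf x) (hg x)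
  rw [h2]; rfl

theorem pd_smul' {f : E n → ℝ} (hf : Differentiable ℝ f) (r : ℝ) (i : Fin n) :
    pd i (fun y => r * f y) = fun x => r * pd i f x := by
  funext x
  unfold pd
  have h2 : fderiv ℝ (fun y => r * f y) x = r • fderiv ℝ f x := fderiv_const_mul (hf x) r
  rw [h2]; rfl

theorem Lt_add {f g : E n → ℝ} (hf : Test f) (hg : Test g) (x : E n) :
    Lt t (fun y => f y + g y) x = Lt t f x + Lt t g x := by
  unfold Lt hess
  have h1 : ∀ j, pd j (fun y => f y + g y) = fun x => pd j f x + pd j g x := fun j =>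
    pd_add' (test_diff hf) (test_diff hg) j
  have h2 : ∀ i j, pd i (fun x => pd j f x + pd j g x) x = pd i (pd j f) x + pd i (pd j g) x := by
    intro i j
    rw [pd_add' (test_diff (test_pd hf j)) (test_diff (test_pd hg j)) i]
  simp only [h1, h2, mul_add, Finset.sum_add_distrib]
  ring

theorem Lt_smul {f : E n → ℝ} (hf : Test f) (r : ℝ) (x : E n) :
    Lt t (fun y => r * f y) x = r * Lt t f x := by
  unfold Lt hess
  have h1 : ∀ j, pd j (fun y => r * f y) = fun x => r * pd j f x := fun j =>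
    pd_smul' (test_diff hf) r j
  have h2 : ∀ i j, pd i (fun x => r * pd j f x) x = r * pd i (pd j f) x := by
    intro i j
    rw [pd_smul' (test_diff (test_pd hf j)) r i]
  simp only [h1, h2, mul_sub, Finset.mul_sum]
  congr 1
  · exact Finset.sum_congr rfl fun i _ => Finset.sum_congr rfl fun j _ => by ring
  · exact Finset.sum_congr rfl fun i _ => by ring

theorem lc_Lt (h : TF V t) {f : E n → ℝ} (hf : Test f) : LC (Lt t f) := by
  have h2 : ∀ i j, LC (hess f · i j) := fun i j => Test.lc (test_pd (test_pd hf j) i)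
  refine LC.sub (LC.sum _ fun i _ => LC.sum _ fun j _ => LC.mul_left (tll h i j) (h2 i j))
    (LC.sum _ fun i _ => LC.mul_left (ll_coord i) (Test.lc (test_pd hf i)))

/-- the carre du champ -/
noncomputable def Gam (t : E n → Matrix (Fin n) (Fin n) ℝ) (f g : E n → ℝ) (x : E n) : ℝ :=
  ∑ a, ∑ b, t x a b * pd a f x * pd b g x

/-- integration by parts: `∫ (L f) g + Γ(f, g) = 0` -/
theorem ibpL (h : TF V t) {f g : E n → ℝ} (hf : Test f) (hg : LocallyLipschitz g)
    (hgd : ∀ᵐ x, DifferentiableAt ℝ g x) :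
    I V (fun x => Lt t f x * g x + Gam t f g x) = 0 := by
  have hV : Continuous V := h.V2.continuous
  have hφ : ∀ a, LC (fun x => pd a f x * g x) := fun a => LC.mul_right (Test.lc (test_pd hf a)) hg
  have h1 : ∀ a, I V (fun x => Dt t a (fun y => pd a f y * g y) x - x a * (pd a f x * g x)) = 0 :=
    fun a => tcore h (hφ a) a (Eventually.of_forall fun x => rfl)
  have h2 : I V (fun x => ∑ a, (Dt t a (fun y => pd a f y * g y) x - x a * (pd a f x * g x))) = 0 := by
    rw [I_sum _ hV fun a _ => (ci_Dt h (hφ a) a).sub (CI.of_lc (LC.mul_left (ll_coord a) (hφ a)))]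
    exact Finset.sum_eq_zero fun a _ => h1 a
  rw [← h2]
  refine I_congr ?_
  filter_upwards [hgd] with x hx
  have e1 : ∀ a b, pd b (fun y => pd a f y * g y) x = pd b (pd a f) x * g x + pd a f x * pd b g x :=
    fun a b => rpd_mul ((test_diff (test_pd hf a)) x) hx
  unfold Lt Gam Dt hess
  simp only [e1]
  rw [Finset.sum_sub_distrib, sub_mul, Finset.sum_mul]
  have e2 : ∀ a, ∑ b, t x a b * (pd b (pd a f) x * g x + pd a f x * pd b g x) =
      (∑ b, t x a b * pd b (pd a f) x) * g x + ∑ b, t x a b * pd a f x * pd b g x := by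
    intro a
    rw [Finset.sum_mul, ← Finset.sum_add_distrib]
    exact Finset.sum_congr rfl fun b _ => by ring
  simp only [e2, Finset.sum_add_distrib]
  have e3 : ∑ a, (∑ j, t x a j * pd a (pd j f) x) * g x = ∑ a, (∑ b, t x a b * pd b (pd a f) x) * g x := by
    simp only [Finset.sum_mul]
    rw [Finset.sum_comm]
    refine Finset.sum_congr rfl fun a _ => Finset.sum_congr rfl fun b _ => ?_
    rw [h.symm x b a]
  rw [e3]
  have e4 : (∑ a, x a * pd a f x) * g x = ∑ a, x a * (pd a f x * g x) := by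
    rw [Finset.sum_mul]
    exact Finset.sum_congr rfl fun a _ => by ring
  rw [e4]
  ring

theorem Gam_symm (h : TF V t) (f g : E n → ℝ) (x : E n) : Gam t f g x = Gam t g f x := by
  unfold Gam
  rw [Finset.sum_comm]
  refine Finset.sum_congr rfl fun a _ => Finset.sum_congr rfl fun b _ => ?_
  rw [h.symm x b a]; ring

theorem Gam_self (f : E n → ℝ) (x : E n) :
    Gam t f f x = qf (t x) (WithLp.toLp 2 fun a => pd a f x) := rfl

theorem ci_Gam (h : TF V t) {f g : E n → ℝ} (hf : LC f) (hg : LocallyLipschitz g) : CI (Gam t f g) := by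
  unfold Gam
  exact CI.sum _ fun a _ => CI.sum _ fun b _ =>
    CI.mul_right (CI.mul_left (Bd.of_ll (tll h a b)) (CI.pd hf a)) (Bd.pd hg b)

theorem ibpL' (h : TF V t) {f g : E n → ℝ} (hf : Test f) (hg : LC g) :
    I V (fun x => Lt t f x * g x) = - I V (Gam t f g) := by
  have hV : Continuous V := h.V2.continuous
  have h1 := ibpL h hf hg.1 hg.ae_diff
  rw [I_add hV (CI.mul_right (CI.of_lc (lc_Lt h hf)) (Bd.of_ll hg.1)) (ci_Gam h (Test.lc hf) hg.1)] at h1
  linarith

theorem L_symm (h : TF V t) {f g : E n → ℝ} (hf : Test f) (hg : Test g) :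
    I V (fun x => Lt t f x * g x) = I V (fun x => f x * Lt t g x) := by
  have h1 := ibpL' h hf (Test.lc hg)
  have h2 := ibpL' h hg (Test.lc hf)
  have e : I V (fun x => f x * Lt t g x) = I V (fun x => Lt t g x * f x) :=
    I_congr (Eventually.of_forall fun x => by ring)
  rw [e, h1, h2]
  congr 1
  exact I_congr (Eventually.of_forall fun x => Gam_symm h f g x)

/-! ## the maps into `L²` -/

noncomputable def JJ (h : TF V t) : TS n →ₗ[ℝ] MeasureTheory.Lp ℝ 2 (mu V) where
  toFun f := (memLp_ci h.V2.continuous (CI.of_lc (Test.lc f.2))).toLp f.1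
  map_add' f g := by
    rw [← MemLp.toLp_add]; rfl
  map_smul' r f := by
    rw [RingHom.id_apply, ← MemLp.toLp_const_smul]; rfl

noncomputable def AA (h : TF V t) : TS n →ₗ[ℝ] MeasureTheory.Lp ℝ 2 (mu V) where
  toFun f := (memLp_ci h.V2.continuous (CI.of_lc (lc_Lt h f.2))).toLp (Lt t f.1)
  map_add' f g := by
    rw [← MemLp.toLp_add]
    refine MemLp.toLp_congr _ _ (Eventually.of_forall fun x => ?_)
    exact Lt_add f.2 g.2 x
  map_smul' r f := by
    rw [RingHom.id_apply, ← MemLp.toLp_const_smul]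
    refine MemLp.toLp_congr _ _ (Eventually.of_forall fun x => ?_)
    exact Lt_smul f.2 r x

theorem inner_AJ (h : TF V t) (f g : TS n) :
    inner ℝ (AA h f) (JJ h g) = I V (fun x => Lt t f.1 x * g.1 x) :=
  inner_toLp h.V2.continuous (memLp_ci h.V2.continuous (CI.of_lc (lc_Lt h f.2)))
    (memLp_ci h.V2.continuous (CI.of_lc (Test.lc g.2)))

theorem inner_JA (h : TF V t) (f g : TS n) :
    inner ℝ (JJ h f) (AA h g) = I V (fun x => f.1 x * Lt t g.1 x) :=
  inner_toLp h.V2.continuous (memLp_ci h.V2.continuous (CI.of_lc (Test.lc f.2)))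
    (memLp_ci h.V2.continuous (CI.of_lc (lc_Lt h g.2)))

theorem sym_AJ (h : TF V t) (f g : TS n) : inner ℝ (AA h f) (JJ h g) = inner ℝ (JJ h f) (AA h g) := by
  rw [inner_AJ, inner_JA]
  exact L_symm h f.2 g.2

theorem inner_AJ_self (h : TF V t) (f : TS n) :
    inner ℝ (AA h f) (JJ h f) = - I V (Gam t f.1 f.1) := by
  rw [inner_AJ]
  exact ibpL' h f.2 (Test.lc f.2)

theorem Gam_nonneg (h : TE V t lam Lam) (f : E n → ℝ) (x : E n) : 0 ≤ Gam t f f x := by
  rw [Gam_self]
  refine le_trans ?_ (h.low x _)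
  have := h.lam_pos
  positivity

theorem Gam_low (h : TE V t lam Lam) (f : E n → ℝ) (x : E n) :
    lam * ∑ a, pd a f x ^ 2 ≤ Gam t f f x := by
  rw [Gam_self]
  have h1 := h.low x (WithLp.toLp 2 fun a => pd a f x)
  rw [← sum_sq_eq] at h1
  exact h1

theorem neg_AJ (h : TE V t lam Lam) (f : TS n) : inner ℝ (AA h.toTF f) (JJ h.toTF f) ≤ 0 := by
  rw [inner_AJ_self]
  have : 0 ≤ I V (Gam t f.1 f.1) := by
    unfold I
    exact integral_nonneg fun x => mul_nonneg (Gam_nonneg h _ x) (Real.exp_pos _).le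
  linarith

theorem dense_JA (h : TE V t lam Lam) :
    Dense (Set.range fun f : TS n => JJ h.toTF f - AA h.toTF f) := by
  have hV : Continuous V := h.V2.continuous
  have h1 : (LinearMap.range (JJ h.toTF - AA h.toTF)).topologicalClosure = ⊤ := by
    rw [Submodule.topologicalClosure_eq_top_iff, Submodule.eq_bot_iff]
    intro g hg
    rw [Submodule.mem_orthogonal'] at hg
    have hgm : AEStronglyMeasurable (g : E n → ℝ) volume :=
      ((MeasureTheory.Lp.memLp g).1).mono_ac (ac_mu hV)
    have hgi : Integrable (fun x => (g : E n → ℝ) x ^ 2 * Real.exp (-V x)) :=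
      (memLp_iff hV hgm).1 (MeasureTheory.Lp.memLp g)
    have h2 : (g : E n → ℝ) =ᵐ[volume] 0 := by
      refine esa h hgm hgi fun f hf => ?_
      have h3 := hg ((JJ h.toTF - AA h.toTF) ⟨f, hf⟩) (LinearMap.mem_range_self _ _)
      rw [LinearMap.sub_apply, inner_sub_right] at h3
      have e1 : inner ℝ g (JJ h.toTF ⟨f, hf⟩) = ∫ x, g x * f x * Real.exp (-V x) :=
        inner_lp_toLp hV g (memLp_ci hV (CI.of_lc (Test.lc hf)))
      have e2 : inner ℝ g (AA h.toTF ⟨f, hf⟩) = ∫ x, g x * Lt t f x * Real.exp (-V x) :=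
        inner_lp_toLp hV g (memLp_ci hV (CI.of_lc (lc_Lt h.toTF hf)))
      rw [e1, e2] at h3
      have i1 : Integrable (fun x => g x * f x * Real.exp (-V x)) := by
        have := (MeasureTheory.Lp.memLp g).integrable_mul (memLp_ci hV (CI.of_lc (Test.lc hf)))
        exact (integrable_mu hV _).1 this
      have i2 : Integrable (fun x => g x * Lt t f x * Real.exp (-V x)) := by
        have := (MeasureTheory.Lp.memLp g).integrable_mul (memLp_ci hV (CI.of_lc (lc_Lt h.toTF hf)))
        exact (integrable_mu hV _).1 this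
      rw [← h3, ← integral_sub i1 i2]
      refine integral_congr_ae (Eventually.of_forall fun x => ?_)
      ring
    rw [MeasureTheory.Lp.eq_zero_iff_ae_eq_zero]
    exact (mu_ac V).ae_eq h2
  have h2 := Submodule.dense_iff_topologicalClosure_eq_top.2 h1
  have h3 : Set.range (fun f : TS n => JJ h.toTF f - AA h.toTF f)
      = ((LinearMap.range (JJ h.toTF - AA h.toTF) : Submodule ℝ _) : Set _) := by
    ext y; simp
  rw [h3]
  exact h2

/-! ## totality -/

/-- `u` is in the domain of the closure of `L`, with gradient `Du` and `Au = -L u`; `f` is an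
approximating sequence of test functions -/
structure Dom (V : E n → ℝ) (t : E n → Matrix (Fin n) (Fin n) ℝ) (f : ℕ → E n → ℝ) (u : E n → ℝ)
    (Du : Fin n → E n → ℝ) (Au : E n → ℝ) : Prop where
  test : ∀ m, Test (f m)
  mu : Measurable u
  mD : ∀ a, Measurable (Du a)
  mA : Measurable Au
  iu : Integrable (fun x => u x ^ 2 * Real.exp (-V x))
  iD : ∀ a, Integrable (fun x => Du a x ^ 2 * Real.exp (-V x))
  iA : Integrable (fun x => Au x ^ 2 * Real.exp (-V x))
  lu : Tendsto (fun m => I V (fun x => (f m x - u x) ^ 2)) atTop (𝓝 0)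
  lD : ∀ a, Tendsto (fun m => I V (fun x => (pd a (f m) x - Du a x) ^ 2)) atTop (𝓝 0)
  lA : Tendsto (fun m => I V (fun x => (-(Lt t (f m) x) - Au x) ^ 2)) atTop (𝓝 0)

theorem normsq_toLp (hV : Continuous V) {f : E n → ℝ} (hf : MemLp f 2 (mu V)) :
    ‖hf.toLp f‖ ^ 2 = I V (fun x => f x ^ 2) := by
  rw [← real_inner_self_eq_norm_sq, inner_toLp hV hf hf]
  unfold I
  simp only [sq]

theorem normsq_lp (hV : Continuous V) (f : MeasureTheory.Lp ℝ 2 (mu V)) :
    ‖f‖ ^ 2 = I V (fun x => (f : E n → ℝ) x ^ 2) := by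
  have h := normsq_toLp hV (MeasureTheory.Lp.memLp f)
  rwa [MeasureTheory.Lp.toLp_coeFn] at h

/-- convergence in `Lp` to convergence of integrals -/
theorem tendsto_I_of_tendsto (hV : Continuous V) {g : ℕ → E n → ℝ} (hg : ∀ m, MemLp (g m) 2 (mu V))
    {w : MeasureTheory.Lp ℝ 2 (mu V)} {w' : E n → ℝ} (hw : (w : E n → ℝ) =ᵐ[volume] w')
    (h : Tendsto (fun m => (hg m).toLp (g m)) atTop (𝓝 w)) :
    Tendsto (fun m => I V (fun x => (g m x - w' x) ^ 2)) atTop (𝓝 0) := by
  have h1 : Tendsto (fun m => ‖(hg m).toLp (g m) - w‖ ^ 2) atTop (𝓝 0) := by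
    have := (tendsto_iff_norm_sub_tendsto_zero.1 h).pow 2
    simpa using this
  refine h1.congr fun m => ?_
  rw [normsq_lp hV]
  refine I_congr ?_
  have e1 := (MeasureTheory.Lp.coeFn_sub ((hg m).toLp (g m)) w)
  have e2 := (hg m).coeFn_toLp
  filter_upwards [(ac_mu hV).ae_le e1, (ac_mu hV).ae_le e2, hw] with x h1 h2 h3
  rw [h1, Pi.sub_apply, h2, h3]

/-- the partial derivative of a test function as an element of `L²` -/
theorem memLp_pd (hV : Continuous V) {f : E n → ℝ} (hf : Test f) (a : Fin n) :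
    MemLp (pd a f) 2 (mu V) := memLp_ci hV (CI.of_lc (Test.lc (test_pd hf a)))

theorem exists_meas (hV : Continuous V) (w : MeasureTheory.Lp ℝ 2 (mu V)) :
    ∃ w' : E n → ℝ, Measurable w' ∧ (w : E n → ℝ) =ᵐ[volume] w' ∧
      Integrable (fun x => w' x ^ 2 * Real.exp (-V x)) := by
  have hm : AEStronglyMeasurable (w : E n → ℝ) volume :=
    ((MeasureTheory.Lp.memLp w).1).mono_ac (ac_mu hV)
  refine ⟨hm.mk _, hm.stronglyMeasurable_mk.measurable, hm.ae_eq_mk, ?_⟩
  have h1 := (memLp_iff hV hm).1 (MeasureTheory.Lp.memLp w)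
  refine h1.congr ?_
  filter_upwards [hm.ae_eq_mk] with x hx
  rw [hx]

/-- **totality**: the equation `u - s L u = g` is solvable for all `g ∈ L²` and all `s > 0` -/
theorem total (h : TE V t lam Lam) {g : E n → ℝ} (hg : Measurable g)
    (hgi : Integrable (fun x => g x ^ 2 * Real.exp (-V x))) {s : ℝ} (hs : 0 < s) :
    ∃ (f : ℕ → E n → ℝ) (u : E n → ℝ) (Du : Fin n → E n → ℝ) (Au : E n → ℝ),
      Dom V t f u Du Au ∧ ∀ x, u x + s * Au x = g x := by
  have hV : Continuous V := h.V2.continuous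
  have hgL : MemLp g 2 (mu V) := (memLp_iff hV hg.aestronglyMeasurable).2 hgi
  have hd : Dense (Set.range fun f : TS n => JJ h.toTF f - s • AA h.toTF f) :=
    Abs.dense_smul (sym_AJ h.toTF) (neg_AJ h) (dense_JA h) hs
  obtain ⟨r, F, hF1, hF2⟩ := Abs.total_of_dense (neg_AJ h) hs.le hd (hgL.toLp g)
  obtain ⟨u, hum, hue, hui⟩ := exists_meas hV r
  -- the generator
  have hF3 : Tendsto (fun m => - AA h.toTF (F m)) atTop (𝓝 (s⁻¹ • (hgL.toLp g - r))) := by
    have h1 := (hF2.sub hF1).const_smul s⁻¹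
    refine h1.congr fun m => ?_
    rw [sub_sub_cancel_left, smul_neg, smul_smul, inv_mul_cancel₀ hs.ne', one_smul]
  -- the gradients
  have hgrad : ∀ a, ∃ w : MeasureTheory.Lp ℝ 2 (mu V),
      Tendsto (fun m => (memLp_pd hV (F m).2 a).toLp (pd a (F m).1)) atTop (𝓝 w) := by
    intro a
    refine cauchySeq_tendsto_of_complete ?_
    have hle : ∀ m k, lam * ‖(memLp_pd hV (F m).2 a).toLp (pd a (F m).1) -
        (memLp_pd hV (F k).2 a).toLp (pd a (F k).1)‖ ^ 2 ≤
        ‖AA h.toTF (F m) - AA h.toTF (F k)‖ * ‖JJ h.toTF (F m) - JJ h.toTF (F k)‖ := by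
      intro m k
      have e1 : (memLp_pd hV (F m).2 a).toLp (pd a (F m).1) -
          (memLp_pd hV (F k).2 a).toLp (pd a (F k).1) =
          (memLp_pd hV (F m - F k).2 a).toLp (pd a (F m - F k).1) := by
        rw [← MemLp.toLp_sub]
        refine MemLp.toLp_congr _ _ (Eventually.of_forall fun x => ?_)
        have e2 : pd a (fun y => (F m).1 y + (-1) * (F k).1 y) x =
            pd a (F m).1 x + pd a (fun y => (-1) * (F k).1 y) x := by
          rw [pd_add' (test_diff (F m).2) ((test_diff (F k).2).const_mul (-1)) a]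
        rw [pd_smul' (test_diff (F k).2) (-1) a] at e2
        have e3 : ((F m - F k : TS n) : E n → ℝ) = fun y => (F m).1 y + (-1) * (F k).1 y := by
          funext y
          simp [sub_eq_add_neg]
        rw [e3, e2]
        simp [sub_eq_add_neg]
      rw [e1, normsq_toLp hV]
      have h2 : ‖inner ℝ (AA h.toTF (F m - F k)) (JJ h.toTF (F m - F k))‖ ≤
          ‖AA h.toTF (F m - F k)‖ * ‖JJ h.toTF (F m - F k)‖ := norm_inner_le_norm _ _
      rw [inner_AJ_self, norm_neg, map_sub, map_sub, Real.norm_eq_abs] at h2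
      refine le_trans ?_ ((le_abs_self _).trans h2)
      have h3 : lam * I V (fun x => pd a (F m - F k).1 x ^ 2) =
          I V (fun x => lam * pd a (F m - F k).1 x ^ 2) := by
        unfold I
        rw [← integral_const_mul]
        congr 1; ext x; ring
      rw [h3]
      have ic : CI (fun x => lam * pd a (F m - F k).1 x ^ 2) := by
        have h4 := CI.of_lc (Test.lc (test_pd (F m - F k).2 a))
        have h5 := CI.mul_left (Bd.of_cont (continuous_const (y := lam))) (CI.mul_right h4 h4.1)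
        have e : (fun x => lam * pd a (F m - F k).1 x ^ 2) =
            fun x => lam * (pd a (F m - F k).1 x * pd a (F m - F k).1 x) := by
          funext x; ring
        rw [e]; exact h5
      refine I_mono hV ic (ci_Gam h.toTF (Test.lc (F m - F k).2) (Test.lc (F m - F k).2).1)
        (Eventually.of_forall fun x => ?_)
      refine le_trans ?_ (Gam_low h (F m - F k).1 x)
      refine mul_le_mul_of_nonneg_left ?_ h.lam_pos.le
      exact Finset.single_le_sum (f := fun a => pd a (F m - F k).1 x ^ 2)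
        (fun i _ => sq_nonneg _) (Finset.mem_univ a)
    have hB : CauchySeq fun m => AA h.toTF (F m) := by
      have := hF3.neg.cauchySeq
      simpa using this
    have hJ : CauchySeq fun m => JJ h.toTF (F m) := hF1.cauchySeq
    rw [Metric.cauchySeq_iff] at hB hJ ⊢
    intro ε hε
    set δ : ℝ := min 1 (lam * ε ^ 2) with hδ
    have hδ0 : 0 < δ := lt_min one_pos (mul_pos h.lam_pos (by positivity))
    obtain ⟨N1, hN1⟩ := hB 1 one_pos
    obtain ⟨N2, hN2⟩ := hJ (lam * ε ^ 2) (mul_pos h.lam_pos (by positivity))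
    refine ⟨max N1 N2, fun m hm k hk => ?_⟩
    have h1 := hN1 m (le_of_max_le_left hm) k (le_of_max_le_left hk)
    have h2 := hN2 m (le_of_max_le_right hm) k (le_of_max_le_right hk)
    rw [dist_eq_norm] at h1 h2 ⊢
    have h3 := hle m k
    have h4 : ‖AA h.toTF (F m) - AA h.toTF (F k)‖ * ‖JJ h.toTF (F m) - JJ h.toTF (F k)‖ <
        lam * ε ^ 2 := by
      have h5 : ‖AA h.toTF (F m) - AA h.toTF (F k)‖ * ‖JJ h.toTF (F m) - JJ h.toTF (F k)‖ ≤
          1 * ‖JJ h.toTF (F m) - JJ h.toTF (F k)‖ :=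
        mul_le_mul_of_nonneg_right h1.le (norm_nonneg _)
      linarith
    have h5 := lt_of_le_of_lt h3 h4
    have h6 := lt_of_mul_lt_mul_left h5 h.lam_pos.le
    exact lt_of_pow_lt_pow_left₀ 2 hε.le h6
  choose w hw using hgrad
  have hmw := fun a => exists_meas hV (w a)
  choose Du hDm hDe hDi using hmw
  have hAu : ((s⁻¹ • (hgL.toLp g - r) : MeasureTheory.Lp ℝ 2 (mu V)) : E n → ℝ) =ᵐ[volume]
      fun x => (g x - u x) / s := by
    have e1 := (ac_mu hV).ae_le (MeasureTheory.Lp.coeFn_smul s⁻¹ (hgL.toLp g - r))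
    have e2 := (ac_mu hV).ae_le (MeasureTheory.Lp.coeFn_sub (hgL.toLp g) r)
    have e3 := (ac_mu hV).ae_le hgL.coeFn_toLp
    filter_upwards [e1, e2, e3, hue] with x h1 h2 h3 h4
    rw [h1, Pi.smul_apply, h2, Pi.sub_apply, h3, h4, smul_eq_mul]
    field_simp
  refine ⟨fun m => (F m).1, u, Du, fun x => (g x - u x) / s, ⟨fun m => (F m).2, hum, hDm,
    (hg.sub hum).div_const s, hui, hDi, ?_, ?_, ?_, ?_⟩, fun x => by field_simp; ring⟩
  · have h1 := (memLp_iff hV hg.aestronglyMeasurable).2 hgi
    have h2 := (memLp_iff hV hum.aestronglyMeasurable).2 hui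
    have h3 := (h1.sub h2).const_mul s⁻¹
    have h4 := (memLp_iff hV (((hg.sub hum).const_mul s⁻¹).aestronglyMeasurable)).1 h3
    refine h4.congr (Eventually.of_forall fun x => ?_)
    simp only [Pi.sub_apply]
    congr 2
    field_simp
  · exact tendsto_I_of_tendsto hV (fun m => memLp_ci hV (CI.of_lc (Test.lc (F m).2))) hue hF1
  · intro a
    exact tendsto_I_of_tendsto hV (fun m => memLp_pd hV (F m).2 a) (hDe a) (hw a)
  · have hm : ∀ m, MemLp (fun x => -(Lt t (F m).1 x)) 2 (mu V) := fun m =>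
      (memLp_ci hV (CI.of_lc (lc_Lt h.toTF (F m).2))).neg
    refine tendsto_I_of_tendsto hV hm hAu ?_
    refine hF3.congr fun m => ?_
    exact (MemLp.toLp_neg (memLp_ci hV (CI.of_lc (lc_Lt h.toTF (F m).2)))).symm

end Vale.Agent.P245.H464
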