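import Mathlib
import Vale.Agent.P254.Bdl.B1
import Vale.Agent.P254.Bdl.B19

/-!
# P245 (helper464): essential self-adjointness of `L` on test functions, for a general coefficient
field (`TB V t` of P254/S2).  Parts 1-5 are a copy of P227/M/LIN/E456 (P227/Bd3), renamed.
-/

set_option linter.all false

section

/-! # Mollification on a Euclidean space: `mo ρ f = ρ * f`, derivatives, `L²` bounds and convergence -/

open MeasureTheory Filter Topology
open scoped ContDiff

namespace Vale.Agent.P245.Moll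

variable {E : Type*} [NormedAddCommGroup E] [InnerProductSpace ℝ E] [FiniteDimensional ℝ E]
  [MeasurableSpace E] [BorelSpace E]

section nsq

variable {F : Type*} [NormedAddCommGroup F]

/-- square of the `L²` norm -/
noncomputable def nsq (f : E → F) : ℝ := ∫ x, ‖f x‖ ^ 2

lemma nsq_nonneg (f : E → F) : 0 ≤ nsq f := integral_nonneg fun _ => by positivity

lemma memLp_norm_sq_int {f : E → F} (hf : MemLp f 2 (volume : Measure E)) :
    Integrable (fun x => ‖f x‖ ^ 2) := hf.integrable_norm_pow (by norm_num)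

lemma nsq_add_le {f g : E → F} (hf : MemLp f 2 (volume : Measure E))
    (hg : MemLp g 2 (volume : Measure E)) :
    nsq (fun x => f x + g x) ≤ 2 * nsq f + 2 * nsq g := by
  have i1 := (memLp_norm_sq_int hf).const_mul 2
  have i2 := (memLp_norm_sq_int hg).const_mul 2
  rw [nsq, nsq, nsq, ← integral_const_mul, ← integral_const_mul, ← integral_add i1 i2]
  refine integral_mono_of_nonneg (Eventually.of_forall fun x => by positivity) (i1.add i2)
    (Eventually.of_forall fun x => ?_)
  have h := norm_add_le (f x) (g x)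
  have h2 := pow_le_pow_left₀ (norm_nonneg _) h 2
  nlinarith [sq_nonneg (‖f x‖ - ‖g x‖)]

lemma nsq_le_of_eLpNorm {f : E → F} (hf : MemLp f 2 (volume : Measure E)) {s : ℝ} (hs : 0 ≤ s)
    (h : eLpNorm f 2 (volume : Measure E) ≤ ENNReal.ofReal s) : nsq f ≤ s ^ 2 := by
  have h1 : eLpNorm f 2 (volume : Measure E) ^ 2 = ∫⁻ x, ‖f x‖ₑ ^ 2 := by
    rw [eLpNorm_eq_lintegral_rpow_enorm_toReal (by norm_num) (by norm_num)]
    simp only [ENNReal.toReal_ofNat, ENNReal.rpow_ofNat, one_div]
    rw [← ENNReal.rpow_natCast, ← ENNReal.rpow_mul]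
    norm_num
  have h2 : ENNReal.ofReal (nsq f) = ∫⁻ x, ‖f x‖ₑ ^ 2 := by
    rw [nsq, ofReal_integral_eq_lintegral_ofReal (memLp_norm_sq_int hf)
      (Eventually.of_forall fun x => by positivity)]
    refine lintegral_congr fun x => ?_
    rw [ENNReal.ofReal_pow (norm_nonneg _), ofReal_norm]
  have h3 : ENNReal.ofReal (nsq f) ≤ ENNReal.ofReal (s ^ 2) := by
    rw [h2, ← h1, ENNReal.ofReal_pow hs]
    gcongr
  exact (ENNReal.ofReal_le_ofReal_iff (by positivity)).1 h3

end nsq

section general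

variable {G : Type*} [NormedAddCommGroup G] [NormedSpace ℝ G]

/-- mollification -/
noncomputable def mo (ρ : E → ℝ) (f : E → G) (x : E) : G := ∫ y, ρ (x - y) • f y

lemma mo_eq_conv (ρ : E → ℝ) (f : E → G) :
    mo ρ f = convolution f ρ (ContinuousLinearMap.lsmul ℝ ℝ).flip volume := rfl

lemma mo_eq_conv' (ρ : E → ℝ) (f : E → G) :
    mo ρ f = convolution ρ f (ContinuousLinearMap.lsmul ℝ ℝ) volume := by
  rw [mo_eq_conv, convolution_flip]

lemma integrable_mo {ρ : E → ℝ} (hρ : Continuous ρ) (hc : HasCompactSupport ρ) {f : E → G}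
    (hf : LocallyIntegrable f volume) (x : E) : Integrable (fun y => ρ (x - y) • f y) := by
  have h := HasCompactSupport.convolutionExists_right
    ((ContinuousLinearMap.lsmul ℝ ℝ : ℝ →L[ℝ] G →L[ℝ] G).flip) hc hf hρ x
  exact h

lemma contDiff_mo {ρ : E → ℝ} (hρ : ContDiff ℝ ∞ ρ) (hc : HasCompactSupport ρ) {f : E → G}
    (hf : LocallyIntegrable f volume) : ContDiff ℝ ∞ (mo ρ f) := by
  rw [mo_eq_conv]
  exact hc.contDiff_convolution_right _ hf hρ

lemma fderiv_mo {ρ : E → ℝ} (hρ : ContDiff ℝ ∞ ρ) (hc : HasCompactSupport ρ) {f : E → G}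
    (hf : LocallyIntegrable f volume) (x e : E) :
    fderiv ℝ (mo ρ f) x e = mo (fun z => fderiv ℝ ρ z e) f x := by
  have h1 := hc.hasFDerivAt_convolution_right
    ((ContinuousLinearMap.lsmul ℝ ℝ : ℝ →L[ℝ] G →L[ℝ] G).flip) hf (hρ.of_le (by simp)) x
  have h2 : fderiv ℝ (mo ρ f) x = _ := h1.fderiv
  rw [h2, convolution_precompR_apply _ hf (hc.fderiv ℝ) (hρ.continuous_fderiv (by simp))]
  rfl

lemma mo_sub {ρ : E → ℝ} (hρ : Continuous ρ) (hc : HasCompactSupport ρ) {f g : E → G}
    (hf : LocallyIntegrable f volume) (hg : LocallyIntegrable g volume) (x : E) :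
    mo ρ (fun y => f y - g y) x = mo ρ f x - mo ρ g x := by
  unfold mo
  rw [← integral_sub (integrable_mo hρ hc hf x) (integrable_mo hρ hc hg x)]
  simp only [smul_sub]

end general

/-- mollifiers of radius `ε` -/
structure IsMol (ε : ℝ) (ρ : E → ℝ) : Prop where
  contDiff : ContDiff ℝ ∞ ρ
  hcs : HasCompactSupport ρ
  nonneg : ∀ x, 0 ≤ ρ x
  supp : ∀ x, ε ≤ ‖x‖ → ρ x = 0
  one : ∫ x, ρ x = 1

section jensen

variable {G : Type*} [NormedAddCommGroup G] [NormedSpace ℝ G] {ε : ℝ} {ρ : E → ℝ}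

lemma norm_mo_le' {ρ : E → ℝ} (h0 : ∀ x, 0 ≤ ρ x) (f : E → G) (x : E) :
    ‖mo ρ f x‖ ≤ mo ρ (fun y => ‖f y‖) x := by
  unfold mo
  refine (norm_integral_le_integral_norm _).trans (le_of_eq ?_)
  refine integral_congr_ae (Eventually.of_forall fun y => ?_)
  simp only [norm_smul, Real.norm_of_nonneg (h0 _), smul_eq_mul]

lemma norm_mo_le (h : IsMol ε ρ) (f : E → G) (x : E) :
    ‖mo ρ f x‖ ≤ mo ρ (fun y => ‖f y‖) x := norm_mo_le' h.nonneg f x

end jensen

section L2

variable {F : Type*} [NormedAddCommGroup F] {ε : ℝ} {ρ : E → ℝ}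

lemma locInt {f : E → F} (hf : MemLp f 2 (volume : Measure E)) :
    LocallyIntegrable f volume := hf.locallyIntegrable (by norm_num)

lemma locInt_sq {f : E → F} (hf : MemLp f 2 (volume : Measure E)) :
    LocallyIntegrable (fun y => ‖f y‖ ^ 2) volume := (memLp_norm_sq_int hf).locallyIntegrable

/-- Cauchy-Schwarz for a nonnegative kernel of mass `m` -/
lemma sq_mo_le {ρ : E → ℝ} (hρ : Continuous ρ) (hc : HasCompactSupport ρ) (h0 : ∀ x, 0 ≤ ρ x)
    {f : E → F} (hf : LocallyIntegrable f volume)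
    (hf2 : LocallyIntegrable (fun y => ‖f y‖ ^ 2) volume) (x : E) :
    (mo ρ (fun y => ‖f y‖) x) ^ 2 ≤ (∫ x, ρ x) * mo ρ (fun y => ‖f y‖ ^ 2) x := by
  have i1 : Integrable (fun y => ρ (x - y) • ‖f y‖) :=
    integrable_mo hρ hc (fun z => (hf z).norm) x
  have i2 : Integrable (fun y => ρ (x - y) • ‖f y‖ ^ 2) :=
    integrable_mo hρ hc hf2 x
  have i3 : Integrable (fun y => ρ (x - y)) :=
    (hρ.integrable_of_hasCompactSupport hc).comp_sub_left x
  have hm : ∫ y, ρ (x - y) = ∫ x, ρ x := integral_sub_left_eq_self ρ volume x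
  have hm0 : 0 ≤ ∫ x, ρ x := integral_nonneg h0
  set A := mo ρ (fun y => ‖f y‖) x with hA
  set B := mo ρ (fun y => ‖f y‖ ^ 2) x with hB
  set M := ∫ x, ρ x with hM
  have h2 : ∀ t : ℝ, 0 ≤ M * t ^ 2 - 2 * t * A + B := by
    intro t
    have h1 : 0 ≤ ∫ y, ρ (x - y) * (t - ‖f y‖) ^ 2 :=
      integral_nonneg fun y => mul_nonneg (h0 _) (sq_nonneg _)
    have h2 : ∫ y, ρ (x - y) * (t - ‖f y‖) ^ 2 = B - 2 * t * A + t ^ 2 * M := by
      have i4 : Integrable (fun y => ρ (x - y) • ‖f y‖ ^ 2 - 2 * t * (ρ (x - y) • ‖f y‖)) :=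
        i2.sub (i1.const_mul _)
      rw [hA, hB, ← hm]
      unfold mo
      rw [← integral_const_mul, ← integral_const_mul, ← integral_sub i2 (i1.const_mul _),
        ← integral_add i4 (i3.const_mul _)]
      refine integral_congr_ae (Eventually.of_forall fun y => ?_)
      simp only [smul_eq_mul]
      ring
    rw [h2] at h1
    nlinarith
  have h3 := discrim_le_zero (a := M) (b := -2 * A) (c := B) (fun t => by have := h2 t; nlinarith)
  unfold discrim at h3
  nlinarith

lemma integral_mo_sq {ρ : E → ℝ} (hρ : Continuous ρ) (hc : HasCompactSupport ρ)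
    {f : E → F} (hf : MemLp f 2 (volume : Measure E)) :
    Integrable (mo ρ (fun y => ‖f y‖ ^ 2)) ∧
      ∫ x, mo ρ (fun y => ‖f y‖ ^ 2) x = (∫ x, ρ x) * nsq f := by
  have i1 := memLp_norm_sq_int hf
  have i2 : Integrable ρ := hρ.integrable_of_hasCompactSupport hc
  rw [mo_eq_conv]
  refine ⟨i1.integrable_convolution _ i2, ?_⟩
  rw [integral_convolution _ i1 i2]
  simp [nsq]

/-- bound for functions dominated by `ρ * |f|`, for a nonnegative kernel `ρ` -/
lemma nsq_le_mo {ρ : E → ℝ} (hρ : Continuous ρ) (hc : HasCompactSupport ρ) (h0 : ∀ x, 0 ≤ ρ x)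
    {f : E → F} (hf : MemLp f 2 (volume : Measure E))
    {F' : Type*} [NormedAddCommGroup F'] {w : E → F'} (hm : AEStronglyMeasurable w volume)
    (hw : ∀ x, ‖w x‖ ≤ mo ρ (fun y => ‖f y‖) x) :
    MemLp w 2 (volume : Measure E) ∧ nsq w ≤ (∫ x, ρ x) ^ 2 * nsq f := by
  obtain ⟨i1, i2⟩ := integral_mo_sq hρ hc hf
  have hb : ∀ x, ‖w x‖ ^ 2 ≤ (∫ x, ρ x) * mo ρ (fun y => ‖f y‖ ^ 2) x := by
    intro x
    calc ‖w x‖ ^ 2 ≤ (mo ρ (fun y => ‖f y‖) x) ^ 2 :=
          pow_le_pow_left₀ (norm_nonneg _) (hw x) 2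
      _ ≤ _ := sq_mo_le hρ hc h0 (locInt hf) (locInt_sq hf) x
  constructor
  · refine (memLp_two_iff_integrable_sq_norm hm).mpr ?_
    refine (i1.const_mul (∫ x, ρ x)).mono' (hm.norm.pow 2) (Eventually.of_forall fun x => ?_)
    rw [Real.norm_of_nonneg (by positivity)]
    exact hb x
  · have e : (∫ x, ρ x) ^ 2 * nsq f = ∫ x, (∫ x, ρ x) * mo ρ (fun y => ‖f y‖ ^ 2) x := by
      rw [integral_const_mul, i2]; ring
    rw [e]
    exact integral_mono_of_nonneg (Eventually.of_forall fun x => by positivity)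
      (i1.const_mul _) (Eventually.of_forall hb)

variable [NormedSpace ℝ F]

lemma nsq_mo_le (h : IsMol ε ρ) {f : E → F} (hf : MemLp f 2 (volume : Measure E)) :
    MemLp (mo ρ f) 2 (volume : Measure E) ∧ nsq (mo ρ f) ≤ nsq f := by
  have h1 := nsq_le_mo h.contDiff.continuous h.hcs h.nonneg hf
    (contDiff_mo h.contDiff h.hcs (locInt hf)).continuous.aestronglyMeasurable
    (fun x => norm_mo_le h f x)
  rw [h.one] at h1
  simpa using h1

/-- mollification of a continuous compactly supported function -/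
lemma mo_approx_cont [CompleteSpace F] {g : E → F} (hg : Continuous g) (hgc : HasCompactSupport g)
    {δ : ℝ} (hδ : 0 < δ) : ∃ ε₀ > 0, ∀ ε, ε ≤ ε₀ → ∀ ρ, IsMol ε ρ →
      nsq (fun x => mo ρ g x - g x) ≤ δ := by
  obtain ⟨r, hr⟩ := hgc.isCompact.isBounded.subset_closedBall (0 : E)
  have hg0 : ∀ x, r < ‖x‖ → g x = 0 := by
    intro x hx
    by_contra hne
    have h1 := hr (subset_tsupport _ hne)
    rw [Metric.mem_closedBall, dist_zero_right] at h1
    linarith
  obtain ⟨v, hv⟩ : ∃ v : ℝ, v = (volume (Metric.closedBall (0 : E) (r + 1))).toReal := ⟨_, rfl⟩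
  have hv0 : 0 ≤ v := hv ▸ ENNReal.toReal_nonneg
  obtain ⟨η, hη⟩ : ∃ η : ℝ, η = Real.sqrt (δ / (v + 1)) := ⟨_, rfl⟩
  have hη0 : 0 < η := hη ▸ Real.sqrt_pos.2 (by positivity)
  have huc : UniformContinuous g := hgc.uniformContinuous_of_continuous hg
  obtain ⟨ε₁, hε₁, h1⟩ := Metric.uniformContinuous_iff.1 huc η hη0
  refine ⟨min ε₁ 1, lt_min hε₁ one_pos, fun ε hε ρ hρ => ?_⟩
  have hsupp : Function.support ρ ⊆ Metric.ball (0 : E) ε := by
    intro z hz
    rw [Metric.mem_ball, dist_zero_right]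
    by_contra hcon
    exact hz (hρ.supp z (not_lt.1 hcon))
  have hbd : ∀ x, ‖mo ρ g x - g x‖ ^ 2 ≤
      (Metric.closedBall (0 : E) (r + 1)).indicator (fun _ => η ^ 2) x := by
    intro x
    by_cases hx : x ∈ Metric.closedBall (0 : E) (r + 1)
    · rw [Set.indicator_of_mem hx]
      refine pow_le_pow_left₀ (norm_nonneg _) ?_ 2
      rw [← dist_eq_norm, mo_eq_conv']
      refine dist_convolution_le hη0.le hsupp hρ.nonneg hρ.one hg.aestronglyMeasurable ?_
      intro y hy
      exact (h1 (lt_of_lt_of_le hy (hε.trans (min_le_left _ _)))).le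
    · rw [Set.indicator_of_notMem hx]
      have hx' : r + 1 < ‖x‖ := by
        rw [Metric.mem_closedBall, dist_zero_right, not_le] at hx
        exact hx
      have h2 : ‖mo ρ g x - g x‖ ≤ 0 := by
        rw [← dist_eq_norm, mo_eq_conv']
        refine dist_convolution_le le_rfl hsupp hρ.nonneg hρ.one hg.aestronglyMeasurable ?_
        intro y hy
        have hy1 : dist y x < 1 := lt_of_lt_of_le hy (hε.trans (min_le_right _ _))
        have hy2 : r < ‖y‖ := by
          have h3 : ‖x‖ ≤ ‖y‖ + dist y x := by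
            have := norm_sub_norm_le x y
            rw [dist_comm, dist_eq_norm]
            linarith
          linarith
        rw [hg0 y hy2, hg0 x (by linarith), dist_self]
      have h3 : ‖mo ρ g x - g x‖ = 0 := le_antisymm h2 (norm_nonneg _)
      rw [h3]
      norm_num
  have hfin : volume (Metric.closedBall (0 : E) (r + 1)) ≠ ⊤ :=
    (isCompact_closedBall (0 : E) (r + 1)).measure_lt_top.ne
  calc nsq (fun x => mo ρ g x - g x)
      ≤ ∫ x, (Metric.closedBall (0 : E) (r + 1)).indicator (fun _ => η ^ 2) x := by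
        refine integral_mono_of_nonneg (Eventually.of_forall fun x => by positivity) ?_
          (Eventually.of_forall hbd)
        exact (integrable_indicator_iff Metric.isClosed_closedBall.measurableSet).2
          (integrableOn_const hfin)
    _ = v * η ^ 2 := by
        rw [integral_indicator Metric.isClosed_closedBall.measurableSet, setIntegral_const,
          smul_eq_mul, hv]
        rfl
    _ ≤ δ := by
        rw [hη, Real.sq_sqrt (by positivity), mul_div_assoc']
        rw [div_le_iff₀ (by positivity)]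
        nlinarith

/-- mollification converges in `L²` -/
lemma mo_approx [CompleteSpace F] {f : E → F} (hf : MemLp f 2 (volume : Measure E)) {δ : ℝ}
    (hδ : 0 < δ) :
    ∃ ε₀ > 0, ∀ ε, ε ≤ ε₀ → ∀ ρ, IsMol ε ρ → nsq (fun x => mo ρ f x - f x) ≤ δ := by
  obtain ⟨s, hs⟩ : ∃ s : ℝ, s = Real.sqrt (δ / 12) := ⟨_, rfl⟩
  have hs0 : 0 < s := hs ▸ Real.sqrt_pos.2 (by positivity)
  obtain ⟨g, hgc, hfg, hg, hgm⟩ := hf.exists_hasCompactSupport_eLpNorm_sub_le (by norm_num)
    (ε := ENNReal.ofReal s) (by simpa using hs0)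
  have hd : MemLp (fun x => f x - g x) 2 (volume : Measure E) := hf.sub hgm
  have h1 : nsq (fun x => f x - g x) ≤ δ / 12 := by
    have e1 := nsq_le_of_eLpNorm hd hs0.le hfg
    rwa [hs, Real.sq_sqrt (by positivity)] at e1
  obtain ⟨ε₀, hε₀, h2⟩ := mo_approx_cont hg hgc (show 0 < δ / 12 by positivity)
  refine ⟨ε₀, hε₀, fun ε hε ρ hρ => ?_⟩
  have h3 := h2 ε hε ρ hρ
  have h4 := nsq_mo_le hρ hd
  have m1 : MemLp (mo ρ (fun x => f x - g x)) 2 (volume : Measure E) := h4.1
  have m2 : MemLp (fun x => mo ρ g x - g x) 2 (volume : Measure E) :=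
    (nsq_mo_le hρ hgm).1.sub hgm
  have m3 : MemLp (fun x => g x - f x) 2 (volume : Measure E) := hgm.sub hf
  have e : (fun x => mo ρ f x - f x) = fun x =>
      mo ρ (fun x => f x - g x) x + ((mo ρ g x - g x) + (g x - f x)) := by
    funext x
    rw [mo_sub hρ.contDiff.continuous hρ.hcs (locInt hf) (locInt hgm)]
    abel
  have e3 : nsq (fun x => g x - f x) = nsq (fun x => f x - g x) := by
    unfold nsq
    refine integral_congr_ae (Eventually.of_forall fun x => ?_)
    simp only [norm_sub_rev]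
  rw [e]
  have b1 := nsq_add_le m1 (m2.add m3)
  have b2 := nsq_add_le m2 m3
  have b3 : nsq (fun x => mo ρ (fun x => f x - g x) x + ((mo ρ g x - g x) + (g x - f x))) ≤
    2 * nsq (mo ρ (fun x => f x - g x)) + 2 * nsq (fun x => (mo ρ g x - g x) + (g x - f x)) := b1
  rw [e3] at b2
  linarith [h4.2]

end L2

end Vale.Agent.P245.Moll
end

section

/-! # Standard mollifiers `stdM ε`, swap, integration by parts, `L²` sequences -/

open MeasureTheory Filter Topology
open scoped ContDiff

namespace Vale.Agent.P245.Moll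

variable {E : Type*} [NormedAddCommGroup E] [InnerProductSpace ℝ E] [FiniteDimensional ℝ E]
  [MeasurableSpace E] [BorelSpace E]

/-- derivative of a mollification of a `C¹` function -/
lemma fderiv_mo' {G : Type*} [NormedAddCommGroup G] [NormedSpace ℝ G] {ρ : E → ℝ}
    (hρ : LocallyIntegrable ρ volume) {g : E → G}
    (hg : ContDiff ℝ 1 g) (hc : HasCompactSupport g) (x e : E) :
    fderiv ℝ (mo ρ g) x e = mo ρ (fun y => fderiv ℝ g y e) x := by
  have h1 := hc.hasFDerivAt_convolution_right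
    ((ContinuousLinearMap.lsmul ℝ ℝ : ℝ →L[ℝ] G →L[ℝ] G)) hρ hg x
  have h2 := h1.fderiv
  rw [← mo_eq_conv'] at h2
  rw [h2, convolution_precompR_apply _ hρ (hc.fderiv ℝ) (hg.continuous_fderiv (by simp)),
    mo_eq_conv']

/-- moving an even mollifier to the other side -/
lemma mo_swap {ρ : E → ℝ} (hρ : Continuous ρ) (hc : HasCompactSupport ρ) (he : ∀ x, ρ (-x) = ρ x)
    {p G : E → ℝ} (hp : Integrable p) (hG : Continuous G) (hGc : HasCompactSupport G) :
    ∫ x, p x * mo ρ G x = ∫ x, mo ρ p x * G x := by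
  have hρi : Integrable ρ := hρ.integrable_of_hasCompactSupport hc
  have h1 := hp.convolution_integrand (ContinuousLinearMap.mul ℝ ℝ) hρi (μ := volume) (ν := volume)
  obtain ⟨B, hB⟩ := hGc.exists_bound_of_continuous hG
  have h2 : Integrable (fun z : E × E => (p z.2 * ρ (z.1 - z.2)) * G z.1)
      ((volume : Measure E).prod volume) := by
    refine Integrable.mul_bdd (c := B) h1 ?_ (Eventually.of_forall fun z => hB z.1)
    exact (hG.comp continuous_fst).aestronglyMeasurable
  have h3 := integral_integral_swap (f := fun x y : E => (p y * ρ (x - y)) * G x) h2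
  have e1 : ∫ x, ∫ y, (p y * ρ (x - y)) * G x = ∫ x, mo ρ p x * G x := by
    refine integral_congr_ae (Eventually.of_forall fun x => ?_)
    simp only [mo, smul_eq_mul]
    rw [integral_mul_const]
    congr 1
    refine integral_congr_ae (Eventually.of_forall fun y => ?_)
    simp only []
    ring
  have e2 : ∫ y, ∫ x, (p y * ρ (x - y)) * G x = ∫ y, p y * mo ρ G y := by
    refine integral_congr_ae (Eventually.of_forall fun y => ?_)
    simp only [mo, smul_eq_mul]
    rw [← integral_const_mul]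
    refine integral_congr_ae (Eventually.of_forall fun x => ?_)
    simp only []
    rw [show y - x = -(x - y) by abel, he]
    ring
  rw [← e1, ← e2, h3]

/-- integration by parts -/
lemma ibp {u g : E → ℝ} (hu : ContDiff ℝ 1 u) (hg : ContDiff ℝ 1 g) (hc : HasCompactSupport g)
    (e : E) : ∫ x, u x * fderiv ℝ g x e = - ∫ x, fderiv ℝ u x e * g x := by
  have hu' : Continuous (fun x => fderiv ℝ u x e) :=
    (hu.continuous_fderiv (by simp)).clm_apply continuous_const
  have hg' : Continuous (fun x => fderiv ℝ g x e) :=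
    (hg.continuous_fderiv (by simp)).clm_apply continuous_const
  have hc' : HasCompactSupport (fun x => fderiv ℝ g x e) :=
    (hc.fderiv ℝ).comp_left (g := fun L : E →L[ℝ] ℝ => L e) (by simp)
  refine integral_mul_fderiv_eq_neg_fderiv_mul_of_integrable ?_ ?_ ?_
    (fun x _ => hu.differentiable (by simp) x) (fun x _ => hg.differentiable (by simp) x)
  · exact (hu'.mul hg.continuous).integrable_of_hasCompactSupport hc.mul_left
  · exact (hu.continuous.mul hg').integrable_of_hasCompactSupport hc'.mul_left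
  · exact (hu.continuous.mul hg.continuous).integrable_of_hasCompactSupport hc.mul_left

section std

variable (E)

/-- the reference bump -/
noncomputable def bmp : ContDiffBump (0 : E) := ⟨1 / 2, 1, by norm_num, by norm_num⟩

/-- the reference mollifier -/
noncomputable def eta : E → ℝ := (bmp E).normed volume

variable {E}

/-- the standard mollifier of radius `ε` -/
noncomputable def stdM (ε : ℝ) (x : E) : ℝ := ε⁻¹ ^ (Module.finrank ℝ E) * eta E (ε⁻¹ • x)

lemma eta_contDiff : ContDiff ℝ ∞ (eta E) := (bmp E).contDiff_normed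

lemma eta_hcs : HasCompactSupport (eta E) := (bmp E).hasCompactSupport_normed

lemma eta_nonneg (x : E) : 0 ≤ eta E x := (bmp E).nonneg_normed x

lemma eta_zero {x : E} (h : 1 ≤ ‖x‖) : eta E x = 0 := by
  have h1 : x ∉ Function.support (eta E) := by
    unfold eta
    rw [(bmp E).support_normed_eq]
    simpa [bmp] using h
  simpa using h1

lemma eta_int : ∫ x, eta E x = 1 := (bmp E).integral_normed

lemma eta_neg (x : E) : eta E (-x) = eta E x := (bmp E).normed_neg x

lemma stdM_even (ε : ℝ) (x : E) : stdM ε (-x) = stdM ε x := by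
  unfold stdM
  rw [smul_neg, eta_neg]

lemma stdM_isMol {ε : ℝ} (hε : 0 < ε) : IsMol ε (stdM ε : E → ℝ) where
  contDiff := contDiff_const.mul (eta_contDiff.comp (contDiff_const_smul _))
  hcs := by
    have h1 : HasCompactSupport (fun x : E => eta E (ε⁻¹ • x)) :=
      eta_hcs.comp_homeomorph (Homeomorph.smulOfNeZero ε⁻¹ (inv_ne_zero hε.ne'))
    exact h1.mul_left
  nonneg x := mul_nonneg (by positivity) (eta_nonneg _)
  supp x hx := by
    unfold stdM
    rw [eta_zero, mul_zero]
    rw [norm_smul, norm_inv, Real.norm_of_nonneg hε.le, inv_mul_eq_div, le_div_iff₀ hε]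
    linarith
  one := by
    unfold stdM
    rw [integral_const_mul, Measure.integral_comp_smul_of_nonneg _ _ _ (hR := by positivity), eta_int]
    rw [smul_eq_mul, mul_one]
    exact mul_inv_cancel₀ (by positivity)

/-- the kernel `‖D η_ε‖ ‖z‖` -/
noncomputable def kerM (ε : ℝ) (z : E) : ℝ := ‖fderiv ℝ (stdM ε : E → ℝ) z‖ * ‖z‖

lemma kerM_eq {ε : ℝ} (hε : 0 < ε) (z : E) :
    kerM ε z = ε⁻¹ ^ (Module.finrank ℝ E) * kerM 1 (ε⁻¹ • z) := by
  have h0 : (stdM 1 : E → ℝ) = eta E := by
    funext x; simp [stdM]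
  have h1 : fderiv ℝ (stdM ε : E → ℝ) z =
      (ε⁻¹ ^ (Module.finrank ℝ E)) • (ε⁻¹ • fderiv ℝ (eta E) (ε⁻¹ • z)) := by
    have h2 : HasFDerivAt (fun x : E => ε⁻¹ • x) (ε⁻¹ • ContinuousLinearMap.id ℝ E) z :=
      (hasFDerivAt_id z).const_smul ε⁻¹
    have h3 : HasFDerivAt (eta E) (fderiv ℝ (eta E) (ε⁻¹ • z)) (ε⁻¹ • z) :=
      ((eta_contDiff.differentiable (by simp)) _).hasFDerivAt
    have h4 := (h3.comp z h2).const_mul (ε⁻¹ ^ (Module.finrank ℝ E))
    have h5 : fderiv ℝ (stdM ε : E → ℝ) z = _ := h4.fderiv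
    rw [h5]
    ext v
    simp
  unfold kerM
  rw [h1, h0, norm_smul, norm_smul, norm_smul]
  rw [Real.norm_of_nonneg (show (0 : ℝ) ≤ ε⁻¹ ^ (Module.finrank ℝ E) by positivity),
    Real.norm_of_nonneg (show (0 : ℝ) ≤ ε⁻¹ by positivity)]
  ring

lemma kerM_cont {ε : ℝ} (hε : 0 < ε) : Continuous (kerM ε : E → ℝ) :=
  (((stdM_isMol hε).contDiff.continuous_fderiv (by simp)).norm).mul continuous_norm

lemma kerM_hcs {ε : ℝ} (hε : 0 < ε) : HasCompactSupport (kerM ε : E → ℝ) := by
  have h1 : HasCompactSupport (fderiv ℝ (stdM ε : E → ℝ)) := (stdM_isMol hε).hcs.fderiv ℝ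
  refine HasCompactSupport.mono' h1 (fun z hz => subset_tsupport _ ?_)
  intro h0
  apply hz
  unfold kerM
  rw [h0, norm_zero, zero_mul]

lemma kerM_nonneg (ε : ℝ) (z : E) : 0 ≤ kerM ε z := by unfold kerM; positivity

lemma kerM_int {ε : ℝ} (hε : 0 < ε) : ∫ z : E, kerM ε z = ∫ z : E, kerM 1 z := by
  simp only [kerM_eq hε]
  rw [integral_const_mul, Measure.integral_comp_smul_of_nonneg _ _ _ (hR := by positivity)]
  rw [smul_eq_mul, ← mul_assoc, mul_inv_cancel₀ (by positivity), one_mul]

end std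

/-- `L²` convergence -/
structure L2t (f : ℕ → E → ℝ) (g : E → ℝ) : Prop where
  mem : ∀ n, MemLp (f n) 2 (volume : Measure E)
  mem' : MemLp g 2 (volume : Measure E)
  lim : Tendsto (fun n => nsq (fun x => f n x - g x)) atTop (𝓝 0)

lemma norm_toLp {f : E → ℝ} (hf : MemLp f 2 (volume : Measure E)) :
    ‖hf.toLp f‖ ^ 2 = nsq f := by
  rw [← real_inner_self_eq_norm_sq, MeasureTheory.L2.inner_def]
  refine integral_congr_ae ?_
  filter_upwards [hf.coeFn_toLp] with x hx
  rw [hx, real_inner_self_eq_norm_sq]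

namespace L2t

variable {f f' : ℕ → E → ℝ} {g g' : E → ℝ}

lemma lim_toLp (h : L2t f g) :
    Tendsto (fun n => (h.mem n).toLp (f n)) atTop (𝓝 (h.mem'.toLp g)) := by
  rw [tendsto_iff_norm_sub_tendsto_zero]
  have h1 : ∀ n, ‖(h.mem n).toLp (f n) - h.mem'.toLp g‖ =
      Real.sqrt (nsq (fun x => f n x - g x)) := by
    intro n
    rw [← MemLp.toLp_sub, ← Real.sqrt_sq (norm_nonneg (MemLp.toLp _ _)), norm_toLp]
    rfl
  simp only [h1]
  have := (Real.continuous_sqrt.tendsto 0).comp h.lim
  rw [Real.sqrt_zero] at this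
  exact this

lemma lim_mul (h : L2t f g) (h' : L2t f' g') :
    Tendsto (fun n => ∫ x, f n x * f' n x) atTop (𝓝 (∫ x, g x * g' x)) := by
  have h1 : ∀ {a b : E → ℝ} (ha : MemLp a 2 (volume : Measure E))
      (hb : MemLp b 2 (volume : Measure E)),
      ∫ x, a x * b x = inner ℝ (ha.toLp a) (hb.toLp b) := by
    intro a b ha hb
    rw [MeasureTheory.L2.inner_def]
    refine integral_congr_ae ?_
    filter_upwards [ha.coeFn_toLp, hb.coeFn_toLp] with x hx hy
    rw [hx, hy]
    simp [mul_comm]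
  have h2 := h.lim_toLp.inner h'.lim_toLp (𝕜 := ℝ)
  rw [h1 h.mem' h'.mem']
  refine h2.congr fun n => ?_
  rw [← h1]

/-- multiplication by a bounded function -/
lemma bmul (h : L2t f g) {w : E → ℝ} (hw : AEStronglyMeasurable w (volume : Measure E)) {B : ℝ}
    (hB : ∀ x, |w x| ≤ B) : L2t (fun n x => w x * f n x) (fun x => w x * g x) := by
  have hm : ∀ {a : E → ℝ}, MemLp a 2 (volume : Measure E) →
      MemLp (fun x => w x * a x) 2 (volume : Measure E) := by
    intro a ha
    refine MemLp.of_le_mul (c := B) ha (hw.mul ha.1) (Eventually.of_forall fun x => ?_)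
    rw [norm_mul]
    exact mul_le_mul_of_nonneg_right (hB x) (norm_nonneg _)
  refine ⟨fun n => hm (h.mem n), hm h.mem', ?_⟩
  have h1 : ∀ n, nsq (fun x => w x * f n x - w x * g x) ≤ B ^ 2 * nsq (fun x => f n x - g x) := by
    intro n
    have i1 := memLp_norm_sq_int ((h.mem n).sub h.mem')
    rw [nsq, nsq, ← integral_const_mul]
    refine integral_mono_of_nonneg (Eventually.of_forall fun x => by positivity)
      (i1.const_mul _) (Eventually.of_forall fun x => ?_)
    have h2 : ‖w x * f n x - w x * g x‖ ≤ B * ‖f n x - g x‖ := by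
      rw [← mul_sub, norm_mul]
      exact mul_le_mul_of_nonneg_right (hB x) (norm_nonneg _)
    have := pow_le_pow_left₀ (norm_nonneg _) h2 2
    simpa [mul_pow] using this
  refine squeeze_zero (fun n => nsq_nonneg _) h1 ?_
  simpa using h.lim.const_mul (B ^ 2)

lemma add (h : L2t f g) (h' : L2t f' g') :
    L2t (fun n x => f n x + f' n x) (fun x => g x + g' x) := by
  refine ⟨fun n => (h.mem n).add (h'.mem n), h.mem'.add h'.mem', ?_⟩
  have h1 : ∀ n, nsq (fun x => f n x + f' n x - (g x + g' x)) ≤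
      2 * nsq (fun x => f n x - g x) + 2 * nsq (fun x => f' n x - g' x) := by
    intro n
    have := nsq_add_le ((h.mem n).sub h.mem') ((h'.mem n).sub h'.mem')
    refine le_trans (le_of_eq ?_) this
    congr 1
    funext x
    simp only [Pi.sub_apply]
    ring
  refine squeeze_zero (fun n => nsq_nonneg _) h1 ?_
  simpa using (h.lim.const_mul 2).add (h'.lim.const_mul 2)

lemma const {g : E → ℝ} (hg : MemLp g 2 (volume : Measure E)) : L2t (fun _ => g) g :=
  ⟨fun _ => hg, hg, by simp [nsq]⟩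

lemma neg (h : L2t f g) : L2t (fun n x => - f n x) (fun x => - g x) := by
  have := h.bmul (w := fun _ => (-1 : ℝ)) aestronglyMeasurable_const (B := 1) (by simp)
  simpa using this

lemma sub (h : L2t f g) (h' : L2t f' g') :
    L2t (fun n x => f n x - f' n x) (fun x => g x - g' x) := by
  have := h.add h'.neg
  simpa [sub_eq_add_neg] using this

lemma sum {ι : Type*} {s : Finset ι} {f : ι → ℕ → E → ℝ} {g : ι → E → ℝ}
    (h : ∀ i ∈ s, L2t (f i) (g i)) :
    L2t (fun n x => ∑ i ∈ s, f i n x) (fun x => ∑ i ∈ s, g i x) := by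
  classical
  induction s using Finset.induction_on with
  | empty => simpa using L2t.const (MemLp.zero' (p := 2) (μ := (volume : Measure E)) (ε := ℝ))
  | insert a s ha ih =>
    simp only [Finset.sum_insert ha]
    exact (h a (Finset.mem_insert_self _ _)).add
      (ih fun i hi => h i (Finset.mem_insert_of_mem hi))

end L2t

/-- the mollifier sequence -/
noncomputable def seqM (k : ℕ) : E → ℝ := stdM (1 / ((k : ℝ) + 1))

lemma seqM_isMol (k : ℕ) : IsMol (1 / ((k : ℝ) + 1)) (seqM k : E → ℝ) := stdM_isMol (by positivity)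

/-- mollification converges -/
lemma L2t.moll {f : E → ℝ} (hf : MemLp f 2 (volume : Measure E)) :
    L2t (fun k => mo (seqM k) f) f := by
  refine ⟨fun k => (nsq_mo_le (seqM_isMol k) hf).1, hf, ?_⟩
  rw [Metric.tendsto_atTop]
  intro δ hδ
  obtain ⟨ε₀, hε₀, h⟩ := mo_approx hf (show 0 < δ / 2 by positivity)
  obtain ⟨N, hN⟩ := exists_nat_one_div_lt hε₀
  refine ⟨N, fun k hk => ?_⟩
  have h1 : 1 / ((k : ℝ) + 1) ≤ ε₀ := by
    refine le_trans ?_ hN.le
    gcongr
  have h2 := h _ h1 (seqM k) (seqM_isMol k)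
  rw [Real.dist_eq, sub_zero, abs_of_nonneg (nsq_nonneg _)]
  linarith

end Vale.Agent.P245.Moll
end

section

/-! # Essential self-adjointness, part 1: the commutator `err` and its `L²` convergence -/

open MeasureTheory Filter Topology
open scoped ContDiff

namespace Vale.Agent.P245.E456

open Vale.Agent.P227.M Vale.Agent.P245.Moll

variable {n : ℕ}

/-- coefficient data: `r = e^{-V}`, `A = e^{-V} τ` -/
structure Dat (r : E n → ℝ) (A : E n → Fin n → Fin n → ℝ) : Prop where
  rcont : Continuous r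
  acont : ∀ i j, Continuous (fun x => A x i j)
  symm : ∀ x i j, A x i j = A x j i
  lip : ∀ R : ℝ, ∃ K : ℝ, 0 ≤ K ∧ ∀ x ∈ Metric.closedBall (0 : E n) R,
    ∀ y ∈ Metric.closedBall (0 : E n) R, ∀ i j, |A x i j - A y i j| ≤ K * ‖x - y‖
  div : ∀ f : E n → ℝ, Test f → ∀ j, ∫ x, ∑ i, A x i j * pd i f x = ∫ x, f x * (r x * x j)

lemma norm_ei (i : Fin n) : ‖(ei i : E n)‖ = 1 := by simp [ei]

lemma cont_coord (j : Fin n) : Continuous (fun x : E n => x j) := by fun_prop

lemma loc_mul {u w : E n → ℝ} (hu : LocallyIntegrable u volume) (hw : Continuous w) :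
    LocallyIntegrable (fun x => u x * w x) volume := LocallyIntegrable.mul_continuous hw hu

/-- `L²` function vanishing outside a ball times a continuous function -/
lemma memLp_mul {u w : E n → ℝ} (hu : MemLp u 2 (volume : Measure (E n))) {R : ℝ}
    (h0 : ∀ x, x ∉ Metric.closedBall (0 : E n) R → u x = 0) (hw : Continuous w) :
    MemLp (fun x => u x * w x) 2 (volume : Measure (E n)) := by
  obtain ⟨B, hB⟩ := (isCompact_closedBall (0 : E n) R).exists_bound_of_continuousOn hw.continuousOn
  refine MemLp.of_le_mul (c := B) hu (hu.1.mul hw.aestronglyMeasurable)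
    (Eventually.of_forall fun x => ?_)
  by_cases hx : x ∈ Metric.closedBall (0 : E n) R
  · rw [norm_mul, mul_comm]
    exact mul_le_mul_of_nonneg_right (hB x hx) (norm_nonneg _)
  · rw [h0 x hx]; simp

lemma integrable_of_ball {u : E n → ℝ} (hu : MemLp u 2 (volume : Measure (E n))) {R : ℝ}
    (h0 : ∀ x, x ∉ Metric.closedBall (0 : E n) R → u x = 0) : Integrable u := by
  have h1 : IntegrableOn u (Metric.closedBall (0 : E n) R) volume :=
    (locInt hu).integrableOn_isCompact (isCompact_closedBall _ _)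
  exact (integrableOn_iff_integrable_of_support_subset (fun x hx => by
    by_contra hc; exact hx (h0 x hc))).1 h1

/-- the commutator -/
noncomputable def err (r : E n → ℝ) (A : E n → Fin n → Fin n → ℝ) (η u : E n → ℝ) (j : Fin n)
    (x : E n) : ℝ :=
  (∑ i, (pd i (Vale.Agent.P245.Moll.mo η (fun y => u y * A y i j)) x - A x i j * pd i (Vale.Agent.P245.Moll.mo η u) x))
    + Vale.Agent.P245.Moll.mo η (fun y => u y * (r y * y j)) x

variable {r : E n → ℝ} {A : E n → Fin n → Fin n → ℝ}

lemma err_sub (D : Dat r A) {ε : ℝ} {η : E n → ℝ} (hη : IsMol ε η) {u v : E n → ℝ}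
    (hu : LocallyIntegrable u volume) (hv : LocallyIntegrable v volume) (j : Fin n) (x : E n) :
    err r A η (fun y => u y - v y) j x = err r A η u j x - err r A η v j x := by
  have hw : ∀ (w : E n → ℝ), Continuous w → ∀ (ρ : E n → ℝ), Continuous ρ → HasCompactSupport ρ →
      Vale.Agent.P245.Moll.mo ρ (fun y => (u y - v y) * w y) x = Vale.Agent.P245.Moll.mo ρ (fun y => u y * w y) x
        - Vale.Agent.P245.Moll.mo ρ (fun y => v y * w y) x := by
    intro w hw ρ hρ hρc
    rw [← Vale.Agent.P245.Moll.mo_sub hρ hρc (loc_mul hu hw) (loc_mul hv hw)]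
    congr 1
    funext y
    ring
  have hs : ∀ i : Fin n, Continuous (fun z => fderiv ℝ η z (ei i)) := fun i =>
    (hη.contDiff.continuous_fderiv (by simp)).clm_apply continuous_const
  have hsc : ∀ i : Fin n, HasCompactSupport (fun z => fderiv ℝ η z (ei i)) := fun i =>
    (hη.hcs.fderiv ℝ).comp_left (g := fun L : E n →L[ℝ] ℝ => L (ei i)) (by simp)
  have hrc : Continuous (fun y : E n => r y * y j) := D.rcont.mul (cont_coord j)
  have huv : LocallyIntegrable (fun y => u y - v y) volume := hu.sub hv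
  unfold err pd
  rw [hw _ hrc η hη.contDiff.continuous hη.hcs]
  have h1 : ∀ i, fderiv ℝ (Vale.Agent.P245.Moll.mo η fun y => (u y - v y) * A y i j) x (ei i) =
      fderiv ℝ (Vale.Agent.P245.Moll.mo η fun y => u y * A y i j) x (ei i)
        - fderiv ℝ (Vale.Agent.P245.Moll.mo η fun y => v y * A y i j) x (ei i) := by
    intro i
    rw [fderiv_mo hη.contDiff hη.hcs (loc_mul huv (D.acont i j)),
      fderiv_mo hη.contDiff hη.hcs (loc_mul hu (D.acont i j)),
      fderiv_mo hη.contDiff hη.hcs (loc_mul hv (D.acont i j)),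
      hw _ (D.acont i j) _ (hs i) (hsc i)]
  have h2 : ∀ i, fderiv ℝ (Vale.Agent.P245.Moll.mo η fun y => u y - v y) x (ei i) =
      fderiv ℝ (Vale.Agent.P245.Moll.mo η u) x (ei i) - fderiv ℝ (Vale.Agent.P245.Moll.mo η v) x (ei i) := by
    intro i
    rw [fderiv_mo hη.contDiff hη.hcs huv, fderiv_mo hη.contDiff hη.hcs hu,
      fderiv_mo hη.contDiff hη.hcs hv, Vale.Agent.P245.Moll.mo_sub (hs i) (hsc i) hu hv]
  simp only [h1, h2]
  have h3 : (∑ i, (fderiv ℝ (Vale.Agent.P245.Moll.mo η fun y => u y * A y i j) x (ei i)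
        - fderiv ℝ (Vale.Agent.P245.Moll.mo η fun y => v y * A y i j) x (ei i)
        - A x i j * (fderiv ℝ (Vale.Agent.P245.Moll.mo η u) x (ei i) - fderiv ℝ (Vale.Agent.P245.Moll.mo η v) x (ei i)))) =
      (∑ i, (fderiv ℝ (Vale.Agent.P245.Moll.mo η fun y => u y * A y i j) x (ei i) - A x i j * fderiv ℝ (Vale.Agent.P245.Moll.mo η u) x (ei i)))
      - ∑ i, (fderiv ℝ (Vale.Agent.P245.Moll.mo η fun y => v y * A y i j) x (ei i)
          - A x i j * fderiv ℝ (Vale.Agent.P245.Moll.mo η v) x (ei i)) := by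
    rw [← Finset.sum_sub_distrib]
    refine Finset.sum_congr rfl fun i _ => ?_
    ring
  rw [h3]
  ring

lemma err_cont (D : Dat r A) {ε : ℝ} {η : E n → ℝ} (hη : IsMol ε η) {u : E n → ℝ}
    (hu : LocallyIntegrable u volume) (j : Fin n) : Continuous (err r A η u j) := by
  have hrc : Continuous (fun y : E n => r y * y j) := D.rcont.mul (cont_coord j)
  have h1 : ∀ w : E n → ℝ, LocallyIntegrable w volume → ∀ i, Continuous (pd i (Vale.Agent.P245.Moll.mo η w)) := by
    intro w hw i
    exact ((contDiff_mo hη.contDiff hη.hcs hw).continuous_fderiv (by simp)).clm_apply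
      continuous_const
  unfold err
  refine Continuous.add (continuous_finsetSum _ fun i _ => ?_) ?_
  · exact (h1 _ (loc_mul hu (D.acont i j)) i).sub ((D.acont i j).mul (h1 _ hu i))
  · exact (contDiff_mo hη.contDiff hη.hcs (loc_mul hu hrc)).continuous

lemma fderiv_mol_zero {ε : ℝ} {η : E n → ℝ} (hη : IsMol ε η) {z : E n} (hz : ε ≤ ‖z‖) :
    fderiv ℝ η z = 0 := by
  refine IsLocalMin.fderiv_eq_zero ?_
  refine Eventually.of_forall fun y => ?_
  rw [hη.supp z hz]
  exact hη.nonneg y

/-- pointwise bound of the commutator -/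
lemma err_bound (D : Dat r A) {R ε : ℝ} (hε : 0 < ε) (hε1 : ε ≤ 1) {K S : ℝ} (hK : 0 ≤ K)
    (hS : 0 ≤ S)
    (hlip : ∀ x ∈ Metric.closedBall (0 : E n) (R + 1), ∀ y ∈ Metric.closedBall (0 : E n) (R + 1),
      ∀ i j, |A x i j - A y i j| ≤ K * ‖x - y‖)
    (hr : ∀ y ∈ Metric.closedBall (0 : E n) (R + 1), ∀ j, |r y * y j| ≤ S)
    {u : E n → ℝ} (hu : LocallyIntegrable u volume) (j : Fin n) {x : E n}
    (hx : x ∈ Metric.closedBall (0 : E n) R) :
    |err r A (stdM ε) u j x| ≤
      Vale.Agent.P245.Moll.mo (fun z => n * K * kerM ε z + S * stdM ε z) (fun y => ‖u y‖) x := by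
  have hη : IsMol ε (stdM ε : E n → ℝ) := stdM_isMol hε
  have hxR : ‖x‖ ≤ R := by simpa using hx
  have hx1 : x ∈ Metric.closedBall (0 : E n) (R + 1) := by
    simp only [Metric.mem_closedBall, dist_zero_right]; linarith
  have hy1 : ∀ y : E n, ‖x - y‖ < ε → y ∈ Metric.closedBall (0 : E n) (R + 1) := by
    intro y hy
    simp only [Metric.mem_closedBall, dist_zero_right]
    have := norm_sub_norm_le y x
    rw [norm_sub_rev] at this
    linarith
  have hs : ∀ i : Fin n, Continuous (fun z => fderiv ℝ (stdM ε : E n → ℝ) z (ei i)) := fun i =>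
    (hη.contDiff.continuous_fderiv (by simp)).clm_apply continuous_const
  have hsc : ∀ i : Fin n, HasCompactSupport (fun z => fderiv ℝ (stdM ε : E n → ℝ) z (ei i)) :=
    fun i => (hη.hcs.fderiv ℝ).comp_left (g := fun L : E n →L[ℝ] ℝ => L (ei i)) (by simp)
  have hrc : Continuous (fun y : E n => r y * y j) := D.rcont.mul (cont_coord j)
  have hun : LocallyIntegrable (fun y => ‖u y‖) volume := fun z => (hu z).norm
  have ik : Integrable (fun y => kerM ε (x - y) • ‖u y‖) :=
    integrable_mo (kerM_cont hε) (kerM_hcs hε) hun x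
  have is : Integrable (fun y => stdM ε (x - y) • ‖u y‖) :=
    integrable_mo hη.contDiff.continuous hη.hcs hun x
  have hterm : ∀ i : Fin n, |pd i (Vale.Agent.P245.Moll.mo (stdM ε) (fun y => u y * A y i j)) x
      - A x i j * pd i (Vale.Agent.P245.Moll.mo (stdM ε) u) x| ≤ K * Vale.Agent.P245.Moll.mo (kerM ε) (fun y => ‖u y‖) x := by
    intro i
    unfold pd
    rw [fderiv_mo hη.contDiff hη.hcs (loc_mul hu (D.acont i j)),
      fderiv_mo hη.contDiff hη.hcs hu]
    have i1 := integrable_mo (hs i) (hsc i) (loc_mul hu (D.acont i j)) x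
    have i2 := integrable_mo (hs i) (hsc i) hu x
    have e1 : Vale.Agent.P245.Moll.mo (fun z => fderiv ℝ (stdM ε : E n → ℝ) z (ei i)) (fun y => u y * A y i j) x
        - A x i j * Vale.Agent.P245.Moll.mo (fun z => fderiv ℝ (stdM ε : E n → ℝ) z (ei i)) u x =
        ∫ y, fderiv ℝ (stdM ε : E n → ℝ) (x - y) (ei i) * (A y i j - A x i j) * u y := by
      unfold Vale.Agent.P245.Moll.mo
      rw [← integral_const_mul, ← integral_sub i1 (i2.const_mul _)]
      refine integral_congr_ae (Eventually.of_forall fun y => ?_)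
      simp only [smul_eq_mul]
      ring
    rw [e1]
    unfold Vale.Agent.P245.Moll.mo
    rw [← integral_const_mul]
    rw [← Real.norm_eq_abs]
    refine norm_integral_le_of_norm_le (ik.const_mul K) (Eventually.of_forall fun y => ?_)
    simp only [smul_eq_mul, norm_mul, Real.norm_eq_abs]
    by_cases hxy : ‖x - y‖ < ε
    · have h1 := hlip y (hy1 y hxy) x hx1 i j
      have h2 : |fderiv ℝ (stdM ε : E n → ℝ) (x - y) (ei i)| ≤
          ‖fderiv ℝ (stdM ε : E n → ℝ) (x - y)‖ := by
        have := (fderiv ℝ (stdM ε : E n → ℝ) (x - y)).le_opNorm (ei i)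
        rwa [norm_ei, mul_one] at this
      rw [norm_sub_rev] at h1
      calc _ ≤ ‖fderiv ℝ (stdM ε : E n → ℝ) (x - y)‖ * (K * ‖x - y‖) * |u y| := by
            refine mul_le_mul_of_nonneg_right ?_ (abs_nonneg _)
            exact mul_le_mul h2 h1 (abs_nonneg _) (norm_nonneg _)
        _ = _ := by unfold kerM; ring
    · rw [fderiv_mol_zero hη (not_lt.1 hxy)]
      simp only [_root_.zero_apply, abs_zero, zero_mul]
      have := kerM_nonneg ε (x - y)
      positivity
  have hlast : |Vale.Agent.P245.Moll.mo (stdM ε) (fun y => u y * (r y * y j)) x| ≤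
      S * Vale.Agent.P245.Moll.mo (stdM ε) (fun y => ‖u y‖) x := by
    unfold Vale.Agent.P245.Moll.mo
    rw [← integral_const_mul]
    rw [← Real.norm_eq_abs]
    refine norm_integral_le_of_norm_le (is.const_mul S) (Eventually.of_forall fun y => ?_)
    simp only [smul_eq_mul, norm_mul, Real.norm_eq_abs]
    by_cases hxy : ‖x - y‖ < ε
    · have h1 := hr y (hy1 y hxy) j
      rw [abs_mul] at h1
      rw [abs_of_nonneg (hη.nonneg _)]
      have h2 := hη.nonneg (x - y)
      calc stdM ε (x - y) * (|u y| * (|r y| * |y j|)) ≤ stdM ε (x - y) * (|u y| * S) := by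
            gcongr
        _ = _ := by ring
    · rw [hη.supp _ (not_lt.1 hxy)]
      simp
  have e2 : Vale.Agent.P245.Moll.mo (fun z => n * K * kerM ε z + S * stdM ε z) (fun y => ‖u y‖) x =
      n * (K * Vale.Agent.P245.Moll.mo (kerM ε) (fun y => ‖u y‖) x) + S * Vale.Agent.P245.Moll.mo (stdM ε) (fun y => ‖u y‖) x := by
    unfold Vale.Agent.P245.Moll.mo
    rw [← integral_const_mul, ← integral_const_mul, ← integral_const_mul,
      ← integral_add ((ik.const_mul _).const_mul _) (is.const_mul _)]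
    refine integral_congr_ae (Eventually.of_forall fun y => ?_)
    simp only [smul_eq_mul]
    ring
  rw [e2]
  unfold err
  refine (abs_add_le _ _).trans (add_le_add ?_ hlast)
  refine (Finset.abs_sum_le_sum_abs _ _).trans ?_
  refine (Finset.sum_le_sum fun i _ => hterm i).trans ?_
  simp

/-- `L²` bound of the commutator -/
lemma err_nsq (D : Dat r A) (R : ℝ) : ∃ Cb : ℝ, 0 ≤ Cb ∧ ∀ ε : ℝ, 0 < ε → ε ≤ 1 →
    ∀ u : E n → ℝ, MemLp u 2 (volume : Measure (E n)) → ∀ j,
      MemLp ((Metric.closedBall (0 : E n) R).indicator (err r A (stdM ε) u j)) 2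
        (volume : Measure (E n)) ∧
      nsq ((Metric.closedBall (0 : E n) R).indicator (err r A (stdM ε) u j)) ≤ Cb * nsq u := by
  obtain ⟨K, hK, hlip⟩ := D.lip (R + 1)
  have hS : ∃ S : ℝ, 0 ≤ S ∧ ∀ y ∈ Metric.closedBall (0 : E n) (R + 1), ∀ j, |r y * y j| ≤ S := by
    have h1 : ∀ j : Fin n, ∃ S : ℝ, ∀ y ∈ Metric.closedBall (0 : E n) (R + 1), ‖r y * y j‖ ≤ S :=
      fun j => (isCompact_closedBall (0 : E n) (R + 1)).exists_bound_of_continuousOn
        (D.rcont.mul (cont_coord j)).continuousOn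
    choose S hS using h1
    refine ⟨∑ j, |S j|, Finset.sum_nonneg fun j _ => abs_nonneg _, fun y hy j => ?_⟩
    refine (hS j y hy).trans ((le_abs_self _).trans ?_)
    exact Finset.single_le_sum (f := fun j => |S j|) (fun j _ => abs_nonneg _) (Finset.mem_univ j)
  obtain ⟨S, hS0, hr⟩ := hS
  set D1 : ℝ := ∫ z : E n, kerM 1 z with hD1
  have hD1' : 0 ≤ D1 := integral_nonneg fun z => kerM_nonneg 1 z
  refine ⟨(n * K * D1 + S) ^ 2, by positivity, fun ε hε hε1 u hu j => ?_⟩
  have hη : IsMol ε (stdM ε : E n → ℝ) := stdM_isMol hε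
  have hκ : Continuous (fun z : E n => n * K * kerM ε z + S * stdM ε z) :=
    (continuous_const.mul (kerM_cont hε)).add (continuous_const.mul hη.contDiff.continuous)
  have hκc : HasCompactSupport (fun z : E n => n * K * kerM ε z + S * stdM ε z) :=
    ((kerM_hcs hε).mul_left).add (hη.hcs.mul_left)
  have hκ0 : ∀ z : E n, 0 ≤ n * K * kerM ε z + S * stdM ε z := fun z => by
    have h1 := kerM_nonneg ε z
    have h2 := hη.nonneg z
    positivity
  have hm : AEStronglyMeasurable
      ((Metric.closedBall (0 : E n) R).indicator (err r A (stdM ε) u j)) volume :=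
    ((err_cont D hη (locInt hu) j).aestronglyMeasurable).indicator
      Metric.isClosed_closedBall.measurableSet
  have hmass : ∫ z : E n, (n * K * kerM ε z + S * stdM ε z) = n * K * D1 + S := by
    rw [integral_add (((kerM_cont hε).integrable_of_hasCompactSupport (kerM_hcs hε)).const_mul _)
      ((hη.contDiff.continuous.integrable_of_hasCompactSupport hη.hcs).const_mul _),
      integral_const_mul, integral_const_mul, hη.one, kerM_int hε, mul_one]
  have h := nsq_le_mo hκ hκc hκ0 hu (w := (Metric.closedBall (0 : E n) R).indicator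
    (err r A (stdM ε) u j)) hm ?_
  · rw [hmass] at h
    exact h
  · intro x
    by_cases hx : x ∈ Metric.closedBall (0 : E n) R
    · rw [Set.indicator_of_mem hx]
      exact err_bound D hε hε1 hK hS0 hlip hr (locInt hu) j hx
    · rw [Set.indicator_of_notMem hx, norm_zero]
      unfold Vale.Agent.P245.Moll.mo
      exact integral_nonneg fun y => smul_nonneg (hκ0 _) (norm_nonneg _)

end Vale.Agent.P245.E456
end

section

/-! # Essential self-adjointness, part 2: convergence of the commutator -/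

open MeasureTheory Filter Topology
open scoped ContDiff

namespace Vale.Agent.P245.E456

open Vale.Agent.P227.M Vale.Agent.P245.Moll

variable {n : ℕ} {r : E n → ℝ} {A : E n → Fin n → Fin n → ℝ}

lemma test_pd {g : E n → ℝ} (hg : Test g) (i : Fin n) : Test (pd i g) := by
  constructor
  · exact ContDiff.clm_apply (hg.1.fderiv_right (m := (⊤ : ℕ∞)) (by simp)) contDiff_const
  · exact (hg.2.fderiv ℝ).comp_left (g := fun L : E n →L[ℝ] ℝ => L (ei i)) (by simp)

lemma test_loc {g : E n → ℝ} (hg : Test g) : LocallyIntegrable g volume :=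
  hg.1.continuous.locallyIntegrable

lemma test_memLp {g : E n → ℝ} (hg : Test g) : MemLp g 2 (volume : Measure (E n)) :=
  hg.1.continuous.memLp_of_hasCompactSupport hg.2

/-- the commutator on smooth functions -/
lemma err_smooth (D : Dat r A) {ε : ℝ} {η : E n → ℝ} (hη : IsMol ε η) {g : E n → ℝ} (hg : Test g)
    (j : Fin n) (x : E n) :
    err r A η g j x =
      ∑ i, (Vale.Agent.P245.Moll.mo η (fun y => A y i j * pd i g y) x - A x i j * Vale.Agent.P245.Moll.mo η (pd i g) x) := by
  have hf : Test (fun y => η (x - y) * g y) := by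
    constructor
    · exact (hη.contDiff.comp (contDiff_const.sub contDiff_id)).mul hg.1
    · exact hg.2.mul_left
  have hs : ∀ i : Fin n, Continuous (fun z => fderiv ℝ η z (ei i)) := fun i =>
    (hη.contDiff.continuous_fderiv (by simp)).clm_apply continuous_const
  have hsc : ∀ i : Fin n, HasCompactSupport (fun z => fderiv ℝ η z (ei i)) := fun i =>
    (hη.hcs.fderiv ℝ).comp_left (g := fun L : E n →L[ℝ] ℝ => L (ei i)) (by simp)
  have hd : ∀ i y, pd i (fun y => η (x - y) * g y) y =
      η (x - y) * pd i g y - fderiv ℝ η (x - y) (ei i) * g y := by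
    intro i y
    have h1 : HasFDerivAt (fun y => η (x - y)) (-(fderiv ℝ η (x - y))) y := by
      have h2 : HasFDerivAt (fun y : E n => x - y) (-(ContinuousLinearMap.id ℝ (E n))) y :=
        (hasFDerivAt_id y).const_sub x
      have h3 := ((hη.contDiff.differentiable (by simp)) (x - y)).hasFDerivAt.comp y h2
      refine h3.congr_fderiv ?_
      ext v; simp
    have h4 : HasFDerivAt g (fderiv ℝ g y) y :=
      ((hg.1.differentiable (by simp)) y).hasFDerivAt
    have h5 := (h1.mul h4).fderiv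
    unfold pd
    have h6 : fderiv ℝ (fun y => η (x - y) * g y) y = _ := h5
    rw [h6]
    simp
    ring
  have hl : ∀ i, LocallyIntegrable (fun y => g y * A y i j) volume := fun i =>
    loc_mul (test_loc hg) (D.acont i j)
  have hl2 : ∀ i, LocallyIntegrable (fun y => A y i j * pd i g y) volume := fun i =>
    ((D.acont i j).mul (test_pd hg i).1.continuous).locallyIntegrable
  have i1 : ∀ i, Integrable (fun y => fderiv ℝ η (x - y) (ei i) • (g y * A y i j)) := fun i =>
    integrable_mo (hs i) (hsc i) (hl i) x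
  have i2 : ∀ i, Integrable (fun y => η (x - y) • (A y i j * pd i g y)) := fun i =>
    integrable_mo hη.contDiff.continuous hη.hcs (hl2 i) x
  have key : Vale.Agent.P245.Moll.mo η (fun y => g y * (r y * y j)) x =
      ∑ i, (Vale.Agent.P245.Moll.mo η (fun y => A y i j * pd i g y) x
        - Vale.Agent.P245.Moll.mo (fun z => fderiv ℝ η z (ei i)) (fun y => g y * A y i j) x) := by
    have e1 := D.div _ hf j
    have e2 : Vale.Agent.P245.Moll.mo η (fun y => g y * (r y * y j)) x = ∫ y, (η (x - y) * g y) * (r y * y j) := by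
      unfold Vale.Agent.P245.Moll.mo
      refine integral_congr_ae (Eventually.of_forall fun y => ?_)
      simp only [smul_eq_mul]; ring
    rw [e2, ← e1]
    have e3 : ∀ i, Vale.Agent.P245.Moll.mo η (fun y => A y i j * pd i g y) x
        - Vale.Agent.P245.Moll.mo (fun z => fderiv ℝ η z (ei i)) (fun y => g y * A y i j) x =
        ∫ y, (η (x - y) • (A y i j * pd i g y) - fderiv ℝ η (x - y) (ei i) • (g y * A y i j)) := by
      intro i
      unfold Vale.Agent.P245.Moll.mo
      rw [← integral_sub (i2 i) (i1 i)]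
    simp only [e3]
    rw [← integral_finsetSum Finset.univ (f := fun i y => η (x - y) • (A y i j * pd i g y)
      - fderiv ℝ η (x - y) (ei i) • (g y * A y i j)) (fun i _ => (i2 i).sub (i1 i))]
    refine integral_congr_ae (Eventually.of_forall fun y => ?_)
    simp only [hd, smul_eq_mul]
    refine Finset.sum_congr rfl fun i _ => ?_
    ring
  unfold err
  rw [key, ← Finset.sum_add_distrib]
  refine Finset.sum_congr rfl fun i _ => ?_
  have e4 : pd i (Vale.Agent.P245.Moll.mo η fun y => g y * A y i j) x =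
      Vale.Agent.P245.Moll.mo (fun z => fderiv ℝ η z (ei i)) (fun y => g y * A y i j) x := by
    unfold pd
    rw [fderiv_mo hη.contDiff hη.hcs (hl i)]
  have e5 : pd i (Vale.Agent.P245.Moll.mo η g) x = Vale.Agent.P245.Moll.mo η (pd i g) x := by
    unfold pd
    rw [fderiv_mo' hη.contDiff.continuous.locallyIntegrable (hg.1.of_le (by simp)) hg.2]
  rw [e4, e5]
  ring

/-- convergence on smooth functions -/
lemma err_lim_smooth (D : Dat r A) (R : ℝ) {g : E n → ℝ} (hg : Test g) (j : Fin n) :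
    L2t (fun k => (Metric.closedBall (0 : E n) R).indicator (err r A (seqM k) g j)) (fun _ => 0) := by
  have hB : MeasurableSet (Metric.closedBall (0 : E n) R) := Metric.isClosed_closedBall.measurableSet
  have h1 : ∀ i ∈ (Finset.univ : Finset (Fin n)), L2t (fun k x =>
      (Metric.closedBall (0 : E n) R).indicator (fun _ => (1 : ℝ)) x *
        Vale.Agent.P245.Moll.mo (seqM k) (fun y => A y i j * pd i g y) x -
      (Metric.closedBall (0 : E n) R).indicator (fun x => A x i j) x * Vale.Agent.P245.Moll.mo (seqM k) (pd i g) x)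
      (fun _ => 0) := by
    intro i _
    have m1 : MemLp (fun y => A y i j * pd i g y) 2 (volume : Measure (E n)) :=
      ((D.acont i j).mul (test_pd hg i).1.continuous).memLp_of_hasCompactSupport
        (test_pd hg i).2.mul_left
    have h2 := (L2t.moll m1).bmul (w := (Metric.closedBall (0 : E n) R).indicator (fun _ => (1 : ℝ)))
      (aestronglyMeasurable_const.indicator hB) (B := 1) (fun x => by
        by_cases hx : x ∈ Metric.closedBall (0 : E n) R
        · rw [Set.indicator_of_mem hx]; simp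
        · rw [Set.indicator_of_notMem hx]; simp)
    obtain ⟨S, hS⟩ := (isCompact_closedBall (0 : E n) R).exists_bound_of_continuousOn
      (D.acont i j).continuousOn
    have h3 := (L2t.moll (test_memLp (test_pd hg i))).bmul
      (w := (Metric.closedBall (0 : E n) R).indicator (fun x => A x i j))
      ((D.acont i j).aestronglyMeasurable.indicator hB) (B := |S|) (fun x => by
        by_cases hx : x ∈ Metric.closedBall (0 : E n) R
        · rw [Set.indicator_of_mem hx]; exact (hS x hx).trans (le_abs_self S)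
        · rw [Set.indicator_of_notMem hx]; simp)
    have h4 := h2.sub h3
    have e : (fun x => (Metric.closedBall (0 : E n) R).indicator (fun _ => (1 : ℝ)) x *
        (A x i j * pd i g x) - (Metric.closedBall (0 : E n) R).indicator (fun x => A x i j) x *
          pd i g x) = fun _ => (0 : ℝ) := by
      funext x
      by_cases hx : x ∈ Metric.closedBall (0 : E n) R
      · rw [Set.indicator_of_mem hx, Set.indicator_of_mem hx]; ring
      · rw [Set.indicator_of_notMem hx, Set.indicator_of_notMem hx]; ring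
    rw [e] at h4
    exact h4
  have h5 := L2t.sum h1
  have e1 : (fun (k : ℕ) (x : E n) => ∑ i, ((Metric.closedBall (0 : E n) R).indicator
      (fun _ => (1 : ℝ)) x * Vale.Agent.P245.Moll.mo (seqM k) (fun y => A y i j * pd i g y) x -
      (Metric.closedBall (0 : E n) R).indicator (fun x => A x i j) x * Vale.Agent.P245.Moll.mo (seqM k) (pd i g) x)) =
      fun k => (Metric.closedBall (0 : E n) R).indicator (err r A (seqM k) g j) := by
    funext k x
    by_cases hx : x ∈ Metric.closedBall (0 : E n) R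
    · simp only [Set.indicator_of_mem hx]
      rw [err_smooth D (seqM_isMol k) hg]
      refine Finset.sum_congr rfl fun i _ => ?_
      ring
    · simp only [Set.indicator_of_notMem hx]
      simp
  rw [e1] at h5
  simpa using h5

/-- a mollified compactly supported `L²` function is a test function -/
lemma test_mo {ε : ℝ} {η : E n → ℝ} (hη : IsMol ε η) {f : E n → ℝ} (hf : LocallyIntegrable f volume)
    (hc : HasCompactSupport f) : Test (Vale.Agent.P245.Moll.mo η f) := by
  refine ⟨contDiff_mo hη.contDiff hη.hcs hf, ?_⟩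
  rw [Vale.Agent.P245.Moll.mo_eq_conv]
  exact hc.convolution _ hη.hcs

/-- convergence of the commutator on compactly supported `L²` functions -/
lemma err_lim (D : Dat r A) (R : ℝ) {f : E n → ℝ} (hf : MemLp f 2 (volume : Measure (E n)))
    {R' : ℝ} (h0 : ∀ x, x ∉ Metric.closedBall (0 : E n) R' → f x = 0) (j : Fin n) :
    L2t (fun k => (Metric.closedBall (0 : E n) R).indicator (err r A (seqM k) f j)) (fun _ => 0) := by
  obtain ⟨Cb, hCb, hb⟩ := err_nsq D R
  have hk1 : ∀ k : ℕ, 1 / ((k : ℝ) + 1) ≤ 1 := by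
    intro k
    rw [div_le_one (by positivity)]
    have := Nat.cast_nonneg (α := ℝ) k
    linarith
  have hk0 : ∀ k : ℕ, 0 < 1 / ((k : ℝ) + 1) := fun k => by positivity
  have hmem : ∀ k, MemLp ((Metric.closedBall (0 : E n) R).indicator (err r A (seqM k) f j)) 2
      (volume : Measure (E n)) := fun k => (hb _ (hk0 k) (hk1 k) f hf j).1
  refine ⟨hmem, MemLp.zero', ?_⟩
  rw [Metric.tendsto_atTop]
  intro δ hδ
  have hmoll := (L2t.moll hf).lim
  rw [Metric.tendsto_atTop] at hmoll
  obtain ⟨m, hm⟩ := hmoll (δ / (4 * (Cb + 1))) (by positivity)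
  have hm' := hm m le_rfl
  rw [Real.dist_eq, sub_zero, abs_of_nonneg (nsq_nonneg _)] at hm'
  have hfc : HasCompactSupport f := HasCompactSupport.intro (isCompact_closedBall 0 R') h0
  have hg : Test (Vale.Agent.P245.Moll.mo (seqM m) f) := test_mo (seqM_isMol m) (locInt hf) hfc
  have hs := (err_lim_smooth D R hg j).lim
  rw [Metric.tendsto_atTop] at hs
  obtain ⟨N, hN⟩ := hs (δ / 4) (by positivity)
  refine ⟨N, fun k hk => ?_⟩
  have h1 := hN k hk
  rw [Real.dist_eq, sub_zero, abs_of_nonneg (nsq_nonneg _)] at h1 ⊢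
  simp only [sub_zero] at h1 ⊢
  have hgm := test_memLp hg
  have hd : MemLp (fun y => f y - Vale.Agent.P245.Moll.mo (seqM m) f y) 2 (volume : Measure (E n)) := hf.sub hgm
  have h2 := hb _ (hk0 k) (hk1 k) _ hd j
  have h3 := nsq_add_le h2.1 (hb _ (hk0 k) (hk1 k) _ hgm j).1
  have e : (fun x => (Metric.closedBall (0 : E n) R).indicator
        (err r A (stdM (1 / ((k : ℝ) + 1))) (fun y => f y - Vale.Agent.P245.Moll.mo (seqM m) f y) j) x
      + (Metric.closedBall (0 : E n) R).indicator
        (err r A (stdM (1 / ((k : ℝ) + 1))) (Vale.Agent.P245.Moll.mo (seqM m) f) j) x) =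
      fun x => (Metric.closedBall (0 : E n) R).indicator (err r A (seqM k) f j) x := by
    funext x
    by_cases hx : x ∈ Metric.closedBall (0 : E n) R
    · simp only [Set.indicator_of_mem hx]
      rw [err_sub D (stdM_isMol (hk0 k)) (locInt hf) (locInt hgm)]
      unfold seqM
      ring
    · simp only [Set.indicator_of_notMem hx]
      simp
  rw [e] at h3
  have h4 : nsq (fun y => f y - Vale.Agent.P245.Moll.mo (seqM m) f y) = nsq (fun y => Vale.Agent.P245.Moll.mo (seqM m) f y - f y) := by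
    unfold nsq
    refine integral_congr_ae (Eventually.of_forall fun x => ?_)
    simp only [norm_sub_rev]
  have h5 : Cb * nsq (fun y => f y - Vale.Agent.P245.Moll.mo (seqM m) f y) ≤ δ / 4 := by
    rw [h4]
    have h6 : nsq (fun y => Vale.Agent.P245.Moll.mo (seqM m) f y - f y) ≤ δ / (4 * (Cb + 1)) := hm'.le
    calc Cb * nsq (fun y => Vale.Agent.P245.Moll.mo (seqM m) f y - f y) ≤ (Cb + 1) * (δ / (4 * (Cb + 1))) :=
          mul_le_mul (by linarith) h6 (nsq_nonneg _) (by linarith)
      _ = δ / 4 := by field_simp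
  have h7 : nsq (Set.indicator (Metric.closedBall (0 : E n) R)
      (err r A (stdM (1 / ((k : ℝ) + 1))) (Vale.Agent.P245.Moll.mo (seqM m) f) j)) < δ / 4 := h1
  have h8 := h2.2
  linarith

end Vale.Agent.P245.E456
end

section

/-! # Essential self-adjointness, part 3: the tested equation -/

open MeasureTheory Filter Topology
open scoped ContDiff

namespace Vale.Agent.P245.E456

open Vale.Agent.P227.M Vale.Agent.P245.Moll

variable {n : ℕ} {r : E n → ℝ} {A : E n → Fin n → Fin n → ℝ}

lemma pd_mo {ρ : E n → ℝ} (hρ : LocallyIntegrable ρ volume) {g : E n → ℝ} (hg : Test g) (i : Fin n) :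
    pd i (Vale.Agent.P245.Moll.mo ρ g) = Vale.Agent.P245.Moll.mo ρ (pd i g) := by
  funext x
  unfold pd
  rw [fderiv_mo' hρ (hg.1.of_le (by simp)) hg.2]

lemma integrable_mul_test {p g : E n → ℝ} (hp : Integrable p) (hg : Continuous g)
    (hc : HasCompactSupport g) : Integrable (fun x => p x * g x) := by
  obtain ⟨B, hB⟩ := hc.exists_bound_of_continuous hg
  exact Integrable.mul_bdd (c := B) hp hg.aestronglyMeasurable (Eventually.of_forall hB)

lemma integrable_cont_test {p g : E n → ℝ} (hp : Continuous p) (hg : Continuous g)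
    (hc : HasCompactSupport g) : Integrable (fun x => p x * g x) :=
  (hp.mul hg).integrable_of_hasCompactSupport hc.mul_left

/-- the tested equation -/
lemma test_eq (D : Dat r A) {R ε : ℝ} (hε : 0 < ε) (hε1 : ε ≤ 1) {f : E n → ℝ}
    (hf : MemLp f 2 (volume : Measure (E n)))
    (h0 : ∀ x, x ∉ Metric.closedBall (0 : E n) (R + 2) → f x = 0)
    (heq : ∀ F : E n → ℝ, Test F → (∀ x, x ∉ Metric.closedBall (0 : E n) (R + 1) → F x = 0) →
      ∫ x, f x * (r x * F x - (∑ i, ∑ j, A x i j * pd i (pd j F) x) + ∑ j, r x * x j * pd j F x) = 0)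
    {G : E n → ℝ} (hG : Test G) (hGR : ∀ x, x ∉ Metric.closedBall (0 : E n) R → G x = 0) :
    ∫ x, (Vale.Agent.P245.Moll.mo (stdM ε) (fun y => f y * r y) x * G x +
      ∑ j, (err r A (stdM ε) f j x + ∑ i, A x i j * pd i (Vale.Agent.P245.Moll.mo (stdM ε) f) x) * pd j G x) = 0 := by
  have hη : IsMol ε (stdM ε : E n → ℝ) := stdM_isMol hε
  have hηl : LocallyIntegrable (stdM ε : E n → ℝ) volume := hη.contDiff.continuous.locallyIntegrable
  have hfl := locInt hf
  have hrc : ∀ j : Fin n, Continuous (fun y : E n => r y * y j) := fun j =>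
    D.rcont.mul (cont_coord j)
  have ip : ∀ w : E n → ℝ, Continuous w → Integrable (fun y => f y * w y) := fun w hw =>
    integrable_of_ball (memLp_mul hf h0 hw) (R := R + 2) (fun x hx => by rw [h0 x hx, zero_mul])
  have hF : Test (Vale.Agent.P245.Moll.mo (stdM ε) G) := test_mo hη (test_loc hG) hG.2
  have hFR : ∀ x, x ∉ Metric.closedBall (0 : E n) (R + 1) → Vale.Agent.P245.Moll.mo (stdM ε) G x = 0 := by
    intro x hx
    simp only [Metric.mem_closedBall, dist_zero_right, not_le] at hx
    unfold Vale.Agent.P245.Moll.mo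
    rw [← integral_zero (E n) ℝ]
    refine integral_congr_ae (Eventually.of_forall fun y => ?_)
    simp only []
    by_cases hy : y ∈ Metric.closedBall (0 : E n) R
    · simp only [Metric.mem_closedBall, dist_zero_right] at hy
      rw [hη.supp (x - y), zero_smul]
      have := norm_sub_norm_le x y
      linarith
    · rw [hGR y hy, smul_zero]
  have e0 := heq _ hF hFR
  have hG1 : ∀ j, Test (pd j G) := fun j => test_pd hG j
  have hG2 : ∀ i j, Test (pd i (pd j G)) := fun i j => test_pd (hG1 j) i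
  have ej : ∀ j, pd j (Vale.Agent.P245.Moll.mo (stdM ε) G) = Vale.Agent.P245.Moll.mo (stdM ε) (pd j G) := fun j => pd_mo hηl hG j
  have eij : ∀ i j, pd i (pd j (Vale.Agent.P245.Moll.mo (stdM ε) G)) = Vale.Agent.P245.Moll.mo (stdM ε) (pd i (pd j G)) := fun i j => by
    rw [ej, pd_mo hηl (hG1 j)]
  have tmo : ∀ g : E n → ℝ, Test g → Test (Vale.Agent.P245.Moll.mo (stdM ε) g) := fun g hg =>
    test_mo hη (test_loc hg) hg.2
  -- the integrals
  have J0 : Integrable (fun x => f x * r x * Vale.Agent.P245.Moll.mo (stdM ε) G x) :=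
    integrable_mul_test (ip r D.rcont) hF.1.continuous hF.2
  have J2 : ∀ i j, Integrable (fun x => f x * A x i j * Vale.Agent.P245.Moll.mo (stdM ε) (pd i (pd j G)) x) := fun i j =>
    integrable_mul_test (ip _ (D.acont i j)) (tmo _ (hG2 i j)).1.continuous (tmo _ (hG2 i j)).2
  have J1 : ∀ j, Integrable (fun x => f x * (r x * x j) * Vale.Agent.P245.Moll.mo (stdM ε) (pd j G) x) := fun j =>
    integrable_mul_test (ip _ (hrc j)) (tmo _ (hG1 j)).1.continuous (tmo _ (hG1 j)).2
  have e1 : (∫ x, f x * r x * Vale.Agent.P245.Moll.mo (stdM ε) G x)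
      - (∑ i, ∑ j, ∫ x, f x * A x i j * Vale.Agent.P245.Moll.mo (stdM ε) (pd i (pd j G)) x)
      + ∑ j, ∫ x, f x * (r x * x j) * Vale.Agent.P245.Moll.mo (stdM ε) (pd j G) x = 0 := by
    rw [← e0]
    have s2 : (∑ i, ∑ j, ∫ x, f x * A x i j * Vale.Agent.P245.Moll.mo (stdM ε) (pd i (pd j G)) x) =
        ∫ x, ∑ i, ∑ j, f x * A x i j * Vale.Agent.P245.Moll.mo (stdM ε) (pd i (pd j G)) x := by
      rw [integral_finsetSum _ (fun i _ => integrable_finsetSum _ (fun j _ => J2 i j))]
      refine Finset.sum_congr rfl fun i _ => ?_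
      rw [integral_finsetSum _ (fun j _ => J2 i j)]
    have s1 : (∑ j, ∫ x, f x * (r x * x j) * Vale.Agent.P245.Moll.mo (stdM ε) (pd j G) x) =
        ∫ x, ∑ j, f x * (r x * x j) * Vale.Agent.P245.Moll.mo (stdM ε) (pd j G) x := by
      rw [integral_finsetSum _ (fun j _ => J1 j)]
    have I2 : Integrable (fun x => ∑ i, ∑ j, f x * A x i j * Vale.Agent.P245.Moll.mo (stdM ε) (pd i (pd j G)) x) :=
      integrable_finsetSum _ (fun i _ => integrable_finsetSum _ (fun j _ => J2 i j))
    have I1 : Integrable (fun x => ∑ j, f x * (r x * x j) * Vale.Agent.P245.Moll.mo (stdM ε) (pd j G) x) :=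
      integrable_finsetSum _ (fun j _ => J1 j)
    have J02 : Integrable (fun x => f x * r x * Vale.Agent.P245.Moll.mo (stdM ε) G x -
        ∑ i, ∑ j, f x * A x i j * Vale.Agent.P245.Moll.mo (stdM ε) (pd i (pd j G)) x) := J0.sub I2
    rw [s2, s1, ← integral_sub J0 I2, ← integral_add J02 I1]
    refine integral_congr_ae (Eventually.of_forall fun x => ?_)
    simp only [eij]
    simp only [ej]
    rw [mul_add, mul_sub, Finset.mul_sum, Finset.mul_sum]
    congr 1
    · congr 1
      · ring
      · refine Finset.sum_congr rfl fun i _ => ?_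
        rw [Finset.mul_sum]
        refine Finset.sum_congr rfl fun j _ => ?_
        ring
    · refine Finset.sum_congr rfl fun j _ => ?_
      ring
  have sw : ∀ w : E n → ℝ, Continuous w → ∀ g : E n → ℝ, Test g →
      ∫ x, f x * w x * Vale.Agent.P245.Moll.mo (stdM ε) g x = ∫ x, Vale.Agent.P245.Moll.mo (stdM ε) (fun y => f y * w y) x * g x :=
    fun w hw g hg => mo_swap hη.contDiff.continuous hη.hcs (stdM_even ε) (ip w hw) hg.1.continuous
      hg.2
  have hq : ∀ w : E n → ℝ, Continuous w → ContDiff ℝ ∞ (Vale.Agent.P245.Moll.mo (stdM ε) (fun y => f y * w y)) :=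
    fun w hw => contDiff_mo hη.contDiff hη.hcs (loc_mul hfl hw)
  have hpdc : ∀ (u : E n → ℝ), ContDiff ℝ ∞ u → ∀ i, Continuous (pd i u) := fun u hu i =>
    (hu.continuous_fderiv (by simp)).clm_apply continuous_const
  have ib : ∀ i j, ∫ x, Vale.Agent.P245.Moll.mo (stdM ε) (fun y => f y * A y i j) x * pd i (pd j G) x =
      - ∫ x, pd i (Vale.Agent.P245.Moll.mo (stdM ε) (fun y => f y * A y i j)) x * pd j G x := fun i j =>
    ibp ((hq _ (D.acont i j)).of_le (by simp)) ((hG1 j).1.of_le (by simp)) (hG1 j).2 (ei i)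
  have e2 : (∫ x, Vale.Agent.P245.Moll.mo (stdM ε) (fun y => f y * r y) x * G x)
      + (∑ j, ∑ i, ∫ x, pd i (Vale.Agent.P245.Moll.mo (stdM ε) (fun y => f y * A y i j)) x * pd j G x)
      + ∑ j, ∫ x, Vale.Agent.P245.Moll.mo (stdM ε) (fun y => f y * (r y * y j)) x * pd j G x = 0 := by
    rw [← e1, sw r D.rcont G hG]
    have s2 : (∑ i, ∑ j, ∫ x, f x * A x i j * Vale.Agent.P245.Moll.mo (stdM ε) (pd i (pd j G)) x) =
        - ∑ j, ∑ i, ∫ x, pd i (Vale.Agent.P245.Moll.mo (stdM ε) (fun y => f y * A y i j)) x * pd j G x := by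
      rw [Finset.sum_comm, ← Finset.sum_neg_distrib]
      refine Finset.sum_congr rfl fun j _ => ?_
      rw [← Finset.sum_neg_distrib]
      refine Finset.sum_congr rfl fun i _ => ?_
      rw [sw _ (D.acont i j) _ (hG2 i j), ib]
    have s1 : (∑ j, ∫ x, f x * (r x * x j) * Vale.Agent.P245.Moll.mo (stdM ε) (pd j G) x) =
        ∑ j, ∫ x, Vale.Agent.P245.Moll.mo (stdM ε) (fun y => f y * (r y * y j)) x * pd j G x :=
      Finset.sum_congr rfl fun j _ => sw _ (hrc j) _ (hG1 j)
    rw [s2, s1]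
    ring
  -- put together
  have K0 : Integrable (fun x => Vale.Agent.P245.Moll.mo (stdM ε) (fun y => f y * r y) x * G x) :=
    integrable_cont_test (hq r D.rcont).continuous hG.1.continuous hG.2
  have K2 : ∀ j i, Integrable
      (fun x => pd i (Vale.Agent.P245.Moll.mo (stdM ε) (fun y => f y * A y i j)) x * pd j G x) := fun j i =>
    integrable_cont_test (hpdc _ (hq _ (D.acont i j)) i) (hG1 j).1.continuous (hG1 j).2
  have K1 : ∀ j, Integrable
      (fun x => Vale.Agent.P245.Moll.mo (stdM ε) (fun y => f y * (r y * y j)) x * pd j G x) := fun j =>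
    integrable_cont_test (hq _ (hrc j)).continuous (hG1 j).1.continuous (hG1 j).2
  have s2 : (∑ j, ∑ i, ∫ x, pd i (Vale.Agent.P245.Moll.mo (stdM ε) (fun y => f y * A y i j)) x * pd j G x) =
      ∫ x, ∑ j, ∑ i, pd i (Vale.Agent.P245.Moll.mo (stdM ε) (fun y => f y * A y i j)) x * pd j G x := by
    rw [integral_finsetSum _ (fun j _ => integrable_finsetSum _ (fun i _ => K2 j i))]
    refine Finset.sum_congr rfl fun j _ => ?_
    rw [integral_finsetSum _ (fun i _ => K2 j i)]
  have s1 : (∑ j, ∫ x, Vale.Agent.P245.Moll.mo (stdM ε) (fun y => f y * (r y * y j)) x * pd j G x) =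
      ∫ x, ∑ j, Vale.Agent.P245.Moll.mo (stdM ε) (fun y => f y * (r y * y j)) x * pd j G x := by
    rw [integral_finsetSum _ (fun j _ => K1 j)]
  have I2 : Integrable (fun x => ∑ j, ∑ i,
      pd i (Vale.Agent.P245.Moll.mo (stdM ε) (fun y => f y * A y i j)) x * pd j G x) :=
    integrable_finsetSum _ (fun j _ => integrable_finsetSum _ (fun i _ => K2 j i))
  have I1 : Integrable (fun x => ∑ j, Vale.Agent.P245.Moll.mo (stdM ε) (fun y => f y * (r y * y j)) x * pd j G x) :=
    integrable_finsetSum _ (fun j _ => K1 j)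
  have K02 : Integrable (fun x => Vale.Agent.P245.Moll.mo (stdM ε) (fun y => f y * r y) x * G x +
      ∑ j, ∑ i, pd i (Vale.Agent.P245.Moll.mo (stdM ε) (fun y => f y * A y i j)) x * pd j G x) := K0.add I2
  rw [← e2, s2, s1, ← integral_add K0 I2, ← integral_add K02 I1]
  refine integral_congr_ae (Eventually.of_forall fun x => ?_)
  simp only []
  rw [add_assoc, ← Finset.sum_add_distrib]
  congr 1
  refine Finset.sum_congr rfl fun j _ => ?_
  unfold err
  rw [Finset.sum_sub_distrib, ← Finset.sum_mul]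
  ring

end Vale.Agent.P245.E456
end

section

/-! # Essential self-adjointness, part 4: the local inequality and the conclusion -/

open MeasureTheory Filter Topology
open scoped ContDiff

namespace Vale.Agent.P245.E456

open Vale.Agent.P227.M Vale.Agent.P245.Moll

variable {n : ℕ} {r : E n → ℝ} {A : E n → Fin n → Fin n → ℝ}

lemma esa_alg (a : Fin n → Fin n → ℝ) (hs : ∀ i j, a i j = a j i) {m : ℝ} (hm : 0 < m)
    (hlow : ∀ v : Fin n → ℝ, m * ∑ i, v i ^ 2 ≤ ∑ i, ∑ j, a i j * v i * v j)
    (e H z' : Fin n → ℝ) (z h : ℝ) (hz : |z| ≤ 1) :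
    -(1 / (4 * m)) * (∑ j, e j * e j) + (∑ j, e j * (z * z' j * h))
      - (∑ i, ∑ j, a i j * z' i * z' j) * h * h ≤
    ∑ j, (e j + ∑ i, a i j * H i) * (2 * z * z' j * h + z ^ 2 * H j) := by
  obtain ⟨Z, hZ⟩ : ∃ Z : Fin n → ℝ, ∀ j, Z j = z' j * h + z * H j := ⟨_, fun j => rfl⟩
  have s1 : ∑ j, ∑ i, a i j * (z' i * Z j) = ∑ j, ∑ i, a i j * (Z i * z' j) := by
    rw [Finset.sum_comm]
    refine Finset.sum_congr rfl fun i _ => Finset.sum_congr rfl fun j _ => ?_
    rw [hs]; ring
  have e1 : ∑ j, (e j + ∑ i, a i j * H i) * (2 * z * z' j * h + z ^ 2 * H j) =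
      (∑ j, e j * (z * Z j)) + (∑ j, e j * (z * z' j * h)) + (∑ j, ∑ i, a i j * (Z i * Z j))
      + h * (∑ j, ∑ i, a i j * (Z i * z' j)) - h * (∑ j, ∑ i, a i j * (z' i * Z j))
      - h * h * (∑ j, ∑ i, a i j * (z' i * z' j)) := by
    simp only [Finset.mul_sum, ← Finset.sum_add_distrib, ← Finset.sum_sub_distrib]
    refine Finset.sum_congr rfl fun j _ => ?_
    rw [add_mul, Finset.sum_mul]
    have e2 : ∑ i, a i j * H i * (2 * z * z' j * h + z ^ 2 * H j) =
        (∑ i, a i j * (Z i * Z j)) + (∑ i, h * (a i j * (Z i * z' j)))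
        - (∑ i, h * (a i j * (z' i * Z j))) - ∑ i, h * h * (a i j * (z' i * z' j)) := by
      simp only [← Finset.sum_add_distrib, ← Finset.sum_sub_distrib]
      refine Finset.sum_congr rfl fun i _ => ?_
      rw [hZ, hZ]; ring
    rw [e2, hZ j]
    ring
  have s2 : ∑ j, ∑ i, a i j * (Z i * Z j) = ∑ i, ∑ j, a i j * Z i * Z j := by
    rw [Finset.sum_comm]
    refine Finset.sum_congr rfl fun i _ => Finset.sum_congr rfl fun j _ => ?_
    ring
  have s3 : ∑ j, ∑ i, a i j * (z' i * z' j) = ∑ i, ∑ j, a i j * z' i * z' j := by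
    rw [Finset.sum_comm]
    refine Finset.sum_congr rfl fun i _ => Finset.sum_congr rfl fun j _ => ?_
    ring
  have h1 := hlow Z
  have h2 : -(1 / (4 * m)) * (∑ j, e j * e j) ≤ (∑ j, e j * (z * Z j)) + m * ∑ i, Z i ^ 2 := by
    rw [Finset.mul_sum, Finset.mul_sum, ← Finset.sum_add_distrib]
    refine Finset.sum_le_sum fun j _ => ?_
    have hz2 : z ^ 2 ≤ 1 := by
      have := sq_abs z
      nlinarith [abs_nonneg z]
    have h3 : 0 ≤ (2 * m * Z j + z * e j) ^ 2 := sq_nonneg _
    have h4 : z ^ 2 * e j ^ 2 ≤ 1 * e j ^ 2 := mul_le_mul_of_nonneg_right hz2 (sq_nonneg _)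
    have h5 : -(1 / (4 * m)) * (e j * e j) = (1 / (4 * m)) * (-(e j ^ 2)) := by ring
    have h6 : e j * (z * Z j) + m * Z j ^ 2 =
        (1 / (4 * m)) * ((2 * m * Z j + z * e j) ^ 2 - z ^ 2 * e j ^ 2) := by
      field_simp
      ring
    rw [h5, h6]
    refine mul_le_mul_of_nonneg_left ?_ (by positivity)
    nlinarith
  rw [e1, s1, s2, s3]
  nlinarith

lemma pd_zero_of_ball {g : E n → ℝ} {R : ℝ}
    (h0 : ∀ x, x ∉ Metric.closedBall (0 : E n) R → g x = 0) (i : Fin n) :
    ∀ x, x ∉ Metric.closedBall (0 : E n) R → pd i g x = 0 := by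
  intro x hx
  have ho : IsOpen (Metric.closedBall (0 : E n) R)ᶜ := Metric.isClosed_closedBall.isOpen_compl
  have h1 : g =ᶠ[𝓝 x] fun _ => (0 : ℝ) := by
    filter_upwards [ho.mem_nhds hx] with y hy
    exact h0 y hy
  unfold pd
  rw [h1.fderiv_eq]
  simp

/-- the local inequality -/
theorem local_ineq (D : Dat r A) {R m : ℝ} (hm : 0 < m)
    (hlow : ∀ x ∈ Metric.closedBall (0 : E n) R, ∀ v : Fin n → ℝ,
      m * ∑ i, v i ^ 2 ≤ ∑ i, ∑ j, A x i j * v i * v j)
    {f : E n → ℝ} (hf : MemLp f 2 (volume : Measure (E n)))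
    (h0 : ∀ x, x ∉ Metric.closedBall (0 : E n) (R + 2) → f x = 0)
    (heq : ∀ F : E n → ℝ, Test F → (∀ x, x ∉ Metric.closedBall (0 : E n) (R + 1) → F x = 0) →
      ∫ x, f x * (r x * F x - (∑ i, ∑ j, A x i j * pd i (pd j F) x) + ∑ j, r x * x j * pd j F x) = 0)
    {ζ : E n → ℝ} (hζ : Test ζ) (hζR : ∀ x, x ∉ Metric.closedBall (0 : E n) R → ζ x = 0)
    (hζ1 : ∀ x, |ζ x| ≤ 1) :
    ∫ x, (f x * r x) * (ζ x ^ 2 * f x) ≤
      ∫ x, ((∑ i, ∑ j, A x i j * pd i ζ x * pd j ζ x) * f x) * f x := by
  have hk1 : ∀ k : ℕ, 1 / ((k : ℝ) + 1) ≤ 1 := by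
    intro k
    rw [div_le_one (by positivity)]
    have := Nat.cast_nonneg (α := ℝ) k
    linarith
  have hk0 : ∀ k : ℕ, 0 < 1 / ((k : ℝ) + 1) := fun k => by positivity
  have hz' : ∀ j, Test (pd j ζ) := fun j => test_pd hζ j
  -- sequences
  have hp : MemLp (fun x => f x * r x) 2 (volume : Measure (E n)) := memLp_mul hf h0 D.rcont
  have L0 := L2t.moll hp
  have Lf := L2t.moll hf
  have bd : ∀ w : E n → ℝ, Continuous w → HasCompactSupport w → ∃ B : ℝ, ∀ x, |w x| ≤ B := by
    intro w hw hc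
    obtain ⟨B, hB⟩ := hc.exists_bound_of_continuous hw
    exact ⟨B, hB⟩
  have c2 : Continuous (fun x => ζ x ^ 2) := hζ.1.continuous.pow 2
  have cs2 : HasCompactSupport (fun x => ζ x ^ 2) := by
    have h1 : HasCompactSupport (fun x => ζ x * ζ x) := hζ.2.mul_left
    simpa only [sq] using h1
  obtain ⟨B2, hB2⟩ := bd _ c2 cs2
  have L2 := Lf.bmul c2.aestronglyMeasurable hB2
  have c3 : ∀ j, Continuous (fun x => ζ x * pd j ζ x) := fun j =>
    hζ.1.continuous.mul (hz' j).1.continuous
  have cs3 : ∀ j, HasCompactSupport (fun x => ζ x * pd j ζ x) := fun j => (hz' j).2.mul_left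
  have L3 : ∀ j, L2t (fun k x => (ζ x * pd j ζ x) * Vale.Agent.P245.Moll.mo (seqM k) f x)
      (fun x => (ζ x * pd j ζ x) * f x) := fun j => by
    obtain ⟨B3, hB3⟩ := bd _ (c3 j) (cs3 j)
    exact Lf.bmul (c3 j).aestronglyMeasurable hB3
  have cq : Continuous (fun x => ∑ i, ∑ j, A x i j * pd i ζ x * pd j ζ x) :=
    continuous_finsetSum _ fun i _ => continuous_finsetSum _ fun j _ =>
      ((D.acont i j).mul (hz' i).1.continuous).mul (hz' j).1.continuous
  have csq : HasCompactSupport (fun x => ∑ i, ∑ j, A x i j * pd i ζ x * pd j ζ x) := by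
    refine HasCompactSupport.intro (isCompact_closedBall (0 : E n) R) fun x hx => ?_
    refine Finset.sum_eq_zero fun i _ => Finset.sum_eq_zero fun j _ => ?_
    rw [pd_zero_of_ball hζR j x hx, mul_zero]
  obtain ⟨Bq, hBq⟩ := bd _ cq csq
  have Lq := Lf.bmul cq.aestronglyMeasurable hBq
  have Le : ∀ j, L2t (fun k => (Metric.closedBall (0 : E n) R).indicator (err r A (seqM k) f j))
      (fun _ => 0) := fun j => err_lim D R hf h0 j
  -- the limits
  have T0 := L0.lim_mul L2
  have T1 : Tendsto (fun k => ∑ j, ∫ x, (Metric.closedBall (0 : E n) R).indicator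
      (err r A (seqM k) f j) x * (Metric.closedBall (0 : E n) R).indicator
      (err r A (seqM k) f j) x) atTop (𝓝 (∑ _j : Fin n, ∫ _x : E n, (0 : ℝ) * 0)) :=
    tendsto_finsetSum _ fun j _ => (Le j).lim_mul (Le j)
  have T2 : Tendsto (fun k => ∑ j, ∫ x, (Metric.closedBall (0 : E n) R).indicator
      (err r A (seqM k) f j) x * ((ζ x * pd j ζ x) * Vale.Agent.P245.Moll.mo (seqM k) f x)) atTop
      (𝓝 (∑ j : Fin n, ∫ x : E n, (0 : ℝ) * ((ζ x * pd j ζ x) * f x))) :=
    tendsto_finsetSum _ fun j _ => (Le j).lim_mul (L3 j)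
  have T3 := Lq.lim_mul Lf
  have T : Tendsto (fun k => (∫ x, Vale.Agent.P245.Moll.mo (seqM k) (fun x => f x * r x) x *
        (ζ x ^ 2 * Vale.Agent.P245.Moll.mo (seqM k) f x))
      + -(1 / (4 * m)) * (∑ j, ∫ x, (Metric.closedBall (0 : E n) R).indicator
        (err r A (seqM k) f j) x * (Metric.closedBall (0 : E n) R).indicator
        (err r A (seqM k) f j) x)
      + (∑ j, ∫ x, (Metric.closedBall (0 : E n) R).indicator
        (err r A (seqM k) f j) x * ((ζ x * pd j ζ x) * Vale.Agent.P245.Moll.mo (seqM k) f x))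
      - ∫ x, ((∑ i, ∑ j, A x i j * pd i ζ x * pd j ζ x) * Vale.Agent.P245.Moll.mo (seqM k) f x) * Vale.Agent.P245.Moll.mo (seqM k) f x)
      atTop (𝓝 ((∫ x, (f x * r x) * (ζ x ^ 2 * f x))
        + -(1 / (4 * m)) * (∑ _j : Fin n, ∫ _x : E n, (0 : ℝ) * 0)
        + (∑ j : Fin n, ∫ x : E n, (0 : ℝ) * ((ζ x * pd j ζ x) * f x))
        - ∫ x, ((∑ i, ∑ j, A x i j * pd i ζ x * pd j ζ x) * f x) * f x)) :=
    ((T0.add (T1.const_mul _)).add T2).sub T3
  have hle : ∀ k : ℕ, (∫ x, Vale.Agent.P245.Moll.mo (seqM k) (fun x => f x * r x) x *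
        (ζ x ^ 2 * Vale.Agent.P245.Moll.mo (seqM k) f x))
      + -(1 / (4 * m)) * (∑ j, ∫ x, (Metric.closedBall (0 : E n) R).indicator
        (err r A (seqM k) f j) x * (Metric.closedBall (0 : E n) R).indicator
        (err r A (seqM k) f j) x)
      + (∑ j, ∫ x, (Metric.closedBall (0 : E n) R).indicator
        (err r A (seqM k) f j) x * ((ζ x * pd j ζ x) * Vale.Agent.P245.Moll.mo (seqM k) f x))
      - ∫ x, ((∑ i, ∑ j, A x i j * pd i ζ x * pd j ζ x) * Vale.Agent.P245.Moll.mo (seqM k) f x) * Vale.Agent.P245.Moll.mo (seqM k) f x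
      ≤ 0 := by
    intro k
    have hη : IsMol (1 / ((k : ℝ) + 1)) (seqM k : E n → ℝ) := seqM_isMol k
    have hh : ContDiff ℝ ∞ (Vale.Agent.P245.Moll.mo (seqM k) f) := contDiff_mo hη.contDiff hη.hcs (locInt hf)
    have hG : Test (fun x => ζ x ^ 2 * Vale.Agent.P245.Moll.mo (seqM k) f x) := ⟨(hζ.1.pow 2).mul hh, cs2.mul_right⟩
    have hGR : ∀ x, x ∉ Metric.closedBall (0 : E n) R → ζ x ^ 2 * Vale.Agent.P245.Moll.mo (seqM k) f x = 0 := by
      intro x hx
      rw [hζR x hx]; ring
    have hE := test_eq D (hk0 k) (hk1 k) hf h0 heq hG hGR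
    have hdG : ∀ j x, pd j (fun x => ζ x ^ 2 * Vale.Agent.P245.Moll.mo (seqM k) f x) x =
        2 * ζ x * pd j ζ x * Vale.Agent.P245.Moll.mo (seqM k) f x + ζ x ^ 2 * pd j (Vale.Agent.P245.Moll.mo (seqM k) f) x := by
      intro j x
      have a1 : HasFDerivAt ζ (fderiv ℝ ζ x) x := ((hζ.1.differentiable (by simp)) x).hasFDerivAt
      have a2 : HasFDerivAt (Vale.Agent.P245.Moll.mo (seqM k) f) (fderiv ℝ (Vale.Agent.P245.Moll.mo (seqM k) f) x) x :=
        ((hh.differentiable (by simp)) x).hasFDerivAt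
      have a3 := ((a1.pow 2).mul a2).fderiv
      have a4 : fderiv ℝ (fun x => ζ x ^ 2 * Vale.Agent.P245.Moll.mo (seqM k) f x) x = _ := a3
      unfold pd
      rw [a4]
      simp
      ring
    have m0 : MemLp (Vale.Agent.P245.Moll.mo (seqM k) (fun x => f x * r x)) 2 (volume : Measure (E n)) := L0.mem k
    have mf : MemLp (Vale.Agent.P245.Moll.mo (seqM k) f) 2 (volume : Measure (E n)) := Lf.mem k
    have I0 : Integrable (fun x => Vale.Agent.P245.Moll.mo (seqM k) (fun x => f x * r x) x *
        (ζ x ^ 2 * Vale.Agent.P245.Moll.mo (seqM k) f x)) := m0.integrable_mul (L2.mem k)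
    have I1 : ∀ j, Integrable (fun x => (Metric.closedBall (0 : E n) R).indicator
        (err r A (seqM k) f j) x * (Metric.closedBall (0 : E n) R).indicator
        (err r A (seqM k) f j) x) := fun j => ((Le j).mem k).integrable_mul ((Le j).mem k)
    have I2 : ∀ j, Integrable (fun x => (Metric.closedBall (0 : E n) R).indicator
        (err r A (seqM k) f j) x * ((ζ x * pd j ζ x) * Vale.Agent.P245.Moll.mo (seqM k) f x)) := fun j =>
      ((Le j).mem k).integrable_mul ((L3 j).mem k)
    have I3 : Integrable (fun x => ((∑ i, ∑ j, A x i j * pd i ζ x * pd j ζ x) *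
        Vale.Agent.P245.Moll.mo (seqM k) f x) * Vale.Agent.P245.Moll.mo (seqM k) f x) := (Lq.mem k).integrable_mul mf
    have S1 : Integrable (fun x => -(1 / (4 * m)) * ∑ j, (Metric.closedBall (0 : E n) R).indicator
        (err r A (seqM k) f j) x * (Metric.closedBall (0 : E n) R).indicator
        (err r A (seqM k) f j) x) := (integrable_finsetSum _ fun j _ => I1 j).const_mul _
    have S2 : Integrable (fun x => ∑ j, (Metric.closedBall (0 : E n) R).indicator
        (err r A (seqM k) f j) x * ((ζ x * pd j ζ x) * Vale.Agent.P245.Moll.mo (seqM k) f x)) :=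
      integrable_finsetSum _ fun j _ => I2 j
    have I01 : Integrable (fun x => Vale.Agent.P245.Moll.mo (seqM k) (fun x => f x * r x) x *
        (ζ x ^ 2 * Vale.Agent.P245.Moll.mo (seqM k) f x) + -(1 / (4 * m)) * ∑ j,
        (Metric.closedBall (0 : E n) R).indicator
        (err r A (seqM k) f j) x * (Metric.closedBall (0 : E n) R).indicator
        (err r A (seqM k) f j) x) := I0.add S1
    have I012 : Integrable (fun x => Vale.Agent.P245.Moll.mo (seqM k) (fun x => f x * r x) x *
        (ζ x ^ 2 * Vale.Agent.P245.Moll.mo (seqM k) f x) + -(1 / (4 * m)) * (∑ j,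
        (Metric.closedBall (0 : E n) R).indicator
        (err r A (seqM k) f j) x * (Metric.closedBall (0 : E n) R).indicator
        (err r A (seqM k) f j) x) + ∑ j, (Metric.closedBall (0 : E n) R).indicator
        (err r A (seqM k) f j) x * ((ζ x * pd j ζ x) * Vale.Agent.P245.Moll.mo (seqM k) f x)) := I01.add S2
    rw [← integral_finsetSum _ (fun j _ => I1 j), ← integral_finsetSum _ (fun j _ => I2 j),
      ← integral_const_mul, ← integral_add I0 S1, ← integral_add I01 S2, ← integral_sub I012 I3]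
    rw [← hE]
    have hpc : Continuous (Vale.Agent.P245.Moll.mo (seqM k) (fun x => f x * r x)) :=
      (contDiff_mo hη.contDiff hη.hcs (locInt hp)).continuous
    have hIG : Integrable (fun x => Vale.Agent.P245.Moll.mo (stdM (1 / ((k : ℝ) + 1))) (fun y => f y * r y) x *
        (ζ x ^ 2 * Vale.Agent.P245.Moll.mo (seqM k) f x) + ∑ j, (err r A (stdM (1 / ((k : ℝ) + 1))) f j x +
        ∑ i, A x i j * pd i (Vale.Agent.P245.Moll.mo (stdM (1 / ((k : ℝ) + 1))) f) x) *
        pd j (fun x => ζ x ^ 2 * Vale.Agent.P245.Moll.mo (seqM k) f x) x) := by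
      refine Integrable.add (integrable_cont_test hpc hG.1.continuous hG.2) ?_
      refine integrable_finsetSum _ fun j _ => ?_
      refine integrable_cont_test ?_ (test_pd hG j).1.continuous (test_pd hG j).2
      refine (err_cont D hη (locInt hf) j).add ?_
      refine continuous_finsetSum _ fun i _ => (D.acont i j).mul ?_
      exact (hh.continuous_fderiv (by simp)).clm_apply continuous_const
    refine integral_mono (I012.sub I3) hIG fun x => ?_
    simp only [hdG]
    by_cases hx : x ∈ Metric.closedBall (0 : E n) R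
    · simp only [Set.indicator_of_mem hx]
      have := esa_alg (A x) (D.symm x) hm (hlow x hx) (fun j => err r A (seqM k) f j x)
        (fun i => pd i (Vale.Agent.P245.Moll.mo (seqM k) f) x) (fun i => pd i ζ x) (ζ x) (Vale.Agent.P245.Moll.mo (seqM k) f x) (hζ1 x)
      simp only [seqM] at this ⊢
      linarith
    · simp only [Set.indicator_of_notMem hx, hζR x hx, pd_zero_of_ball hζR _ x hx]
      simp
  have hfin := le_of_tendsto T (Eventually.of_forall hle)
  simp only [mul_zero, zero_mul, integral_zero, Finset.sum_const_zero, add_zero] at hfin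
  linarith

end Vale.Agent.P245.E456
end

section

/-! # Essential self-adjointness, part 5: cut-offs and the abstract conclusion -/

open MeasureTheory Filter Topology
open scoped ContDiff

namespace Vale.Agent.P245.E456

open Vale.Agent.P227.M Vale.Agent.P245.Moll

variable {n : ℕ} {r : E n → ℝ} {A : E n → Fin n → Fin n → ℝ}

/-- the reference cut-off -/
noncomputable def chi0 (n : ℕ) : ContDiffBump (0 : E n) := ⟨1, 2, by norm_num, by norm_num⟩

/-- the cut-off at radius `R` -/
noncomputable def cutR (n : ℕ) (R : ℝ) (x : E n) : ℝ := chi0 n (R⁻¹ • x)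

lemma cutR_test {R : ℝ} (hR : 0 < R) : Test (cutR n R) := by
  refine ⟨(chi0 n).contDiff.comp (contDiff_const_smul _), ?_⟩
  exact (chi0 n).hasCompactSupport.comp_homeomorph (Homeomorph.smulOfNeZero R⁻¹ (inv_ne_zero hR.ne'))

lemma cutR_nonneg (R : ℝ) (x : E n) : 0 ≤ cutR n R x := (chi0 n).nonneg

lemma cutR_le_one (R : ℝ) (x : E n) : cutR n R x ≤ 1 := (chi0 n).le_one

lemma cutR_one {R : ℝ} (hR : 0 < R) {x : E n} (hx : ‖x‖ ≤ R) : cutR n R x = 1 := by
  refine (chi0 n).one_of_mem_closedBall ?_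
  simp only [Metric.mem_closedBall, dist_zero_right, norm_smul, norm_inv,
    Real.norm_of_nonneg hR.le, chi0]
  rw [inv_mul_eq_div, div_le_one hR]
  exact hx

lemma cutR_zero {R : ℝ} (hR : 0 < R) {x : E n} (hx : x ∉ Metric.closedBall (0 : E n) (2 * R)) :
    cutR n R x = 0 := by
  refine (chi0 n).zero_of_le_dist ?_
  simp only [Metric.mem_closedBall, dist_zero_right, not_le] at hx
  simp only [dist_zero_right, norm_smul, norm_inv, Real.norm_of_nonneg hR.le, chi0]
  rw [inv_mul_eq_div, le_div_iff₀ hR]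
  exact hx.le

lemma cutR_pd (n : ℕ) : ∃ L : ℝ, 0 ≤ L ∧ ∀ R : ℝ, 0 < R → ∀ x i, |pd i (cutR n R) x| ≤ L / R := by
  have hc : Continuous (fderiv ℝ (chi0 n : E n → ℝ)) :=
    (chi0 n).contDiff (n := 1).continuous_fderiv (by simp)
  obtain ⟨L, hL⟩ := ((chi0 n).hasCompactSupport.fderiv ℝ).exists_bound_of_continuous hc
  refine ⟨|L|, abs_nonneg _, fun R hR x i => ?_⟩
  have h2 : HasFDerivAt (fun x : E n => R⁻¹ • x) (R⁻¹ • ContinuousLinearMap.id ℝ (E n)) x :=
    (hasFDerivAt_id x).const_smul R⁻¹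
  have h3 : HasFDerivAt (chi0 n : E n → ℝ) (fderiv ℝ (chi0 n : E n → ℝ) (R⁻¹ • x)) (R⁻¹ • x) :=
    (((chi0 n).contDiff (n := 1)).differentiable (by simp) _).hasFDerivAt
  have h5 : fderiv ℝ (cutR n R) x = _ := (h3.comp x h2).fderiv
  unfold pd
  rw [h5]
  simp only [ContinuousLinearMap.comp_smul, ContinuousLinearMap.comp_id,
    _root_.smul_apply, smul_eq_mul, abs_mul, abs_inv, abs_of_pos hR]
  have h6 := (fderiv ℝ (chi0 n : E n → ℝ) (R⁻¹ • x)).le_opNorm (ei i)
  rw [norm_ei, mul_one] at h6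
  rw [inv_mul_eq_div]
  have h7 : |fderiv ℝ (chi0 n : E n → ℝ) (R⁻¹ • x) (ei i)| ≤ |L| :=
    (h6.trans (hL _)).trans (le_abs_self L)
  gcongr

/-- abstract essential self-adjointness -/
theorem esa_core (D : Dat r A) (rpos : ∀ x, 0 < r x) {c C : ℝ} (hc : 0 < c) (hC : 0 ≤ C)
    (hlow : ∀ x, ∀ v : Fin n → ℝ, c * r x * ∑ i, v i ^ 2 ≤ ∑ i, ∑ j, A x i j * v i * v j)
    (hup : ∀ x, ∀ v : Fin n → ℝ, ∑ i, ∑ j, A x i j * v i * v j ≤ C * r x * ∑ i, v i ^ 2)
    {h : E n → ℝ} (hm : AEStronglyMeasurable h volume) (hi : Integrable (fun x => h x ^ 2 * r x))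
    (heq : ∀ F : E n → ℝ, Test F →
      ∫ x, h x * (r x * F x - (∑ i, ∑ j, A x i j * pd i (pd j F) x) + ∑ j, r x * x j * pd j F x) = 0) :
    h =ᵐ[volume] 0 := by
  obtain ⟨L, hL0, hL⟩ := cutR_pd n
  set N : ℝ := ∫ x, h x ^ 2 * r x with hN
  -- the local estimate
  have key : ∀ R : ℝ, 0 < R →
      ∫ x, cutR n R x ^ 2 * (h x ^ 2 * r x) ≤ C * (n * (L / R) ^ 2) * N := by
    intro R hR
    set f : E n → ℝ := (Metric.closedBall (0 : E n) (2 * R + 2)).indicator h with hf
    have hB : MeasurableSet (Metric.closedBall (0 : E n) (2 * R + 2)) :=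
      Metric.isClosed_closedBall.measurableSet
    have hfm : AEStronglyMeasurable f volume := hm.indicator hB
    have f0 : ∀ x, x ∉ Metric.closedBall (0 : E n) (2 * R + 2) → f x = 0 := fun x hx =>
      Set.indicator_of_notMem hx _
    have f1 : ∀ x ∈ Metric.closedBall (0 : E n) (2 * R + 2), f x = h x := fun x hx =>
      Set.indicator_of_mem hx _
    have hne : (Metric.closedBall (0 : E n) (2 * R + 2)).Nonempty :=
      ⟨0, by simp only [Metric.mem_closedBall, dist_self]; positivity⟩
    obtain ⟨x0, hx0, hmin⟩ := (isCompact_closedBall (0 : E n) (2 * R + 2)).exists_isMinOn hne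
      D.rcont.continuousOn
    have hr0 := rpos x0
    have hfL : MemLp f 2 (volume : Measure (E n)) := by
      refine (memLp_two_iff_integrable_sq_norm hfm).mpr ?_
      refine (hi.const_mul (r x0)⁻¹).mono' (hfm.norm.pow 2) (Eventually.of_forall fun x => ?_)
      rw [Real.norm_of_nonneg (by positivity), Real.norm_eq_abs, sq_abs]
      by_cases hx : x ∈ Metric.closedBall (0 : E n) (2 * R + 2)
      · rw [f1 x hx]
        have h1 : r x0 ≤ r x := hmin hx
        rw [inv_mul_eq_div, le_div_iff₀ hr0]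
        exact mul_le_mul_of_nonneg_left h1 (sq_nonneg _)
      · rw [f0 x hx]
        have := rpos x
        have h9 : (0 : ℝ) ^ 2 = 0 := by norm_num
        rw [h9]
        positivity
    have hsub : Metric.closedBall (0 : E n) (2 * R) ⊆ Metric.closedBall (0 : E n) (2 * R + 2) :=
      Metric.closedBall_subset_closedBall (by linarith)
    have hsub1 : Metric.closedBall (0 : E n) (2 * R + 1) ⊆ Metric.closedBall (0 : E n) (2 * R + 2) :=
      Metric.closedBall_subset_closedBall (by linarith)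
    have heq' : ∀ F : E n → ℝ, Test F →
        (∀ x, x ∉ Metric.closedBall (0 : E n) (2 * R + 1) → F x = 0) →
        ∫ x, f x * (r x * F x - (∑ i, ∑ j, A x i j * pd i (pd j F) x)
          + ∑ j, r x * x j * pd j F x) = 0 := by
      intro F hF hF0
      rw [← heq F hF]
      refine integral_congr_ae (Eventually.of_forall fun x => ?_)
      by_cases hx : x ∈ Metric.closedBall (0 : E n) (2 * R + 2)
      · simp only [f1 x hx]
      · have hx1 : x ∉ Metric.closedBall (0 : E n) (2 * R + 1) := fun hc => hx (hsub1 hc)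
        have p1 := fun j => pd_zero_of_ball hF0 j
        have p2 := fun i j => pd_zero_of_ball (p1 j) i
        simp only [hF0 x hx1, p1 _ x hx1, p2 _ _ x hx1]
        simp
    have hloc := local_ineq D (R := 2 * R) (m := c * r x0) (by positivity) (fun x hx v => by
      refine le_trans ?_ (hlow x v)
      have h1 : r x0 ≤ r x := hmin (hsub hx)
      have h2 : 0 ≤ ∑ i, v i ^ 2 := Finset.sum_nonneg fun i _ => sq_nonneg _
      gcongr) hfL f0 heq' (ζ := cutR n R) (cutR_test hR) (fun x hx => cutR_zero hR hx)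
      (fun x => by rw [abs_of_nonneg (cutR_nonneg R x)]; exact cutR_le_one R x)
    have e1 : ∫ x, (f x * r x) * (cutR n R x ^ 2 * f x) =
        ∫ x, cutR n R x ^ 2 * (h x ^ 2 * r x) := by
      refine integral_congr_ae (Eventually.of_forall fun x => ?_)
      by_cases hx : x ∈ Metric.closedBall (0 : E n) (2 * R + 2)
      · simp only [f1 x hx]; ring
      · have hx1 : x ∉ Metric.closedBall (0 : E n) (2 * R) := fun hc => hx (hsub hc)
        simp only [cutR_zero hR hx1]; ring
    rw [e1] at hloc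
    refine hloc.trans ?_
    have hpt : ∀ x, ((∑ i, ∑ j, A x i j * pd i (cutR n R) x * pd j (cutR n R) x) * f x) * f x ≤
        C * (n * (L / R) ^ 2) * (h x ^ 2 * r x) := by
      intro x
      have hrx := rpos x
      have h1 := hup x (fun i => pd i (cutR n R) x)
      have h2 : ∑ i, (pd i (cutR n R) x) ^ 2 ≤ n * (L / R) ^ 2 := by
        calc ∑ i, (pd i (cutR n R) x) ^ 2 ≤ ∑ _i : Fin n, (L / R) ^ 2 := by
              refine Finset.sum_le_sum fun i _ => ?_
              rw [← sq_abs]
              exact pow_le_pow_left₀ (abs_nonneg _) (hL R hR x i) 2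
          _ = n * (L / R) ^ 2 := by simp
      have h3 : C * r x * ∑ i, (pd i (cutR n R) x) ^ 2 ≤ C * r x * (n * (L / R) ^ 2) :=
        mul_le_mul_of_nonneg_left h2 (by positivity)
      have h4 : f x ^ 2 ≤ h x ^ 2 := by
        by_cases hx : x ∈ Metric.closedBall (0 : E n) (2 * R + 2)
        · rw [f1 x hx]
        · rw [f0 x hx]
          have h9 : (0 : ℝ) ^ 2 = 0 := by norm_num
          rw [h9]
          positivity
      calc ((∑ i, ∑ j, A x i j * pd i (cutR n R) x * pd j (cutR n R) x) * f x) * f x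
          = (∑ i, ∑ j, A x i j * pd i (cutR n R) x * pd j (cutR n R) x) * f x ^ 2 := by ring
        _ ≤ (C * r x * (n * (L / R) ^ 2)) * f x ^ 2 :=
            mul_le_mul_of_nonneg_right (h1.trans h3) (sq_nonneg _)
        _ ≤ (C * r x * (n * (L / R) ^ 2)) * h x ^ 2 :=
            mul_le_mul_of_nonneg_left h4 (by positivity)
        _ = _ := by ring
    rw [hN, ← integral_const_mul]
    have hqm : AEStronglyMeasurable (fun x => ((∑ i, ∑ j, A x i j * pd i (cutR n R) x *
        pd j (cutR n R) x) * f x) * f x) volume := by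
      have cq : Continuous (fun x => ∑ i, ∑ j, A x i j * pd i (cutR n R) x * pd j (cutR n R) x) :=
        continuous_finsetSum _ fun i _ => continuous_finsetSum _ fun j _ =>
          ((D.acont i j).mul (test_pd (cutR_test hR) i).1.continuous).mul
            (test_pd (cutR_test hR) j).1.continuous
      exact (cq.aestronglyMeasurable.mul hfm).mul hfm
    refine integral_mono_of_nonneg ?_ (hi.const_mul _) (Eventually.of_forall hpt)
    refine Eventually.of_forall fun x => ?_
    have hrx := rpos x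
    have h1 := hlow x (fun i => pd i (cutR n R) x)
    have h2 : 0 ≤ ∑ i, ∑ j, A x i j * pd i (cutR n R) x * pd j (cutR n R) x := by
      refine le_trans ?_ h1
      have : 0 ≤ ∑ i, (pd i (cutR n R) x) ^ 2 := Finset.sum_nonneg fun i _ => sq_nonneg _
      positivity
    show 0 ≤ ((∑ i, ∑ j, A x i j * pd i (cutR n R) x * pd j (cutR n R) x) * f x) * f x
    rw [mul_assoc]
    exact mul_nonneg h2 (mul_self_nonneg _)
  -- the limit
  have T1 : Tendsto (fun k : ℕ => ∫ x, cutR n ((k : ℝ) + 1) x ^ 2 * (h x ^ 2 * r x)) atTop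
      (𝓝 (∫ x, h x ^ 2 * r x)) := by
    refine tendsto_integral_of_dominated_convergence (fun x => h x ^ 2 * r x) ?_ hi ?_ ?_
    · intro k
      exact ((cutR_test (n := n) (show 0 < (k : ℝ) + 1 by positivity)).1.continuous.pow
        2).aestronglyMeasurable.mul hi.1
    · intro k
      refine Eventually.of_forall fun x => ?_
      have hrx := rpos x
      have h1 := cutR_nonneg ((k : ℝ) + 1) x
      have h2 := cutR_le_one ((k : ℝ) + 1) x
      rw [Real.norm_of_nonneg (by positivity)]
      have h3 : cutR n ((k : ℝ) + 1) x ^ 2 ≤ 1 := pow_le_one₀ h1 h2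
      have h4 : 0 ≤ h x ^ 2 * r x := by positivity
      nlinarith
    · refine Eventually.of_forall fun x => ?_
      refine tendsto_const_nhds.congr' ?_
      filter_upwards [eventually_ge_atTop ⌈‖x‖⌉₊] with k hk
      have h1 : ‖x‖ ≤ (k : ℝ) + 1 := by
        have := Nat.le_of_ceil_le hk
        linarith
      rw [cutR_one (by positivity) h1]
      ring
  have T2 : Tendsto (fun k : ℕ => C * (n * (L / ((k : ℝ) + 1)) ^ 2) * N) atTop (𝓝 0) := by
    have h1 : Tendsto (fun k : ℕ => L / ((k : ℝ) + 1)) atTop (𝓝 0) :=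
      tendsto_const_div_atTop_nhds_zero_nat L |>.comp (tendsto_add_atTop_nat 1) |>.congr
        fun k => by simp
    have h2 := (((h1.pow 2).const_mul (n : ℝ)).const_mul C).mul_const N
    simpa using h2
  have hN0 : N ≤ 0 := le_of_tendsto_of_tendsto' T1 T2 fun k => key _ (by positivity)
  have hz : (fun x => h x ^ 2 * r x) =ᵐ[volume] 0 := by
    refine (integral_eq_zero_iff_of_nonneg_ae (Eventually.of_forall fun x => ?_) hi).1 ?_
    · have hrx := rpos x
      show 0 ≤ h x ^ 2 * r x
      positivity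
    · refine le_antisymm hN0 (integral_nonneg fun x => ?_)
      have hrx := rpos x
      positivity
  filter_upwards [hz] with x hx
  have hrx := rpos x
  simp only [Pi.zero_apply, mul_eq_zero, ne_eq, OfNat.ofNat_ne_zero, not_false_eq_true,
    pow_eq_zero_iff] at hx ⊢
  rcases hx with hx | hx
  · exact hx
  · exact absurd hx hrx.ne'

end Vale.Agent.P245.E456
end

section

/-! # P245 (helper464): essential self-adjointness of `L` for an elliptic frame `t` (`TB V t`) -/

open MeasureTheory Filter Topology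
open scoped ContDiff NNReal

namespace Vale.Agent.P245.H464

open Vale.Agent.P227.M Vale.Agent.P227.M.K814 Vale.Agent.P254.SN Vale.Agent.P245.E456

variable {n : ℕ} {V : E n → ℝ} {t : E n → Matrix (Fin n) (Fin n) ℝ}

/-- `L f = tr (t D²f) - ⟨x, ∇f⟩` -/
noncomputable def Lt (t : E n → Matrix (Fin n) (Fin n) ℝ) (f : E n → ℝ) (x : E n) : ℝ :=
  (∑ i, ∑ j, t x i j * hess f x i j) - ∑ i, x i * pd i f x

theorem Lt_tau (ψ f : E n → ℝ) (x : E n) : Lt (tau ψ) f x = Lop ψ f x := rfl

/-- a frame field which is elliptic -/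
structure TE (V : E n → ℝ) (t : E n → Matrix (Fin n) (Fin n) ℝ) (lam Lam : ℝ) : Prop
    extends TB V t where
  lam_pos : 0 < lam
  low : ∀ x (v : E n), lam * ‖v‖ ^ 2 ≤ qf (t x) v
  up : ∀ x (v : E n), qf (t x) v ≤ Lam * ‖v‖ ^ 2

theorem te_tau {ψ : E n → ℝ} {c1 C1 c C M : ℝ} (hR : Reg V c1 C1) (h : Vale.Agent.P254.MC.MMc ψ V c C M)
    (hC : 0 < C) : TE V (tau ψ) C⁻¹ c⁻¹ where
  toTB := tb_tau hR h
  lam_pos := by positivity
  low := fun x v => Vale.Agent.P254.MC.MMc.le_qf_tau h x v
  up := fun x v => Vale.Agent.P254.MC.MMc.qf_tau_le h x v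

lemma sum_sq_eq (v : E n) : ∑ i, v i ^ 2 = ‖v‖ ^ 2 := by
  rw [EuclideanSpace.norm_sq_eq]
  refine Finset.sum_congr rfl fun i _ => ?_
  rw [Real.norm_eq_abs, sq_abs]

/-- **essential self-adjointness** -/
theorem esa {lam Lam : ℝ} (h : TE V t lam Lam) {g : E n → ℝ} (hgm : AEStronglyMeasurable g volume)
    (hgi : Integrable (fun x => g x ^ 2 * Real.exp (-V x)))
    (heq : ∀ f : E n → ℝ, Test f → ∫ x, g x * (f x - Lt t f x) * Real.exp (-V x) = 0) :
    g =ᵐ[volume] 0 := by
  have hVc : ContDiff ℝ 1 V := h.V2.of_le (by norm_num)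
  set r : E n → ℝ := fun x => Real.exp (-V x) with hr
  set A : E n → Fin n → Fin n → ℝ := fun x i j => Real.exp (-V x) * t x i j with hA
  have hrC1 : ContDiff ℝ 1 r := (hVc.neg).exp
  have rcont : Continuous r := hrC1.continuous
  have rpos : ∀ x, 0 < r x := fun x => Real.exp_pos _
  have hlipr : ∀ R : ℝ, ∃ K : ℝ, 0 ≤ K ∧ ∀ x ∈ Metric.closedBall (0 : E n) R,
      ∀ y ∈ Metric.closedBall (0 : E n) R, |r x - r y| ≤ K * ‖x - y‖ := by
    intro R
    obtain ⟨B, hB⟩ := (isCompact_closedBall (0 : E n) R).exists_bound_of_continuousOn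
      (hrC1.continuous_fderiv (by simp)).continuousOn
    refine ⟨|B|, abs_nonneg _, fun x hx y hy => ?_⟩
    have h1 := (convex_closedBall (0 : E n) R).norm_image_sub_le_of_norm_fderiv_le (𝕜 := ℝ)
      (f := r) (C := |B|) (fun z _ => (hrC1.differentiable (by simp)) z)
      (fun z hz => (hB z hz).trans (le_abs_self B)) hy hx
    exact h1
  obtain ⟨T, hT⟩ := h.bt
  have hT0 : ∀ x i j, |t x i j| ≤ |T| := fun x i j => (hT x i j).trans (le_abs_self T)
  have hK : ∀ i j, ∃ K : ℝ≥0, LipschitzWith K fun x => t x i j := h.lip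
  choose Kt hKt using hK
  set KK : ℝ := ∑ i, ∑ j, (Kt i j : ℝ) with hKK
  have hKK0 : 0 ≤ KK := Finset.sum_nonneg fun i _ => Finset.sum_nonneg fun j _ => (Kt i j).2
  have hKle : ∀ i j, (Kt i j : ℝ) ≤ KK := fun i j => by
    refine le_trans ?_ (Finset.single_le_sum (f := fun i => ∑ j, (Kt i j : ℝ))
      (fun i _ => Finset.sum_nonneg fun j _ => (Kt i j).2) (Finset.mem_univ i))
    exact Finset.single_le_sum (f := fun j => (Kt i j : ℝ)) (fun j _ => (Kt i j).2) (Finset.mem_univ j)
  have hlipt : ∀ i j x y, |t x i j - t y i j| ≤ KK * ‖x - y‖ := fun i j x y => by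
    have h1 := (hKt i j).dist_le_mul x y
    rw [Real.dist_eq, dist_eq_norm] at h1
    exact h1.trans (mul_le_mul_of_nonneg_right (hKle i j) (norm_nonneg _))
  have D : Dat r A := by
    refine ⟨rcont, fun i j => rcont.mul (tll h.toTF i j).continuous, fun x i j => ?_, ?_, ?_⟩
    · simp only [hA]
      rw [h.symm]
    · intro R
      obtain ⟨K, hK, hKr⟩ := hlipr R
      obtain ⟨B, hB⟩ := (isCompact_closedBall (0 : E n) R).exists_bound_of_continuousOn
        rcont.continuousOn
      refine ⟨K * |T| + |B| * KK, by positivity, fun x hx y hy i j => ?_⟩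
      have e : A x i j - A y i j = (r x - r y) * t x i j + r y * (t x i j - t y i j) := by
        simp only [hA, hr]; ring
      have h1 := hKr x hx y hy
      have h2 := hT0 x i j
      have h4 : |r y| ≤ |B| := (hB y hy).trans (le_abs_self B)
      have h5 := hlipt i j x y
      have hn := norm_nonneg (x - y)
      rw [e]
      calc _ ≤ |(r x - r y) * t x i j| + |r y * (t x i j - t y i j)| := abs_add_le _ _
        _ ≤ (K * ‖x - y‖) * |T| + |B| * (KK * ‖x - y‖) := by
            rw [abs_mul, abs_mul]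
            gcongr
        _ = _ := by ring
    · intro f hf j
      have hlc : LC f := Test.lc hf
      have h1 := tcore h.toTF (f := f) hlc j (G := fun x => Dt t j f x - x j * f x)
        (Eventually.of_forall fun x => rfl)
      have i1 : CI (Dt t j f) := ci_Dt h.toTF hlc j
      have i2 : CI (fun x : E n => x j * f x) := CI.of_lc (LC.mul_left (ll_coord j) hlc)
      rw [I_sub hVc.continuous i1 i2, sub_eq_zero] at h1
      unfold I at h1
      have e1 : ∀ x, ∑ i, A x i j * pd i f x = Dt t j f x * Real.exp (-(V x)) := by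
        intro x
        unfold Dt
        rw [Finset.sum_mul]
        refine Finset.sum_congr rfl fun i _ => ?_
        simp only [hA]
        rw [h.symm x i j]
        ring
      simp only [e1]
      rw [h1]
      refine integral_congr_ae (Eventually.of_forall fun x => ?_)
      simp only [hr]
      ring
  have hqf : ∀ x (v : Fin n → ℝ), ∑ i, ∑ j, A x i j * v i * v j =
      r x * qf (t x) (WithLp.toLp 2 v) := by
    intro x v
    unfold qf
    rw [Finset.mul_sum]
    refine Finset.sum_congr rfl fun i _ => ?_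
    rw [Finset.mul_sum]
    refine Finset.sum_congr rfl fun j _ => ?_
    simp only [hA, hr]; ring
  have hsq : ∀ v : Fin n → ℝ, ∑ i, v i ^ 2 = ‖(WithLp.toLp 2 v : E n)‖ ^ 2 := fun v =>
    sum_sq_eq (WithLp.toLp 2 v)
  refine esa_core D rpos (c := lam) (C := |Lam|) h.lam_pos (abs_nonneg _)
    (fun x v => ?_) (fun x v => ?_) hgm hgi (fun F hF => ?_)
  · rw [hqf, hsq]
    have h1 := mul_le_mul_of_nonneg_left (h.low x (WithLp.toLp 2 v)) (rpos x).le
    refine le_trans (le_of_eq (by ring)) h1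
  · rw [hqf, hsq]
    have h1 := mul_le_mul_of_nonneg_left (h.up x (WithLp.toLp 2 v)) (rpos x).le
    refine h1.trans ?_
    have h2 : Lam * ‖(WithLp.toLp 2 v : E n)‖ ^ 2 ≤ |Lam| * ‖(WithLp.toLp 2 v : E n)‖ ^ 2 :=
      mul_le_mul_of_nonneg_right (le_abs_self _) (by positivity)
    refine (mul_le_mul_of_nonneg_left h2 (rpos x).le).trans (le_of_eq (by ring))
  · rw [← heq F hF]
    refine integral_congr_ae (Eventually.of_forall fun x => ?_)
    simp only [hA, hr, Lt, hess]
    rw [show ∀ a b d : ℝ, a * (b - d) * Real.exp (-V x) =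
      a * (Real.exp (-V x) * b - Real.exp (-V x) * d) by intros; ring]
    congr 1
    rw [mul_sub, Finset.mul_sum, Finset.mul_sum]
    rw [sub_sub_eq_add_sub, add_sub_right_comm]
    congr 1
    · congr 1
      refine Finset.sum_congr rfl fun i _ => ?_
      rw [Finset.mul_sum]
      refine Finset.sum_congr rfl fun j _ => ?_
      ring
    · refine Finset.sum_congr rfl fun j _ => ?_
      ring

end Vale.Agent.P245.H464
end
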