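import Vale.Agent.P245.H464.Pos

/-!
# P245 (helper464), row OP-4 (third seat): positivity, constants and sup bounds for the resolvent
equation `u + s A u = g` in the sense of `Dom`.
-/

set_option linter.all false

open MeasureTheory Filter Topology
open scoped ContDiff NNReal ENNReal InnerProductSpace

namespace Vale.Agent.P245.H464

open Vale.Agent.P227.M Vale.Agent.P227.M.K814 Vale.Agent.P254.SN Vale.Agent.P245.E456

variable {n : ℕ} {V : E n → ℝ} {t : E n → Matrix (Fin n) (Fin n) ℝ} {lam Lam : ℝ}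

/-- negative part of a Lipschitz function with compact support -/
theorem lc_neg {f : E n → ℝ} (hf : LC f) : LC (fun x => max (-(f x)) 0) := by
  refine ⟨?_, ?_⟩
  · have h1 : LocallyLipschitz (fun x => -(f x)) := by
      have := hf.1
      intro x
      obtain ⟨K, s, hs, hK⟩ := this x
      exact ⟨K, s, hs, hK.neg⟩
    have h2 : LocallyLipschitz (fun _ : E n => (0 : ℝ)) := LocallyLipschitz.const 0
    exact h1.max h2
  · have : HasCompactSupport ((fun r : ℝ => max (-r) 0) ∘ f) := hf.2.comp_left (by simp)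
    exact this

/-- derivative of the negative part -/
theorem pd_neg {f : E n → ℝ} (hf : Differentiable ℝ f) {x : E n}
    (hw : DifferentiableAt ℝ (fun y => max (-(f y)) 0) x) :
    (∀ a, pd a (fun y => max (-(f y)) 0) x = - pd a f x) ∨
      ∀ a, pd a (fun y => max (-(f y)) 0) x = 0 := by
  rcases lt_or_ge (f x) 0 with h | h
  · left
    intro a
    have h1 : (fun y => max (-(f y)) 0) =ᶠ[𝓝 x] fun y => -(f y) := by
      filter_upwards [(hf.continuous.continuousAt (x := x)).eventually (gt_mem_nhds h)] with y hy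
      rw [max_eq_left]
      linarith
    unfold pd
    rw [h1.fderiv_eq, fderiv_fun_neg]
    rfl
  · right
    intro a
    have h1 : IsLocalMin (fun y => max (-(f y)) 0) x := by
      refine Eventually.of_forall fun y => ?_
      have : max (-(f x)) 0 = 0 := max_eq_right (by linarith)
      show max (-(f x)) 0 ≤ max (-(f y)) 0
      rw [this]
      exact le_max_right _ _
    unfold pd
    rw [h1.fderiv_eq_zero]
    rfl

theorem Gam_neg (h : TE V t lam Lam) {f : E n → ℝ} (hf : Test f) :
    ∀ᵐ x, Gam t f (fun y => max (-(f y)) 0) x ≤ 0 := by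
  filter_upwards [(lc_neg (Test.lc hf)).ae_diff] with x hx
  rcases pd_neg (test_diff hf) hx with h1 | h1
  · have e : Gam t f (fun y => max (-(f y)) 0) x = - Gam t f f x := by
      unfold Gam
      simp only [h1]
      rw [← Finset.sum_neg_distrib]
      refine Finset.sum_congr rfl fun a _ => ?_
      rw [← Finset.sum_neg_distrib]
      exact Finset.sum_congr rfl fun b _ => by ring
    rw [e]
    have := Gam_nonneg h f x
    linarith
  · have e : Gam t f (fun y => max (-(f y)) 0) x = 0 := by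
      unfold Gam
      simp only [h1, mul_zero, Finset.sum_const_zero]
    rw [e]

section dom

variable {f f' : ℕ → E n → ℝ} {u v : E n → ℝ} {Du Dv : Fin n → E n → ℝ} {Au Av : E n → ℝ}

/-- **positivity** -/
theorem Dom.pos (h : TE V t lam Lam) (d : Dom V t f u Du Au) {s : ℝ} (hs : 0 < s)
    (hg : ∀ᵐ x, 0 ≤ u x + s * Au x) : ∀ᵐ x, 0 ≤ u x := by
  have hV : Continuous V := h.V2.continuous
  set φ : ℝ → ℝ := fun r => max (-r) 0 with hφ
  have hφl : ∀ a b, |φ a - φ b| ≤ |a - b| := fun a b => by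
    simp only [hφ]
    have h1 := abs_max_sub_max_le_abs (-a) (-b) 0
    rwa [neg_sub_neg, abs_sub_comm b a] at h1
  have hφ0 : ∀ r, 0 ≤ φ r := fun r => le_max_right _ _
  have hφm : Measurable φ := by
    simp only [hφ]
    exact (measurable_neg).max measurable_const
  have hw : ∀ m, LC (fun x => φ (f m x)) := fun m => lc_neg (Test.lc (d.test m))
  have sw : ∀ m, Sq V (fun x => φ (f m x)) := fun m => Sq.of_ci hV (CI.of_lc (hw m))
  have swu : Sq V (fun x => φ (u x)) := d.su.of_le hV (hφm.comp d.mu) (C := 1) fun x => by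
    have := hφl (u x) 0
    have h0 : φ 0 = 0 := by simp [hφ]
    rw [h0] at this
    simpa using this
  have lw : Lim V (fun m x => φ (f m x)) (fun x => φ (u x)) :=
    Lim.comp hV (fun m => sq_test hV (d.test m)) d.su d.lu hφl
  -- the inequality for the approximations
  have key : ∀ m, I V (fun x => f m x * φ (f m x)) + s * I V (fun x => -(Lt t (f m) x) * φ (f m x)) ≤
      - I V (fun x => φ (f m x) * φ (f m x)) := by
    intro m
    have h1 := ibpL' h.toTF (d.test m) (hw m)
    have h2 : I V (fun x => -(Lt t (f m) x) * φ (f m x)) = I V (Gam t (f m) (fun x => φ (f m x))) := by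
      have : I V (fun x => -(Lt t (f m) x) * φ (f m x)) = - I V (fun x => Lt t (f m) x * φ (f m x)) := by
        unfold I
        rw [← integral_neg]
        congr 1; ext x; ring
      rw [this, h1, neg_neg]
    have h3 : I V (Gam t (f m) (fun x => φ (f m x))) ≤ 0 := by
      unfold I
      refine integral_nonpos_of_ae ?_
      filter_upwards [Gam_neg h (d.test m)] with x hx
      exact mul_nonpos_of_nonpos_of_nonneg hx (Real.exp_pos _).le
    have h4 : I V (fun x => f m x * φ (f m x)) = - I V (fun x => φ (f m x) * φ (f m x)) := by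
      unfold I
      rw [← integral_neg]
      congr 1; ext x
      have : f m x * φ (f m x) = -(φ (f m x) * φ (f m x)) := by
        simp only [hφ]
        rcases le_total (f m x) 0 with h5 | h5
        · rw [max_eq_left (by linarith)]; ring
        · rw [max_eq_right (by linarith)]; ring
      show f m x * φ (f m x) * Real.exp (-V x) = -(φ (f m x) * φ (f m x) * Real.exp (-V x))
      rw [this]; ring
    rw [h2, h4]
    have : s * I V (Gam t (f m) (fun x => φ (f m x))) ≤ 0 := mul_nonpos_of_nonneg_of_nonpos hs.le h3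
    linarith
  have l1 := Lim.mul hV (fun m => sq_test hV (d.test m)) sw d.su swu d.lu lw
  have l2 := Lim.mul hV (fun m => sq_L h.toTF (d.test m)) sw d.sA swu d.lA lw
  have l3 := Lim.mul hV sw sw swu swu lw lw
  have h5 := le_of_tendsto_of_tendsto' (l1.add (l2.const_mul s)) l3.neg key
  have h6 : 0 ≤ I V (fun x => u x * φ (u x)) + s * I V (fun x => Au x * φ (u x)) := by
    have i1 := Sq.int hV d.su swu
    have i2 := Sq.int hV d.sA swu
    unfold I
    rw [← integral_const_mul, ← integral_add i1 (i2.const_mul s)]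
    refine integral_nonneg_of_ae ?_
    filter_upwards [hg] with x hx
    have e : u x * φ (u x) * Real.exp (-V x) + s * (Au x * φ (u x) * Real.exp (-V x)) =
        (u x + s * Au x) * φ (u x) * Real.exp (-V x) := by ring
    simp only [Pi.zero_apply]
    rw [e]
    exact mul_nonneg (mul_nonneg hx (hφ0 _)) (Real.exp_pos _).le
  have h7 : I V (fun x => φ (u x) * φ (u x)) ≤ 0 := by linarith
  have h8 : ∫ x, φ (u x) * φ (u x) * Real.exp (-V x) = 0 := le_antisymm h7
    (integral_nonneg fun x => mul_nonneg (mul_self_nonneg _) (Real.exp_pos _).le)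
  rw [integral_eq_zero_iff_of_nonneg (fun x => mul_nonneg (mul_self_nonneg _) (Real.exp_pos _).le)
    (Sq.int hV swu swu)] at h8
  filter_upwards [h8] with x hx
  have h9 := (mul_eq_zero.1 hx).resolve_right (Real.exp_pos _).ne'
  have h10 : φ (u x) = 0 := mul_self_eq_zero.1 h9
  have h11 : -(u x) ≤ φ (u x) := le_max_left _ _
  linarith

/-! ## constants -/

theorem pd_cutR {R : ℝ} (hR : 0 < R) (i : Fin n) (x : E n) :
    pd i (cutR n R) x = R⁻¹ * pd i (chi0 n : E n → ℝ) (R⁻¹ • x) := by
  have h2 : HasFDerivAt (fun x : E n => R⁻¹ • x) (R⁻¹ • ContinuousLinearMap.id ℝ (E n)) x :=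
    (hasFDerivAt_id x).const_smul R⁻¹
  have h3 : HasFDerivAt (chi0 n : E n → ℝ) (fderiv ℝ (chi0 n : E n → ℝ) (R⁻¹ • x)) (R⁻¹ • x) :=
    (((chi0 n).contDiff (n := 1)).differentiable (by simp) _).hasFDerivAt
  have h5 : fderiv ℝ (cutR n R) x = _ := (h3.comp x h2).fderiv
  unfold pd
  rw [h5]
  simp only [ContinuousLinearMap.comp_smul, ContinuousLinearMap.comp_id,
    _root_.smul_apply, smul_eq_mul]

theorem test_chi0 : Test (chi0 n : E n → ℝ) := ⟨(chi0 n).contDiff, (chi0 n).hasCompactSupport⟩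

theorem pd2_cutR {R : ℝ} (hR : 0 < R) (i j : Fin n) (x : E n) :
    pd j (pd i (cutR n R)) x = R⁻¹ * (R⁻¹ * pd j (pd i (chi0 n : E n → ℝ)) (R⁻¹ • x)) := by
  have e : pd i (cutR n R) = fun x => R⁻¹ * pd i (chi0 n : E n → ℝ) (R⁻¹ • x) := by
    funext y; exact pd_cutR hR i y
  have h2 : HasFDerivAt (fun x : E n => R⁻¹ • x) (R⁻¹ • ContinuousLinearMap.id ℝ (E n)) x :=
    (hasFDerivAt_id x).const_smul R⁻¹
  have h3 : HasFDerivAt (pd i (chi0 n : E n → ℝ)) (fderiv ℝ (pd i (chi0 n : E n → ℝ)) (R⁻¹ • x)) (R⁻¹ • x) :=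
    ((test_diff (test_pd test_chi0 i)) _).hasFDerivAt
  have h4 := (h3.comp x h2).const_mul R⁻¹
  have h5 : fderiv ℝ (fun x => R⁻¹ * pd i (chi0 n : E n → ℝ) (R⁻¹ • x)) x = _ := h4.fderiv
  rw [e]
  unfold pd
  unfold pd at h5
  rw [h5]
  simp only [ContinuousLinearMap.comp_smul, ContinuousLinearMap.comp_id,
    _root_.smul_apply, smul_eq_mul]

theorem bdd_test {f : E n → ℝ} (hf : Test f) : ∃ B, 0 ≤ B ∧ ∀ x, |f x| ≤ B := by
  obtain ⟨B, hB⟩ := hf.2.exists_bound_of_continuous hf.1.continuous
  exact ⟨|B|, abs_nonneg _, fun x => (hB x).trans (le_abs_self B)⟩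

/-- the constants are in the domain -/
theorem dom_const (h : TE V t lam Lam) (c : ℝ) :
    Dom V t (fun m x => c * cutR n ((m : ℝ) + 1) x) (fun _ => c) (fun _ _ => 0) (fun _ => 0) := by
  have hV : Continuous V := h.V2.continuous
  have hR : ∀ m : ℕ, (0 : ℝ) < (m : ℝ) + 1 := fun m => by positivity
  have hts : ∀ m : ℕ, Test (fun x => c * cutR n ((m : ℝ) + 1) x) := fun m =>
    ⟨contDiff_const.mul (cutR_test (hR m)).1, (cutR_test (hR m)).2.mul_left⟩
  obtain ⟨T, hT⟩ := h.bt
  have hT0 : ∀ x i j, |t x i j| ≤ |T| := fun x i j => (hT x i j).trans (le_abs_self T)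
  -- bounds of the derivatives of the reference cut-off
  have hB1 : ∀ i, ∃ B, 0 ≤ B ∧ ∀ x, |pd i (chi0 n : E n → ℝ) x| ≤ B := fun i => bdd_test (test_pd test_chi0 i)
  have hB2 : ∀ i j, ∃ B, 0 ≤ B ∧ ∀ x, |pd i (pd j (chi0 n : E n → ℝ)) x| ≤ B := fun i j =>
    bdd_test (test_pd (test_pd test_chi0 j) i)
  have hB3 : ∀ i, ∃ B, 0 ≤ B ∧ ∀ x : E n, |x i * pd i (chi0 n : E n → ℝ) x| ≤ B := fun i => by
    obtain ⟨B, hB⟩ := ((test_pd test_chi0 i).2.mul_left (f := fun x : E n => x i)).exists_bound_of_continuous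
      ((by fun_prop : Continuous fun x : E n => x i).mul (test_pd test_chi0 i).1.continuous)
    exact ⟨|B|, abs_nonneg _, fun x => (hB x).trans (le_abs_self B)⟩
  choose B1 hB10 hB1 using hB1
  choose B2 hB20 hB2 using hB2
  choose B3 hB30 hB3 using hB3
  -- everything vanishes on the ball of radius `R`
  have hz1 : ∀ {R : ℝ}, 0 < R → ∀ x : E n, ‖x‖ < R → ∀ i, pd i (cutR n R) x = 0 := by
    intro R hR0 x hx i
    have h1 : cutR n R =ᶠ[𝓝 x] fun _ => (1 : ℝ) := by
      filter_upwards [Metric.isOpen_ball.mem_nhds (show x ∈ Metric.ball (0 : E n) R by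
        simpa using hx)] with y hy
      exact cutR_one hR0 (by simpa using (Metric.mem_ball.1 hy).le)
    unfold pd
    rw [h1.fderiv_eq]
    simp
  have hz2 : ∀ {R : ℝ}, 0 < R → ∀ x : E n, ‖x‖ < R → ∀ i j, pd j (pd i (cutR n R)) x = 0 := by
    intro R hR0 x hx i j
    have h1 : pd i (cutR n R) =ᶠ[𝓝 x] fun _ => (0 : ℝ) := by
      filter_upwards [Metric.isOpen_ball.mem_nhds (show x ∈ Metric.ball (0 : E n) R by
        simpa using hx)] with y hy
      exact hz1 hR0 y (by simpa using Metric.mem_ball.1 hy) i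
    unfold pd at h1 ⊢
    rw [h1.fderiv_eq]
    simp
  have hpd : ∀ (m : ℕ) i, pd i (fun x => c * cutR n ((m : ℝ) + 1) x) =
      fun x => c * pd i (cutR n ((m : ℝ) + 1)) x := fun m i =>
    pd_smul' (test_diff (cutR_test (hR m))) c i
  have hLt : ∀ (m : ℕ) x, Lt t (fun x => c * cutR n ((m : ℝ) + 1) x) x = c * Lt t (cutR n ((m : ℝ) + 1)) x :=
    fun m x => Lt_smul (cutR_test (hR m)) c x
  have hint : Integrable (fun x => Real.exp (-V x)) := h.int
  have hdom : ∀ {F : ℕ → E n → ℝ} {B : ℝ}, (∀ m, Measurable (F m)) → (∀ m x, |F m x| ≤ B) →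
      (∀ x, Tendsto (fun m => F m x) atTop (𝓝 0)) →
      Tendsto (fun m => I V (fun x => (F m x) ^ 2)) atTop (𝓝 0) := by
    intro F B hm hb hl
    have e0 : (0 : ℝ) = ∫ x, (0 : ℝ) * Real.exp (-V x) := by simp
    rw [e0]
    unfold I
    refine tendsto_integral_of_dominated_convergence (fun x => B ^ 2 * Real.exp (-V x))
      (fun m => (((hm m).pow_const 2).mul (by fun_prop)).aestronglyMeasurable) (hint.const_mul _)
      (fun m => Eventually.of_forall fun x => ?_) (Eventually.of_forall fun x => ?_)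
    · rw [norm_mul, Real.norm_of_nonneg (Real.exp_pos _).le, Real.norm_of_nonneg (sq_nonneg _), ← sq_abs]
      exact mul_le_mul_of_nonneg_right (pow_le_pow_left₀ (abs_nonneg _) (hb m x) 2) (Real.exp_pos _).le
    · have := (hl x).pow 2
      rw [zero_pow two_ne_zero] at this
      exact this.mul_const _
  have hev : ∀ x : E n, ∀ᶠ m : ℕ in atTop, ‖x‖ < (m : ℝ) + 1 := fun x => by
    obtain ⟨N, hN⟩ := exists_nat_ge ‖x‖
    filter_upwards [eventually_ge_atTop N] with m hm
    have : (N : ℝ) ≤ m := by exact_mod_cast hm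
    linarith
  have hRinv : ∀ m : ℕ, |((m : ℝ) + 1)⁻¹| ≤ 1 := fun m => by
    rw [abs_of_pos (by positivity)]
    exact inv_le_one_of_one_le₀ (by have : (0 : ℝ) ≤ m := Nat.cast_nonneg m; linarith)
  refine ⟨hts, measurable_const, fun _ => measurable_const, measurable_const, hint.const_mul _,
    fun _ => by simp, by simp, ?_, fun a => ?_, ?_⟩
  · refine hdom (F := fun m x => c * cutR n ((m : ℝ) + 1) x - c) (B := |c|)
      (fun m => ((hts m).1.continuous.measurable).sub measurable_const) (fun m x => ?_) fun x => ?_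
    · have h1 := cutR_nonneg (n := n) ((m : ℝ) + 1) x
      have h2 := cutR_le_one (n := n) ((m : ℝ) + 1) x
      have e : c * cutR n ((m : ℝ) + 1) x - c = c * (cutR n ((m : ℝ) + 1) x - 1) := by ring
      rw [e, abs_mul]
      refine mul_le_of_le_one_right (abs_nonneg _) ?_
      rw [abs_le]
      constructor <;> linarith
    · refine tendsto_const_nhds.congr' ?_
      filter_upwards [hev x] with m hm
      rw [cutR_one (hR m) hm.le]
      ring
  · simp only [hpd, sub_zero]
    refine hdom (F := fun m x => c * pd a (cutR n ((m : ℝ) + 1)) x) (B := |c| * B1 a)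
      (fun m => ((test_pd (cutR_test (hR m)) a).1.continuous.measurable).const_mul c)
      (fun m x => ?_) fun x => ?_
    · rw [abs_mul, pd_cutR (hR m), abs_mul]
      refine mul_le_mul_of_nonneg_left ?_ (abs_nonneg _)
      have h1 := hB1 a (((m : ℝ) + 1)⁻¹ • x)
      have h2 := hRinv m
      calc _ ≤ 1 * B1 a := mul_le_mul h2 h1 (abs_nonneg _) zero_le_one
        _ = B1 a := one_mul _
    · refine tendsto_const_nhds.congr' ?_
      filter_upwards [hev x] with m hm
      rw [hz1 (hR m) x hm a, mul_zero]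
  · have hLb : ∀ (m : ℕ) x, |Lt t (cutR n ((m : ℝ) + 1)) x| ≤ (∑ i, ∑ j, |T| * B2 i j) + ∑ i, B3 i := by
      intro m x
      unfold Lt
      refine (abs_sub _ _).trans (add_le_add ?_ ?_)
      · refine (Finset.abs_sum_le_sum_abs _ _).trans (Finset.sum_le_sum fun i _ => ?_)
        refine (Finset.abs_sum_le_sum_abs _ _).trans (Finset.sum_le_sum fun j _ => ?_)
        rw [abs_mul]
        refine mul_le_mul (hT0 x i j) ?_ (abs_nonneg _) (abs_nonneg _)
        unfold hess
        rw [pd2_cutR (hR m), abs_mul, abs_mul]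
        have h1 := hB2 i j (((m : ℝ) + 1)⁻¹ • x)
        have h2 := hRinv m
        calc _ ≤ 1 * (1 * B2 i j) := by
              refine mul_le_mul h2 (mul_le_mul h2 h1 (abs_nonneg _) zero_le_one)
                (mul_nonneg (abs_nonneg _) (abs_nonneg _)) zero_le_one
          _ = B2 i j := by ring
      · refine (Finset.abs_sum_le_sum_abs _ _).trans (Finset.sum_le_sum fun i _ => ?_)
        rw [pd_cutR (hR m)]
        have h1 := hB3 i (((m : ℝ) + 1)⁻¹ • x)
        have e : x i * (((m : ℝ) + 1)⁻¹ * pd i (chi0 n : E n → ℝ) (((m : ℝ) + 1)⁻¹ • x)) =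
            (((m : ℝ) + 1)⁻¹ • x) i * pd i (chi0 n : E n → ℝ) (((m : ℝ) + 1)⁻¹ • x) := by
          have : (((m : ℝ) + 1)⁻¹ • x) i = ((m : ℝ) + 1)⁻¹ * x i := rfl
          rw [this]; ring
        rw [e]
        exact h1
    simp only [hLt, sub_zero]
    refine hdom (F := fun m x => -(c * Lt t (cutR n ((m : ℝ) + 1)) x))
      (B := |c| * ((∑ i, ∑ j, |T| * B2 i j) + ∑ i, B3 i))
      (fun m => (((lc_Lt h.toTF (cutR_test (hR m))).1.continuous.measurable).const_mul c).neg)
      (fun m x => ?_) fun x => ?_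
    · rw [abs_neg, abs_mul]
      exact mul_le_mul_of_nonneg_left (hLb m x) (abs_nonneg _)
    · refine tendsto_const_nhds.congr' ?_
      filter_upwards [hev x] with m hm
      have : Lt t (cutR n ((m : ℝ) + 1)) x = 0 := by
        unfold Lt hess
        simp only [hz1 (hR m) x hm, hz2 (hR m) x hm, mul_zero, Finset.sum_const_zero, sub_zero]
      rw [this]; ring

/-- **sup bounds** -/
theorem Dom.le (h : TE V t lam Lam) (d : Dom V t f u Du Au) {s : ℝ} (hs : 0 < s) {M : ℝ}
    (hg : ∀ᵐ x, u x + s * Au x ≤ M) : ∀ᵐ x, u x ≤ M := by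
  have h1 := (dom_const h M).sub h.toTB d
  have h2 := h1.pos h hs (by
    filter_upwards [hg] with x hx
    linarith)
  filter_upwards [h2] with x hx
  linarith

theorem Dom.ge (h : TE V t lam Lam) (d : Dom V t f u Du Au) {s : ℝ} (hs : 0 < s) {M : ℝ}
    (hg : ∀ᵐ x, M ≤ u x + s * Au x) : ∀ᵐ x, M ≤ u x := by
  have h1 := d.sub h.toTB (dom_const h M)
  have h2 := h1.pos h hs (by
    filter_upwards [hg] with x hx
    linarith)
  filter_upwards [h2] with x hx
  linarith

end dom

end Vale.Agent.P245.H464
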