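import Vale.Agent.P245.H464.DomT
import Vale.Agent.P245.K.Iface2
import Vale.Agent.P245.K3.Chain

/-!
# P245 (helper464): row BASE0 from `StmtStep0`.
-/

set_option linter.all false

open MeasureTheory Filter Topology
open scoped ContDiff NNReal ENNReal InnerProductSpace

namespace Vale.Agent.P245.H464

open Vale.Agent.P227.M Vale.Agent.P227.M.K814 Vale.Agent.P254.SN Vale.Agent.P245.E456

variable {n : ℕ} {V : E n → ℝ} {t : E n → Matrix (Fin n) (Fin n) ℝ} {c C : ℝ}

/-! ## matrix functions -/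

theorem kdom_sum (hB : K.Base V t c C) {ι : Type*} (s : Finset ι) (w : ι → ℝ) {u Au : ι → E n → ℝ}
    {Du : ι → Fin n → E n → ℝ} (h : ∀ k ∈ s, K.Dom V t (u k) (Du k) (Au k)) :
    K.Dom V t (fun x => ∑ k ∈ s, w k * u k x) (fun a x => ∑ k ∈ s, w k * Du k a x)
      (fun x => ∑ k ∈ s, w k * Au k x) := by
  classical
  obtain ⟨l1, -, -, -, -, l6⟩ := stmtLin n V t c C hB
  induction s using Finset.induction_on with
  | empty =>
    have := l1 _ _ _ _ _ _ l6 l6 0 0
    simpa using this
  | insert a s ha ih =>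
    have h1 := l1 _ _ _ _ _ _ (h a (Finset.mem_insert_self a s))
      (ih fun k hk => h k (Finset.mem_insert_of_mem hk)) (w a) 1
    simpa [Finset.sum_insert ha] using h1

/-- a quadratic form which is nonnegative almost everywhere for every fixed vector -/
theorem forall_quad {R : E n → Matrix (Fin n) (Fin n) ℝ}
    (h : ∀ v : Fin n → ℝ, ∀ᵐ x, 0 ≤ ∑ i, ∑ j, R x i j * v i * v j) :
    ∀ᵐ x, ∀ v : Fin n → ℝ, 0 ≤ ∑ i, ∑ j, R x i j * v i * v j := by
  obtain ⟨D, hDc, hDd⟩ := TopologicalSpace.exists_countable_dense (Fin n → ℝ)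
  have h1 : ∀ᵐ x, ∀ v ∈ D, 0 ≤ ∑ i, ∑ j, R x i j * v i * v j :=
    (ae_ball_iff hDc).2 fun v _ => h v
  filter_upwards [h1] with x hx v
  have hcl : IsClosed {v : Fin n → ℝ | 0 ≤ ∑ i, ∑ j, R x i j * v i * v j} :=
    isClosed_le continuous_const (by fun_prop)
  have : closure D ⊆ {v : Fin n → ℝ | 0 ≤ ∑ i, ∑ j, R x i j * v i * v j} :=
    hcl.closure_subset_iff.2 fun v hv => hx v hv
  exact this (hDd v)

/-- positivity of the resolvent on matrix functions -/
theorem mat_pos (hB : K.Base V t c C) {s : ℝ} (hs : 0 < s) {R AR : E n → Matrix (Fin n) (Fin n) ℝ}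
    {DR : Fin n → E n → Matrix (Fin n) (Fin n) ℝ}
    (hd : ∀ i j, K.Dom V t (fun x => R x i j) (fun a x => DR a x i j) (fun x => AR x i j))
    (h : ∀ᵐ x, ∀ v : Fin n → ℝ, 0 ≤ ∑ i, ∑ j, (R x i j + s * AR x i j) * v i * v j) :
    ∀ᵐ x, ∀ v : Fin n → ℝ, 0 ≤ ∑ i, ∑ j, R x i j * v i * v j := by
  refine forall_quad fun v => ?_
  have h1 := kdom_sum hB (Finset.univ : Finset (Fin n × Fin n)) (fun p => v p.1 * v p.2)
    (u := fun p x => R x p.1 p.2) (Du := fun p a x => DR a x p.1 p.2) (Au := fun p x => AR x p.1 p.2)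
    (fun p _ => hd p.1 p.2)
  have h2 := stmtPos n V t c C hB s hs _ _ _ h1 (by
    filter_upwards [h] with x hx
    have := hx v
    rw [← Finset.sum_product'] at this
    rw [Finset.mul_sum, ← Finset.sum_add_distrib]
    refine this.trans (le_of_eq ?_)
    rw [Finset.univ_product_univ]
    exact Finset.sum_congr rfl fun p _ => by ring)
  filter_upwards [h2] with x hx
  rw [← Finset.sum_product', Finset.univ_product_univ]
  refine hx.trans (le_of_eq (Finset.sum_congr rfl fun p _ => by ring))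

/-! ## the Cauchy-Schwarz inequality for `t` itself -/

theorem pd_comm_V (hB : K.Base V t c C) (a b : Fin n) (x : E n) : pd a (pd b V) x = pd b (pd a V) x :=
  Vale.Agent.P227.M.FlatB.hess_symm hB.V2 a b x

theorem Att_symm (hB : K.Base V t c C) (x : E n) (i a : Fin n) : Att V t x i a = Att V t x a i := by
  have e1 : ∑ b, ∑ e, t x i e * pd e (pd b V) x * t x a b = ∑ b, ∑ e, t x a e * pd e (pd b V) x * t x i b := by
    rw [Finset.sum_comm]
    refine Finset.sum_congr rfl fun b _ => Finset.sum_congr rfl fun e _ => ?_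
    rw [pd_comm_V hB]
    ring
  have e2 : ∑ b, ∑ e, pd b (fun y => t y i e) x * pd e (fun y => t y a b) x =
      ∑ b, ∑ e, pd b (fun y => t y a e) x * pd e (fun y => t y i b) x := by
    rw [Finset.sum_comm]
    refine Finset.sum_congr rfl fun b _ => Finset.sum_congr rfl fun e _ => ?_
    ring
  unfold Att
  rw [e1, e2, hB.symm x i a]

/-- pointwise Cauchy-Schwarz -/
theorem csm_alg {T : Matrix (Fin n) (Fin n) ℝ} (hT : T.PosDef) {P : Fin n → Fin n → Fin n → ℝ}
    (hP : ∀ a k l, P a k l = P a l k)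
    (htot : ∀ d b k, ∑ e, T d e * P e b k = ∑ e, T b e * P e d k) (z : Fin n → ℝ)
    (ζ : Fin n → Fin n → ℝ) :
    (∑ a, ∑ b, T a b * ∑ k, ∑ l, P a k l * z l * ζ b k) ^ 2 ≤
      (∑ m, ∑ l, (∑ b, ∑ e, P b l e * P e m b) * z m * z l) *
        ∑ a, ∑ b, T a b * ∑ k, ∑ l, T k l * ζ a k * ζ b l := by
  have hu : IsUnit T.det := (Matrix.isUnit_iff_isUnit_det T).1 hT.isUnit
  have hGt : T⁻¹ * T = 1 := Matrix.nonsing_inv_mul T hu
  set X : Matrix (Fin n) (Fin n) ℝ := Matrix.of fun a k => ∑ l, P a k l * z l with hX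
  set Y : Matrix (Fin n) (Fin n) ℝ := X * T⁻¹ with hY
  have hYX : Y * T = X := by rw [hY, Matrix.mul_assoc, hGt, Matrix.mul_one]
  have hTs : T.transpose = T := hT.isHermitian
  have hM : (T * X).transpose = T * X := by
    ext b l
    rw [Matrix.transpose_apply, Matrix.mul_apply, Matrix.mul_apply]
    simp only [hX, Matrix.of_apply, Finset.mul_sum]
    rw [Finset.sum_comm, Finset.sum_comm (f := fun e m => T b e * (P e l m * z m))]
    refine Finset.sum_congr rfl fun m _ => ?_
    have h1 := htot l b m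
    have e1 : ∑ e, T l e * (P e b m * z m) = (∑ e, T l e * P e b m) * z m := by
      rw [Finset.sum_mul]; exact Finset.sum_congr rfl fun e _ => by ring
    have e2 : ∑ e, T b e * (P e l m * z m) = (∑ e, T b e * P e l m) * z m := by
      rw [Finset.sum_mul]; exact Finset.sum_congr rfl fun e _ => by ring
    rw [e1, e2, h1]
  -- the pairing
  have e3 : ∀ ζ : Fin n → Fin n → ℝ, K.Q2 T (fun a k => Y a k) ζ = ∑ a, ∑ b, T a b * ∑ k, X a k * ζ b k := by
    intro ζ
    unfold K.Q2
    refine Finset.sum_congr rfl fun a _ => Finset.sum_congr rfl fun b _ => ?_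
    congr 1
    rw [Finset.sum_comm]
    refine Finset.sum_congr rfl fun l _ => ?_
    rw [← hYX, Matrix.mul_apply, Finset.sum_mul]
    exact Finset.sum_congr rfl fun k _ => by ring
  have e4 : ∑ a, ∑ b, T a b * ∑ k, ∑ l, P a k l * z l * ζ b k = K.Q2 T (fun a k => Y a k) ζ := by
    rw [e3]
    refine Finset.sum_congr rfl fun a _ => Finset.sum_congr rfl fun b _ => ?_
    congr 1
    refine Finset.sum_congr rfl fun k _ => ?_
    simp only [hX, Matrix.of_apply]
    rw [Finset.sum_mul]
  have e5 : K.Q2 T (fun a k => Y a k) (fun a k => Y a k) = (X * X).trace := by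
    rw [e3]
    have h1 : ∑ a, ∑ b, T a b * ∑ k, X a k * Y b k = (T * X * Y.transpose).trace := by
      unfold Matrix.trace
      rw [Finset.sum_comm]
      refine Finset.sum_congr rfl fun b _ => ?_
      rw [Matrix.diag_apply, Matrix.mul_apply]
      simp only [Matrix.mul_apply, Matrix.transpose_apply, Finset.sum_mul, Finset.mul_sum]
      rw [Finset.sum_comm]
      refine Finset.sum_congr rfl fun k _ => Finset.sum_congr rfl fun a _ => ?_
      have : T a b = T b a := by
        have := congrFun (congrFun hTs a) b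
        rw [Matrix.transpose_apply] at this
        exact this.symm
      rw [this]; ring
    have h1' : ∑ a, ∑ b, T a b * ∑ k, X a k * (fun a k => Y a k) b k = (T * X * Y.transpose).trace := h1
    rw [h1', ← hM, ← Matrix.transpose_mul, Matrix.trace_transpose, hY,
      Matrix.trace_mul_comm]
    rw [← Matrix.mul_assoc, Matrix.mul_assoc T X, Matrix.mul_assoc T, Matrix.trace_mul_comm]
    rw [Matrix.mul_assoc, Matrix.mul_assoc, hGt, Matrix.mul_one]
  have e6 : (X * X).trace = ∑ m, ∑ l, (∑ b, ∑ e, P b l e * P e m b) * z m * z l := by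
    have e7 : (X * X).trace = ∑ b, ∑ e, (∑ l, P b e l * z l) * (∑ m, P e b m * z m) := rfl
    rw [e7]
    symm
    calc ∑ m, ∑ l, (∑ b, ∑ e, P b l e * P e m b) * z m * z l
        = ∑ m, ∑ l, ∑ b, ∑ e, P b l e * P e m b * z m * z l := by
          refine Finset.sum_congr rfl fun m _ => Finset.sum_congr rfl fun l _ => ?_
          rw [Finset.sum_mul, Finset.sum_mul]
          refine Finset.sum_congr rfl fun b _ => ?_
          rw [Finset.sum_mul, Finset.sum_mul]
      _ = ∑ m, ∑ b, ∑ l, ∑ e, P b l e * P e m b * z m * z l :=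
          Finset.sum_congr rfl fun m _ => Finset.sum_comm
      _ = ∑ b, ∑ m, ∑ l, ∑ e, P b l e * P e m b * z m * z l := Finset.sum_comm
      _ = ∑ b, ∑ m, ∑ e, ∑ l, P b l e * P e m b * z m * z l :=
          Finset.sum_congr rfl fun b _ => Finset.sum_congr rfl fun m _ => Finset.sum_comm
      _ = ∑ b, ∑ e, ∑ m, ∑ l, P b l e * P e m b * z m * z l :=
          Finset.sum_congr rfl fun b _ => Finset.sum_comm
      _ = _ := by
          refine Finset.sum_congr rfl fun b _ => Finset.sum_congr rfl fun e _ => ?_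
          rw [Finset.sum_mul_sum, Finset.sum_comm]
          refine Finset.sum_congr rfl fun l _ => Finset.sum_congr rfl fun m _ => ?_
          rw [hP e m b, hP b l e]
          ring
  rw [e4, ← e6, ← e5]
  exact K.Q2_cs T hT.posSemidef (fun a k => Y a k) ζ

theorem tens_nonneg {T G : Matrix (Fin n) (Fin n) ℝ} (hT : T.PosSemidef)
    (hG : ∀ v : Fin n → ℝ, 0 ≤ ∑ i, ∑ j, G i j * v i * v j) (ζ : Fin n → Fin n → ℝ) :
    0 ≤ ∑ a, ∑ b, T a b * ∑ k, ∑ l, G k l * ζ a k * ζ b l := by
  obtain ⟨S, hS⟩ := Vale.Agent.P254.S2.pw_fact hT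
  have e : ∑ a, ∑ b, T a b * ∑ k, ∑ l, G k l * ζ a k * ζ b l =
      ∑ p, ∑ k, ∑ l, G k l * (∑ a, S p a * ζ a k) * (∑ b, S p b * ζ b l) := by
    have h1 : ∀ a b, T a b = ∑ p, S p a * S p b := by
      intro a b
      rw [hS, Matrix.mul_apply]
      rfl
    calc ∑ a, ∑ b, T a b * ∑ k, ∑ l, G k l * ζ a k * ζ b l
        = ∑ a, ∑ b, ∑ p, ∑ k, ∑ l, S p a * S p b * (G k l * ζ a k * ζ b l) := by
          refine Finset.sum_congr rfl fun a _ => Finset.sum_congr rfl fun b _ => ?_
          rw [h1, Finset.sum_mul]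
          refine Finset.sum_congr rfl fun p _ => ?_
          rw [Finset.mul_sum]
          exact Finset.sum_congr rfl fun k _ => Finset.mul_sum _ _ _
      _ = ∑ a, ∑ p, ∑ b, ∑ k, ∑ l, S p a * S p b * (G k l * ζ a k * ζ b l) :=
          Finset.sum_congr rfl fun a _ => Finset.sum_comm
      _ = ∑ p, ∑ a, ∑ b, ∑ k, ∑ l, S p a * S p b * (G k l * ζ a k * ζ b l) := Finset.sum_comm
      _ = _ := by
          refine Finset.sum_congr rfl fun p _ => ?_
          calc ∑ a, ∑ b, ∑ k, ∑ l, S p a * S p b * (G k l * ζ a k * ζ b l)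
              = ∑ a, ∑ k, ∑ b, ∑ l, S p a * S p b * (G k l * ζ a k * ζ b l) :=
                Finset.sum_congr rfl fun a _ => Finset.sum_comm
            _ = ∑ k, ∑ a, ∑ b, ∑ l, S p a * S p b * (G k l * ζ a k * ζ b l) := Finset.sum_comm
            _ = ∑ k, ∑ a, ∑ l, ∑ b, S p a * S p b * (G k l * ζ a k * ζ b l) :=
                Finset.sum_congr rfl fun k _ => Finset.sum_congr rfl fun a _ => Finset.sum_comm
            _ = ∑ k, ∑ l, ∑ a, ∑ b, S p a * S p b * (G k l * ζ a k * ζ b l) :=
                Finset.sum_congr rfl fun k _ => Finset.sum_comm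
            _ = _ := by
              refine Finset.sum_congr rfl fun k _ => Finset.sum_congr rfl fun l _ => ?_
              rw [mul_assoc, Finset.sum_mul_sum, Finset.mul_sum]
              refine Finset.sum_congr rfl fun a _ => ?_
              rw [Finset.mul_sum]
              exact Finset.sum_congr rfl fun b _ => by ring
  rw [e]
  exact Finset.sum_nonneg fun p _ => hG _

theorem csm_t (hB : K.Base V t c C) :
    K.CSM t t (fun b x i j => pd b (fun y => t y i j) x) (fun x i j => t x i j - Att V t x i j) := by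
  filter_upwards [hB.tot] with x hx z ζ
  have hT : (t x).PosDef := K.TE.posDef hB.toTE x
  have h1 := csm_alg hT (P := fun a k l => pd a (fun y => t y k l) x) (fun a k l => by
    have : (fun y => t y k l) = fun y => t y l k := funext fun y => hB.symm y k l
    simp only [this]) hx z ζ
  refine h1.trans (mul_le_mul_of_nonneg_right ?_ (K.Q2_nonneg (t x) hT.posSemidef ζ))
  have h2 := K.Vt_eq (V := V) (x := x) hB.symm z
  have h3 := hess_nonneg hB x (WithLp.toLp 2 ((t x).mulVec z))
  rw [← h2] at h3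
  have e : ∑ k, ∑ l, (t x k l - Att V t x k l) * z k * z l =
      (∑ a, ∑ i, (∑ b, ∑ e, t x i e * pd e (pd b V) x * t x a b) * z a * z i) +
      ∑ m, ∑ l, (∑ b, ∑ e, pd b (fun y => t y l e) x * pd e (fun y => t y m b) x) * z m * z l := by
    rw [← Finset.sum_add_distrib]
    refine Finset.sum_congr rfl fun i _ => ?_
    rw [← Finset.sum_add_distrib]
    refine Finset.sum_congr rfl fun a _ => ?_
    rw [Att_symm hB, hB.symm x i a]
    unfold Att
    ring
  rw [e]
  linarith

/-- **BASE0** from `StmtStep0` -/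
theorem base0 (h0 : K.StmtStep0) : K.StmtBase0 := by
  intro n V t c C hB
  obtain ⟨B, hB0, hMF, hAt⟩ := base0_half hB
  refine ⟨B, Att V t, _, hMF, fun i j => dom_t hB i j, Eventually.of_forall hAt, mle_Att hB, ?_⟩
  intro G AG DG hG hGs hDGs hGe
  have hMF2 := K3.Chain.MF.mono hMF (show B ≤ 2 * B by linarith)
  set Sg : E n → Matrix (Fin n) (Fin n) ℝ := fun x i j => t x i j - Att V t x i j with hSg
  have gbS : ∀ i j, GB (fun x => Sg x i j) := fun i j =>
    (gb_t hB.toTB i j).sub (gb_Att hB.toTB i j)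
  have hSgs : ∀ x i j, Sg x i j = Sg x j i := fun x i j => by
    simp only [hSg]; rw [hB.symm x i j, Att_symm hB]
  obtain ⟨W, AW, DW, hW, hWs, hDWs, hWe⟩ := K3.Chain.solve hB (s := 2 / 3) (by norm_num)
    (G := fun x i j => (2 / 3) * Sg x i j) (fun x i j => by
      show (2 / 3) * Sg x i j = (2 / 3) * Sg x j i
      rw [hSgs x i j])
    (fun i j => by
      have := (sq_gb hB.toTB (gbS i j)).const_mul hB.V2.continuous (2 / 3)
      exact ⟨this.m, this.i⟩)
  obtain ⟨h1, h2, h3⟩ := h0 n V t c C hB 1 one_pos c (2 * B) t (Att V t) Sg _ hMF2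
    (fun i j => dom_t hB i j) (mle_Att hB) (fun i j => (gbS i j).1) hSgs
    (by
      filter_upwards [hMF.upp] with x hx i j
      simp only [hSg]
      have e1 := hx i j
      have e2 := hAt x i j
      calc |t x i j - Att V t x i j| ≤ |t x i j| + |Att V t x i j| := abs_sub _ _
        _ ≤ _ := by linarith)
    (csm_t hB) G AG DG hG hGs hDGs (by
      filter_upwards [hGe] with x hx i j
      rw [one_mul]; exact hx i j)
    W AW DW hW (Eventually.of_forall fun x i j => by
      have := hWe x i j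
      linear_combination (3 / 2) * this)
  refine ⟨h1, h2, ?_⟩
  -- `W ≤ 2 G`
  have hR : ∀ᵐ x, ∀ v : Fin n → ℝ, 0 ≤ ∑ i, ∑ j, (2 * G x i j - W x i j - t x i j) * v i * v j := by
    obtain ⟨l1, -, -, -, -, -⟩ := stmtLin n V t c C hB
    refine mat_pos hB (s := 2 / 3) (by norm_num) (R := fun x i j => 2 * G x i j - W x i j - t x i j)
      (AR := fun x i j => 2 * AG x i j - AW x i j - Att V t x i j)
      (DR := fun a x i j => 2 * DG a x i j - DW a x i j - pd a (fun y => t y i j) x) (fun i j => ?_) ?_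
    · have k1 := l1 _ _ _ _ _ _ (hG i j) (hW i j) 2 (-1)
      have k2 := l1 _ _ _ _ _ _ k1 (dom_t hB i j) 1 (-1)
      refine (iff_of_eq ?_).1 k2
      congr 1 <;> (funext; ring)
    · filter_upwards [hGe, h2] with x hx h2x v
      have e : ∑ i, ∑ j, (2 * G x i j - W x i j - t x i j +
          2 / 3 * (2 * AG x i j - AW x i j - Att V t x i j)) * v i * v j =
          (1 / 3) * ((∑ i, ∑ j, G x i j * v i * v j) - ∑ i, ∑ j, AG x i j * v i * v j) := by
        rw [← Finset.sum_sub_distrib, Finset.mul_sum]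
        refine Finset.sum_congr rfl fun i _ => ?_
        rw [← Finset.sum_sub_distrib, Finset.mul_sum]
        refine Finset.sum_congr rfl fun j _ => ?_
        have e1 := hx i j
        have e2 := hWe x i j
        simp only [hSg] at e2
        linear_combination (-(v i * v j)) * e2 + (5 / 3 * (v i * v j)) * e1
      rw [e]
      have := h2x v
      linarith
  obtain ⟨B', hMG⟩ := h1
  filter_upwards [hR, h3, hMF.low, hMG.low] with x hx h3x hlow hlG z ζ
  have hT : (t x).PosDef := K.TE.posDef hB.toTE x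
  have hG0 : ∀ v : Fin n → ℝ, 0 ≤ ∑ i, ∑ j, G x i j * v i * v j := by
    intro v
    have e1 := hlG v
    exact (mul_nonneg hMF.d_pos.le (Finset.sum_nonneg fun i _ => sq_nonneg _)).trans e1
  refine (h3x z ζ).trans (mul_le_mul_of_nonneg_right ?_ (tens_nonneg hT.posSemidef hG0 ζ))
  have e2 := hx z
  have e3 : ∑ i, ∑ j, (2 * G x i j - W x i j - t x i j) * z i * z j =
      2 * (∑ i, ∑ j, G x i j * z i * z j) - (∑ i, ∑ j, W x i j * z i * z j) -
        ∑ i, ∑ j, t x i j * z i * z j := by
    rw [Finset.mul_sum, ← Finset.sum_sub_distrib, ← Finset.sum_sub_distrib]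
    refine Finset.sum_congr rfl fun i _ => ?_
    rw [Finset.mul_sum, ← Finset.sum_sub_distrib, ← Finset.sum_sub_distrib]
    exact Finset.sum_congr rfl fun j _ => by ring
  have e4 : ∑ k, ∑ l, (((1 + 1) / (1 + 3 * 1 / 2) : ℝ) • W x) k l * z k * z l =
      (4 / 5) * ∑ i, ∑ j, W x i j * z i * z j := by
    rw [Finset.mul_sum]
    refine Finset.sum_congr rfl fun i _ => ?_
    rw [Finset.mul_sum]
    refine Finset.sum_congr rfl fun j _ => ?_
    rw [Matrix.smul_apply, smul_eq_mul]
    ring
  have e5 := hlow z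
  have e6 : 0 ≤ ∑ i, ∑ j, t x i j * z i * z j :=
    (mul_nonneg hMF.d_pos.le (Finset.sum_nonneg fun i _ => sq_nonneg _)).trans e5
  have e7 := hG0 z
  rw [e4]
  rw [e3] at e2
  linarith

end Vale.Agent.P245.H464
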