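import Vale.Agent.P245.H464.Pos2
import Vale.Agent.P245.K.Iface

/-!
# P245 (helper464): the operator rows `StmtPos`, `StmtForm`, `StmtLin` of `K/Iface`.
-/

set_option linter.all false

open MeasureTheory Filter Topology
open scoped ContDiff NNReal ENNReal InnerProductSpace

namespace Vale.Agent.P245.H464

open Vale.Agent.P227.M Vale.Agent.P227.M.K814 Vale.Agent.P254.SN Vale.Agent.P245.E456

variable {n : ℕ} {V : E n → ℝ} {t : E n → Matrix (Fin n) (Fin n) ℝ} {lam Lam : ℝ}

theorem stmtPos : K.StmtPos := by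
  intro n V t c C hB s hs u Au Du hd hg
  obtain ⟨f, hf⟩ := hd
  exact hf.pos hB.toTE hs hg

theorem l2_iff {u : E n → ℝ} : K.L2 V u ↔ Sq V u := ⟨fun h => ⟨h.1, h.2⟩, fun h => ⟨h.m, h.i⟩⟩

theorem stmtForm : K.StmtForm := by
  intro n V t c C hB u Au Du hd v Dv hv
  obtain ⟨f, hf⟩ := hd
  obtain ⟨χ, hχ, h1, h2⟩ := hv.core
  have hV : Continuous V := hB.V2.continuous
  have sv : Sq V v := l2_iff.1 hv.u2
  have sD : ∀ a, Sq V (Dv a) := fun a => l2_iff.1 (hv.D2 a)
  have sχ : ∀ m, Sq V (χ m) := fun m => Sq.of_ci hV (CI.of_lc (hχ m))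
  have sp : ∀ m b, Sq V (pd b (χ m)) := fun m b => Sq.of_ci hV (CI.pd (hχ m) b)
  have l1 := Lim.mul hV (fun _ => hf.sA) sχ hf.sA sv (Lim.const Au) h1
  have l2 := lim_GG hB.toTB (fun _ a => hf.sD a) (fun m a => sp m a) hf.sD sD
    (F := fun _ a => Du a) (F' := fun m a => pd a (χ m)) (fun a => Lim.const _) h2
  refine tendsto_nhds_unique l1 (l2.congr fun m => ?_)
  exact (hf.energy_lc hB.toTB (hχ m)).symm

/-- square integrable functions are integrable -/
theorem Sq.integrable (hV : Continuous V) (hint : Integrable (fun x => Real.exp (-V x))) {w : E n → ℝ}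
    (hw : Sq V w) : Integrable (fun x => w x * Real.exp (-V x)) := by
  have h1 := (hw.i.add hint)
  refine h1.mono' (hw.m.mul (by fun_prop)).aestronglyMeasurable (Eventually.of_forall fun x => ?_)
  rw [norm_mul, Real.norm_of_nonneg (Real.exp_pos _).le, Real.norm_eq_abs]
  simp only [Pi.add_apply]
  have h2 : |w x| ≤ w x ^ 2 + 1 := by
    rw [← sq_abs (w x)]
    nlinarith [sq_nonneg (|w x| - 1), abs_nonneg (w x)]
  have h3 := mul_le_mul_of_nonneg_right h2 (Real.exp_pos (-V x)).le
  linarith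

/-- a square integrable function which is orthogonal to all test functions vanishes -/
theorem zero_of_test (hV : Continuous V) (hint : Integrable (fun x => Real.exp (-V x))) {w : E n → ℝ}
    (hw : Sq V w) (h : ∀ φ : E n → ℝ, Test φ → I V (fun x => w x * φ x) = 0) : ∀ᵐ x, w x = 0 := by
  have h1 := ae_eq_zero_of_integral_contDiff_smul_eq_zero (hw.integrable hV hint).locallyIntegrable
    (fun g hg hgs => by
      have := h g ⟨hg, hgs⟩
      unfold I at this
      rw [← this]
      congr 1; ext x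
      simp only [smul_eq_mul]; ring)
  filter_upwards [h1] with x hx
  exact (mul_eq_zero.1 hx).resolve_right (Real.exp_pos _).ne'

theorem dom_self (h : TF V t) {φ : E n → ℝ} (hφ : Test φ) :
    Dom V t (fun _ => φ) φ (fun a => pd a φ) (fun x => -(Lt t φ x)) := by
  have hV : Continuous V := h.V2.continuous
  have s1 := sq_test hV hφ
  have s2 := fun a => sq_pd hV hφ a
  have s3 := sq_L h hφ
  exact ⟨fun _ => hφ, s1.m, fun a => (s2 a).m, s3.m, s1.i, fun a => (s2 a).i, s3.i,
    Lim.const _, fun a => Lim.const _, Lim.const _⟩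

theorem Dom.lin {f f' : ℕ → E n → ℝ} {u v : E n → ℝ} {Du Dv : Fin n → E n → ℝ} {Au Av : E n → ℝ}
    (h : TF V t) (d : Dom V t f u Du Au) (d' : Dom V t f' v Dv Av) (p q : ℝ) :
    Dom V t (fun m x => p * f m x + q * f' m x) (fun x => p * u x + q * v x)
      (fun a x => p * Du a x + q * Dv a x) (fun x => p * Au x + q * Av x) := by
  have hV : Continuous V := h.V2.continuous
  have t1 : ∀ m, Test (fun x => p * f m x) := fun m =>
    ⟨contDiff_const.mul (d.test m).1, (d.test m).2.mul_left⟩
  have t2 : ∀ m, Test (fun x => q * f' m x) := fun m =>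
    ⟨contDiff_const.mul (d'.test m).1, (d'.test m).2.mul_left⟩
  have hts : ∀ m, Test (fun x => p * f m x + q * f' m x) := fun m =>
    ⟨(t1 m).1.add (t2 m).1, HasCompactSupport.add (t1 m).2 (t2 m).2⟩
  have e1 : ∀ m a, pd a (fun x => p * f m x + q * f' m x) =
      fun x => p * pd a (f m) x + q * pd a (f' m) x := by
    intro m a
    rw [pd_add' (test_diff (t1 m)) (test_diff (t2 m)) a, pd_smul' (test_diff (d.test m)) p a,
      pd_smul' (test_diff (d'.test m)) q a]
  have e2 : ∀ m x, Lt t (fun x => p * f m x + q * f' m x) x = p * Lt t (f m) x + q * Lt t (f' m) x := by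
    intro m x
    rw [Lt_add (t1 m) (t2 m), Lt_smul (d.test m), Lt_smul (d'.test m)]
  have sA := (d.sA.const_mul hV p).add hV (d'.sA.const_mul hV q)
  have sU := (d.su.const_mul hV p).add hV (d'.su.const_mul hV q)
  have sD := fun a => ((d.sD a).const_mul hV p).add hV ((d'.sD a).const_mul hV q)
  refine ⟨hts, sU.m, fun a => (sD a).m, sA.m, sU.i, fun a => (sD a).i, sA.i, ?_, fun a => ?_, ?_⟩
  · exact Lim.add hV (fun m => (sq_test hV (d.test m)).const_mul hV p)
      (fun m => (sq_test hV (d'.test m)).const_mul hV q) (d.su.const_mul hV p) (d'.su.const_mul hV q)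
      (Lim.const_mul hV (fun m => sq_test hV (d.test m)) d.su d.lu p)
      (Lim.const_mul hV (fun m => sq_test hV (d'.test m)) d'.su d'.lu q)
  · have := Lim.add hV (fun m => (sq_pd hV (d.test m) a).const_mul hV p)
      (fun m => (sq_pd hV (d'.test m) a).const_mul hV q) ((d.sD a).const_mul hV p)
      ((d'.sD a).const_mul hV q)
      (Lim.const_mul hV (fun m => sq_pd hV (d.test m) a) (d.sD a) (d.lD a) p)
      (Lim.const_mul hV (fun m => sq_pd hV (d'.test m) a) (d'.sD a) (d'.lD a) q)
    unfold Lim at this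
    refine this.congr fun m => ?_
    rw [e1 m a]
  · have := Lim.add hV (fun m => (sq_L h (d.test m)).const_mul hV p)
      (fun m => (sq_L h (d'.test m)).const_mul hV q) (d.sA.const_mul hV p) (d'.sA.const_mul hV q)
      (Lim.const_mul hV (fun m => sq_L h (d.test m)) d.sA d.lA p)
      (Lim.const_mul hV (fun m => sq_L h (d'.test m)) d'.sA d'.lA q)
    unfold Lim at this
    refine this.congr fun m => I_congr (Eventually.of_forall fun x => ?_)
    rw [e2 m x]
    ring

theorem Lim.congr_lim {f : ℕ → E n → ℝ} {u v : E n → ℝ} (h : Lim V f u) (huv : u =ᵐ[volume] v) :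
    Lim V f v := h.congr_right huv

theorem Dom.h1 (h : TF V t) {f : ℕ → E n → ℝ} {u : E n → ℝ} {Du : Fin n → E n → ℝ} {Au : E n → ℝ}
    (d : Dom V t f u Du Au) : K.H1 V u Du :=
  ⟨⟨d.mu, d.iu⟩, fun a => ⟨d.mD a, d.iD a⟩, f, fun m => Test.lc (d.test m), d.lu, d.lD⟩

theorem stmtLin : K.StmtLin := by
  intro n V t c C hB
  have hV : Continuous V := hB.V2.continuous
  have hV1 : ContDiff ℝ 1 V := hB.V2.of_le (by norm_num)
  refine ⟨?_, ?_, ?_, ?_, ?_, ?_⟩
  · rintro u Au v Av Du Dv ⟨f, hf⟩ ⟨f', hf'⟩ p q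
    exact ⟨_, hf.lin hB.toTF hf' p q⟩
  · rintro u Au Du ⟨f, hf⟩
    exact hf.h1 hB.toTF
  · intro u Du Dv h1 h2 a
    obtain ⟨χ, hχ, c1, c2⟩ := h1.core
    obtain ⟨η, hη, d1, d2⟩ := h2.core
    have su : Sq V u := l2_iff.1 h1.u2
    have s1 : Sq V (Du a) := l2_iff.1 (h1.D2 a)
    have s2 : Sq V (Dv a) := l2_iff.1 (h2.D2 a)
    have hz := zero_of_test hV hB.int (s1.sub hV s2) (fun φ hφ => ?_)
    · filter_upwards [hz] with x hx
      linarith
    · -- integration by parts for both sequences
      have key : ∀ (χ : ℕ → E n → ℝ), (∀ m, LC (χ m)) → Lim V χ u → ∀ w : E n → ℝ, Sq V w →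
          Lim V (fun m => pd a (χ m)) w →
          I V (fun x => w x * φ x) = I V (fun x => u x * (pd a V x * φ x - pd a φ x)) := by
        intro χ hχ hl w hw hlw
        have sχ : ∀ m, Sq V (χ m) := fun m => Sq.of_ci hV (CI.of_lc (hχ m))
        have sp : ∀ m, Sq V (pd a (χ m)) := fun m => Sq.of_ci hV (CI.pd (hχ m) a)
        have sφ := sq_test hV hφ
        have hVa : Continuous (pd a V) := FlatB.continuous_pd hV1 a
        have hci : CI (fun x => pd a V x * φ x - pd a φ x) :=
          (CI.mul_left (Bd.of_cont hVa) (CI.of_lc (Test.lc hφ))).sub (CI.of_lc (Test.lc (test_pd hφ a)))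
        have sr : Sq V (fun x => pd a V x * φ x - pd a φ x) := Sq.of_ci hV hci
        have l1 := Lim.mul hV sp (fun _ => sφ) hw sφ hlw (Lim.const φ)
        have l2 := Lim.mul hV sχ (fun _ => sr) su sr hl (Lim.const _)
        refine tendsto_nhds_unique l1 (l2.congr fun m => ?_)
        have h3 := ibp hV1 (LC.mul_right (hχ m) (Test.lc hφ).1) a
        have h4 : I V (pd a fun x => χ m x * φ x) =
            I V (fun x => pd a (χ m) x * φ x + χ m x * pd a φ x) := by
          refine I_congr ?_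
          filter_upwards [(hχ m).ae_diff] with x hx
          exact rpd_mul hx ((test_diff hφ) x)
        rw [h4, I_add hV (CI.mul_right (CI.pd (hχ m) a) (Bd.of_ll (Test.lc hφ).1))
          (CI.mul_right (CI.of_lc (hχ m)) (Bd.of_ll (Test.lc (test_pd hφ a)).1))] at h3
        have h5 : I V (fun x => χ m x * (pd a V x * φ x - pd a φ x)) =
            I V (fun x => pd a V x * (χ m x * φ x)) - I V (fun x => χ m x * pd a φ x) := by
          rw [← I_sub hV (CI.mul_left (Bd.of_cont hVa) (CI.of_lc (LC.mul_right (hχ m) (Test.lc hφ).1)))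
            (CI.mul_right (CI.of_lc (hχ m)) (Bd.of_ll (Test.lc (test_pd hφ a)).1))]
          exact I_congr (Eventually.of_forall fun x => by ring)
        rw [h5]
        linarith
      have k1 := key χ hχ c1 (Du a) s1 (c2 a)
      have k2 := key η hη d1 (Dv a) s2 (d2 a)
      have sφ := sq_test hV hφ
      have e : I V (fun x => (Du a x - Dv a x) * φ x) =
          I V (fun x => Du a x * φ x) - I V (fun x => Dv a x * φ x) := by
        unfold I
        rw [← integral_sub (Sq.int hV s1 sφ) (Sq.int hV s2 sφ)]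
        congr 1; ext x; ring
      rw [e, k1, k2, sub_self]
  · rintro u Au Av Du Dv ⟨f, hf⟩ ⟨f', hf'⟩
    have hz := zero_of_test hV hB.int (hf.sA.sub hV hf'.sA) (fun φ hφ => ?_)
    · filter_upwards [hz] with x hx
      linarith
    · have d := dom_self hB.toTF hφ
      have h1 := hf.symm hB.toTB d
      have h2 := hf'.symm hB.toTB d
      have e : I V (fun x => (Au x - Av x) * φ x) = I V (fun x => Au x * φ x) - I V (fun x => Av x * φ x) := by
        unfold I
        rw [← integral_sub (Sq.int hV hf.sA (sq_test hV hφ)) (Sq.int hV hf'.sA (sq_test hV hφ))]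
        congr 1; ext x; ring
      rw [e, h1, h2, sub_self]
  · rintro u Au v Av Du Dv ⟨f, hf⟩ hv hDv hAv e1 e2 e3
    exact ⟨f, hf.test, hv.1, fun a => (hDv a).1, hAv.1, hv.2, fun a => (hDv a).2, hAv.2,
      Lim.congr_lim hf.lu e1, fun a => Lim.congr_lim (hf.lD a) (e2 a), Lim.congr_lim hf.lA e3⟩
  · exact ⟨_, dom_const hB.toTE 1⟩

end Vale.Agent.P245.H464
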