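import Vale.Agent.P245.H464.Ops
import Vale.Agent.P245.K.Fld

/-!
# P245 (helper464): the frame field itself is in the domain of the generator (first half of `StmtBase0`).
-/

set_option linter.all false

open MeasureTheory Filter Topology
open scoped ContDiff NNReal ENNReal InnerProductSpace

namespace Vale.Agent.P245.H464

open Vale.Agent.P227.M Vale.Agent.P227.M.K814 Vale.Agent.P254.SN Vale.Agent.P245.E456
open Vale.Agent.P245.Q895 (PB)

variable {n : ℕ} {V : E n → ℝ} {t : E n → Matrix (Fin n) (Fin n) ℝ} {lam Lam : ℝ}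

theorem sq_gb (h : TB V t) {f : E n → ℝ} (hf : GB f) : Sq V f := by
  obtain ⟨hm, C, hC⟩ := hf
  refine ⟨hm, (h.int.const_mul (C ^ 2)).mono' ?_ (Eventually.of_forall fun x => ?_)⟩
  · have := h.V2.continuous
    exact ((hm.pow_const 2).mul (by fun_prop)).aestronglyMeasurable
  · rw [norm_mul, Real.norm_of_nonneg (Real.exp_pos _).le, Real.norm_eq_abs, abs_pow]
    exact mul_le_mul_of_nonneg_right (pow_le_pow_left₀ (abs_nonneg _) (hC x) 2) (Real.exp_pos _).le

theorem bd_gb {f : E n → ℝ} (hf : GB f) : Bd f := by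
  obtain ⟨hm, C, hC⟩ := hf
  exact ⟨hm, fun R => ⟨C, fun x _ => hC x⟩⟩

/-- a bounded locally Lipschitz function with bounded gradient is in `H¹` -/
theorem h1_gb {c1 C1 : ℝ} (hR : Reg V c1 C1) (h : TB V t) {f : E n → ℝ} (hf : LocallyLipschitz f)
    (hfd : ∀ᵐ x, DifferentiableAt ℝ f x) (h0 : GB f) (h1 : ∀ a, GB (pd a f)) :
    K.H1 V f (fun a => pd a f) := by
  have hV : Continuous V := h.V2.continuous
  obtain ⟨K, χ, hLC, h01, hlim, hpd⟩ := cutoffs n
  have s0 := sq_gb h h0
  have s1 := fun a => sq_gb h (h1 a)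
  obtain ⟨m0, C, hC⟩ := h0
  refine ⟨⟨s0.m, s0.i⟩, fun a => ⟨(s1 a).m, (s1 a).i⟩, fun k x => f x * χ k x,
    fun k => LC.mul_left hf (hLC k), ?_, fun a => ?_⟩
  · have h3 := Q895.tendsto_I hR (f := fun k x => (f x * χ k x - f x) ^ 2) (g := fun _ => 0)
      (G := fun _ => C ^ 2) (fun k => ?_) (PB.const _) (fun k => Eventually.of_forall fun x => ?_)
      (Eventually.of_forall fun x => ?_)
    · have hz : I V (fun _ : E n => (0:ℝ)) = 0 := by simp [I]
      rw [hz] at h3
      exact h3
    · exact ((m0.mul (hLC k).1.continuous.measurable).sub m0).pow_const 2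
    · rw [abs_of_nonneg (sq_nonneg _), ← sq_abs]
      refine pow_le_pow_left₀ (abs_nonneg _) ?_ 2
      have e : f x * χ k x - f x = - (f x * (1 - χ k x)) := by ring
      rw [e, abs_neg, abs_mul]
      have h4 : |1 - χ k x| ≤ 1 := by
        rw [abs_le]
        constructor <;> linarith [(h01 k x).1, (h01 k x).2]
      exact (mul_le_of_le_one_right (abs_nonneg _) h4).trans (hC x)
    · have e1 : Tendsto (fun k => f x * χ k x - f x) atTop (𝓝 (f x * 1 - f x)) :=
        ((hlim x).const_mul _).sub_const _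
      have := e1.pow 2
      simpa using this
  · obtain ⟨m1, D, hD⟩ := h1 a
    have h3 := Q895.tendsto_I hR (f := fun k x => (pd a (fun y => f y * χ k y) x - pd a f x) ^ 2)
      (g := fun _ => 0)
      (G := fun _ => (D + C * K) ^ 2) (fun k => ?_) (PB.const _) (fun k => ?_) ?_
    · have hz : I V (fun _ : E n => (0:ℝ)) = 0 := by simp [I]
      rw [hz] at h3
      exact h3
    · exact ((measurable_fderiv_apply_const ℝ _ _).sub m1).pow_const 2
    · filter_upwards [hfd, (hLC k).ae_diff] with x hx hx2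
      have e1 : pd a (fun y => f y * χ k y) x = pd a f x * χ k x + f x * pd a (χ k) x :=
        rpd_mul hx hx2
      rw [abs_of_nonneg (sq_nonneg _), ← sq_abs, e1]
      refine pow_le_pow_left₀ (abs_nonneg _) ?_ 2
      have e : pd a f x * χ k x + f x * pd a (χ k) x - pd a f x =
        - (pd a f x * (1 - χ k x)) + f x * pd a (χ k) x := by ring
      rw [e]
      refine (abs_add_le _ _).trans ?_
      rw [abs_neg, abs_mul, abs_mul]
      have h4 : |1 - χ k x| ≤ 1 := by
        rw [abs_le]
        constructor <;> linarith [(h01 k x).1, (h01 k x).2]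
      have h5 : |pd a (χ k) x| ≤ K := by
        refine (hpd k a x).trans ?_
        have : (1 : ℝ) / ((k : ℝ) + 1) ≤ 1 := by
          rw [div_le_one (by positivity)]
          have : (0 : ℝ) ≤ k := Nat.cast_nonneg k
          linarith
        exact mul_le_of_le_one_right K.coe_nonneg this
      refine add_le_add ((mul_le_of_le_one_right (abs_nonneg _) h4).trans (hD x)) ?_
      exact mul_le_mul (hC x) h5 (abs_nonneg _) ((abs_nonneg _).trans (hC x))
    · have hall : ∀ᵐ x, ∀ k, DifferentiableAt ℝ (χ k) x := ae_all_iff.2 fun k => (hLC k).ae_diff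
      filter_upwards [hfd, hall] with x hx hx2
      have e1 : ∀ k, pd a (fun y => f y * χ k y) x = pd a f x * χ k x + f x * pd a (χ k) x :=
        fun k => rpd_mul hx (hx2 k)
      have e2 : Tendsto (fun k => pd a (χ k) x) atTop (𝓝 0) := by
        have h3 : Tendsto (fun k : ℕ => (K : ℝ) * (1 / ((k : ℝ) + 1))) atTop (𝓝 (K * 0)) :=
          (tendsto_one_div_add_atTop_nhds_zero_nat (𝕜 := ℝ)).const_mul _
        rw [mul_zero] at h3
        exact squeeze_zero_norm (fun k => hpd k a x) h3
      have e3 : Tendsto (fun k => pd a f x * χ k x + f x * pd a (χ k) x - pd a f x) atTop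
          (𝓝 (pd a f x * 1 + f x * 0 - pd a f x)) :=
        (((hlim x).const_mul _).add (e2.const_mul _)).sub_const _
      have e4 := e3.pow 2
      simp only [e1]
      simpa using e4

/-- **weak solutions are in the domain** -/
theorem dom_of_weak {c C : ℝ} (hB : K.Base V t c C) {f F : E n → ℝ} (hf : LocallyLipschitz f)
    (hfd : ∀ᵐ x, DifferentiableAt ℝ f x) (hH : K.H1 V f (fun a => pd a f)) (hF : K.L2 V F)
    (hw : ∀ φ, Test φ → I V (Gam t φ f) = I V (fun x => F x * φ x)) :
    K.Dom V t f (fun a => pd a f) F := by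
  have hV : Continuous V := hB.V2.continuous
  have sf : Sq V f := l2_iff.1 hH.u2
  have sF : Sq V F := l2_iff.1 hF
  have sg := sf.add hV sF
  obtain ⟨w, u, Du, Au, hd, he⟩ := total hB.toTE sg.m sg.i (s := 1) one_pos
  have su := hd.su
  have sA := hd.sA
  have hu0 : (fun x => u x - f x) =ᵐ[volume] 0 := by
    refine esa hB.toTE (su.sub hV sf).m.aestronglyMeasurable (su.sub hV sf).i fun φ hφ => ?_
    have sφ := sq_test hV hφ
    have sL : Sq V (Lt t φ) := Sq.of_ci hV (CI.of_lc (lc_Lt hB.toTF hφ))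
    have h1 := hd.symm hB.toTB (dom_self hB.toTF hφ)
    have h2 := hw φ hφ
    have h3 := ibpL hB.toTF hφ hf hfd
    have iL : I V (fun x => Lt t φ x * f x + Gam t φ f x) = I V (fun x => Lt t φ x * f x) + I V (Gam t φ f) :=
      I_add hV (CI.mul_right (CI.of_lc (lc_Lt hB.toTF hφ)) (Bd.of_ll hf)) (ci_Gam hB.toTF (Test.lc hφ) hf)
    rw [iL] at h3
    have e0 : ∫ x, (u x - f x) * (φ x - Lt t φ x) * Real.exp (-V x) =
        (I V (fun x => u x * φ x) - I V (fun x => u x * Lt t φ x)) -
        (I V (fun x => f x * φ x) - I V (fun x => f x * Lt t φ x)) := by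
      unfold I
      have k1 := integral_sub (su.int hV sφ) (su.int hV sL)
      have k2 := integral_sub (sf.int hV sφ) (sf.int hV sL)
      have k3 := integral_sub ((su.int hV sφ).sub (su.int hV sL)) ((sf.int hV sφ).sub (sf.int hV sL))
      simp only [Pi.sub_apply] at k1 k2 k3
      rw [← k1, ← k2, ← k3]
      congr 1; ext x; ring
    rw [e0]
    have e1 : I V (fun x => u x * φ x) + I V (fun x => Au x * φ x) =
        I V (fun x => f x * φ x) + I V (fun x => F x * φ x) := by
      unfold I
      rw [← integral_add (su.int hV sφ) (sA.int hV sφ), ← integral_add (sf.int hV sφ) (sF.int hV sφ)]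
      refine integral_congr_ae (Eventually.of_forall fun x => ?_)
      have := he x
      have h4 : u x + Au x = f x + F x := by linarith
      simp only
      linear_combination (φ x * Real.exp (-V x)) * h4
    have e2 : I V (fun x => u x * -(Lt t φ x)) = - I V (fun x => u x * Lt t φ x) := by
      unfold I
      rw [← integral_neg]
      congr 1; ext x; ring
    have e3 : I V (fun x => Lt t φ x * f x) = I V (fun x => f x * Lt t φ x) :=
      I_congr (Eventually.of_forall fun x => by ring)
    rw [e3] at h3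
    rw [e2] at h1
    linarith
  have hu : u =ᵐ[volume] f := by
    filter_upwards [hu0] with x hx
    have : u x - f x = 0 := hx
    linarith
  obtain ⟨-, l2, l3, -, l5, -⟩ := stmtLin n V t c C hB
  have hdom : K.Dom V t u Du Au := ⟨w, hd⟩
  have hH' : K.H1 V u (fun a => pd a f) := by
    obtain ⟨χ, hχ, c1, c2⟩ := hH.core
    exact ⟨⟨su.m, su.i⟩, hH.D2, χ, hχ, Lim.congr_right c1 (by filter_upwards [hu] with x hx; rw [hx]), c2⟩
  have hD := l3 u Du (fun a => pd a f) (l2 u Au Du hdom) hH'
  refine l5 u Au f F Du (fun a => pd a f) hdom hH.u2 hH.D2 hF hu hD ?_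
  filter_upwards [hu] with x hx
  have := he x
  rw [hx] at this
  linarith

section base
variable {c C : ℝ}

/-- `A t = t - t V'' t - S` -/
noncomputable def Att (V : E n → ℝ) (t : E n → Matrix (Fin n) (Fin n) ℝ) (x : E n) :
    Matrix (Fin n) (Fin n) ℝ := fun i a =>
  t x i a - (∑ b, ∑ e, t x i e * pd e (pd b V) x * t x a b) -
    ∑ b, ∑ e, pd b (fun y => t y i e) x * pd e (fun y => t y a b) x

theorem gb_Att (h : TB V t) (i a : Fin n) : GB (fun x => Att V t x i a) :=
  ((gb_t h i a).sub (GB.sum _ fun b _ => GB.sum _ fun e _ =>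
        ((gb_t h i e).mul (gb_V h e b)).mul (gb_t h a b))).sub
    (GB.sum _ fun b _ => GB.sum _ fun e _ => (gb_pt h b i e).mul (gb_pt h e a b))

theorem h1_t (hB : K.Base V t c C) (i a : Fin n) :
    K.H1 V (fun x => t x i a) (fun b => pd b (fun y => t y i a)) := by
  obtain ⟨c1, C1, hR⟩ := hB.reg
  obtain ⟨K', hK⟩ := hB.lip i a
  exact h1_gb hR hB.toTB hK.locallyLipschitz hK.ae_differentiableAt (gb_t hB.toTB i a)
    (fun b => gb_pt hB.toTB b i a)

/-- **`t` is in the domain** -/
theorem dom_t (hB : K.Base V t c C) (i a : Fin n) :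
    K.Dom V t (fun x => t x i a) (fun b => pd b (fun y => t y i a)) (fun x => Att V t x i a) := by
  have hV : Continuous V := hB.V2.continuous
  obtain ⟨c1, C1, hR⟩ := hB.reg
  obtain ⟨K', hK⟩ := hB.lip i a
  have sA := sq_gb hB.toTB (gb_Att hB.toTB i a)
  refine dom_of_weak hB hK.locallyLipschitz hK.ae_differentiableAt (h1_t hB i a) ⟨sA.m, sA.i⟩
    fun φ hφ => ?_
  have hs := stat_pair hB.toTF (Test.lc hφ) a i
  have i1 : CI (Gam t φ (fun x => t x i a)) := ci_Gam hB.toTF (Test.lc hφ) hK.locallyLipschitz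
  have i2 : CI (fun x => Att V t x i a * φ x) :=
    CI.mul_left (bd_gb (gb_Att hB.toTB i a)) (CI.of_lc (Test.lc hφ))
  have h2 : I V (fun x => Gam t φ (fun x => t x i a) x - Att V t x i a * φ x) = 0 := by
    rw [← hs]
    refine I_congr (Eventually.of_forall fun x => ?_)
    have e1 : Gam t φ (fun x => t x i a) x = ∑ b, Dt t b (fun y => t y i a) x * pd b φ x := by
      rw [Gam_symm hB.toTF]
      unfold Gam Dt
      rw [Finset.sum_comm]
      refine Finset.sum_congr rfl fun b _ => ?_
      rw [Finset.sum_mul]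
      refine Finset.sum_congr rfl fun d _ => ?_
      rw [hB.symm x d b]
    simp only [e1, Att]
    ring
  rw [I_sub hV i1 i2] at h2
  linarith

theorem hess_nonneg (hB : K.Base V t c C) (x : E n) (v : E n) : 0 ≤ qf (hess V x) v := by
  obtain ⟨c1, C1, hR⟩ := hB.reg
  exact (mul_nonneg hR.c_pos.le (sq_nonneg _)).trans (hR.lower x v)

theorem exists_bd {ι : Type*} [Fintype ι] {f : ι → E n → ℝ} (h : ∀ i, GB (f i)) :
    ∃ B, 0 ≤ B ∧ ∀ x i, |f i x| ≤ B := by
  choose m C hC using h
  refine ⟨∑ i, |C i|, Finset.sum_nonneg fun i _ => abs_nonneg _, fun x i => ?_⟩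
  exact ((hC i x).trans (le_abs_self _)).trans
    (Finset.single_le_sum (f := fun i => |C i|) (fun i _ => abs_nonneg _) (Finset.mem_univ i))

/-- `(1 - A) t ≥ 0` -/
theorem mle_Att (hB : K.Base V t c C) : K.Mle (Att V t) t := by
  filter_upwards [hB.tot] with x hx v
  have hT : (t x).PosDef := K.TE.posDef hB.toTE x
  have h1 := K.Sm_nonneg hT hB.symm hx v
  have h2 := K.Vt_eq (V := V) (x := x) hB.symm v
  have h3 := hess_nonneg hB x (WithLp.toLp 2 ((t x).mulVec v))
  rw [← h2] at h3
  have e : ∑ i, ∑ j, Att V t x i j * v i * v j = (∑ i, ∑ j, t x i j * v i * v j) -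
      (∑ a, ∑ i, (∑ b, ∑ e, t x i e * pd e (pd b V) x * t x a b) * v a * v i) -
      ∑ a, ∑ i, K.Sm t x a i * v a * v i := by
    rw [Finset.sum_comm (f := fun a i => (∑ b, ∑ e, t x i e * pd e (pd b V) x * t x a b) * v a * v i),
      Finset.sum_comm (f := fun a i => K.Sm t x a i * v a * v i),
      ← Finset.sum_sub_distrib, ← Finset.sum_sub_distrib]
    refine Finset.sum_congr rfl fun i _ => ?_
    rw [← Finset.sum_sub_distrib, ← Finset.sum_sub_distrib]
    refine Finset.sum_congr rfl fun a _ => ?_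
    unfold Att K.Sm
    ring
  rw [e]
  linarith

/-- first half of `StmtBase0` -/
theorem base0_half (hB : K.Base V t c C) : ∃ B : ℝ, 0 ≤ B ∧
    K.MF V t (fun b x i j => pd b (fun y => t y i j) x) c B ∧ (∀ x i j, |Att V t x i j| ≤ B) := by
  obtain ⟨B1, hB1, h1⟩ := exists_bd (f := fun (p : Fin n × Fin n) x => t x p.1 p.2)
    (fun p => gb_t hB.toTB p.1 p.2)
  obtain ⟨B2, hB2, h2⟩ := exists_bd (f := fun (p : Fin n × Fin n × Fin n) => pd p.1 (fun x => t x p.2.1 p.2.2))
    (fun p => gb_pt hB.toTB p.1 p.2.1 p.2.2)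
  obtain ⟨B3, hB3, h3⟩ := exists_bd (f := fun (p : Fin n × Fin n) x => Att V t x p.1 p.2)
    (fun p => gb_Att hB.toTB p.1 p.2)
  refine ⟨B1 + B2 + B3, by positivity, ⟨hB.lam_pos, hB.symm, ?_, ?_, ?_, ?_, ?_⟩, ?_⟩
  · refine Eventually.of_forall fun x v => ?_
    have h := hB.low x (WithLp.toLp 2 v)
    rw [← sum_sq_eq] at h
    refine h.trans (le_of_eq ?_)
    rfl
  · refine Eventually.of_forall fun x i j => ?_
    have := h1 x (i, j)
    simp only at this
    linarith
  · exact fun i j => h1_t hB i j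
  · intro a x i j
    have : (fun y => t y i j) = fun y => t y j i := funext fun y => hB.symm y i j
    simp only [this]
  · refine Eventually.of_forall fun x a i j => ?_
    have := h2 x (a, i, j)
    simp only at this
    linarith
  · intro x i j
    have := h3 x (i, j)
    simp only at this
    linarith

end base

end Vale.Agent.P245.H464
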