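import Vale.Agent.P245.H464.Tot

/-!
# P245 (helper464), rows OP-3, OP-4 (third seat): energy identity, symmetry, uniqueness, positivity
and sup bounds for the resolvent equation `u + s A u = g` in the sense of `Dom`.
-/

set_option linter.all false

open MeasureTheory Filter Topology
open scoped ContDiff NNReal ENNReal InnerProductSpace

namespace Vale.Agent.P245.H464

open Vale.Agent.P227.M Vale.Agent.P227.M.K814 Vale.Agent.P254.SN Vale.Agent.P245.E456

variable {n : ℕ} {V : E n → ℝ} {t : E n → Matrix (Fin n) (Fin n) ℝ} {lam Lam : ℝ}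

/-! ## square integrable functions -/

/-- measurable and square integrable -/
structure Sq (V u : E n → ℝ) : Prop where
  m : Measurable u
  i : Integrable (fun x => u x ^ 2 * Real.exp (-V x))

theorem Sq.memLp (hV : Continuous V) {u : E n → ℝ} (h : Sq V u) : MemLp u 2 (mu V) :=
  (memLp_iff hV h.m.aestronglyMeasurable).2 h.i

theorem Sq.of_memLp (hV : Continuous V) {u : E n → ℝ} (hm : Measurable u) (h : MemLp u 2 (mu V)) :
    Sq V u := ⟨hm, (memLp_iff hV hm.aestronglyMeasurable).1 h⟩

theorem Sq.of_ci (hV : Continuous V) {u : E n → ℝ} (h : CI u) : Sq V u :=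
  Sq.of_memLp hV h.1.1 (memLp_ci hV h)

theorem Sq.add (hV : Continuous V) {u v : E n → ℝ} (hu : Sq V u) (hv : Sq V v) :
    Sq V (fun x => u x + v x) :=
  Sq.of_memLp hV (hu.m.add hv.m) ((hu.memLp hV).add (hv.memLp hV))

theorem Sq.sub (hV : Continuous V) {u v : E n → ℝ} (hu : Sq V u) (hv : Sq V v) :
    Sq V (fun x => u x - v x) :=
  Sq.of_memLp hV (hu.m.sub hv.m) ((hu.memLp hV).sub (hv.memLp hV))

theorem Sq.neg (hV : Continuous V) {u : E n → ℝ} (hu : Sq V u) : Sq V (fun x => - u x) :=
  Sq.of_memLp hV hu.m.neg (hu.memLp hV).neg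

theorem Sq.const_mul (hV : Continuous V) {u : E n → ℝ} (hu : Sq V u) (c : ℝ) :
    Sq V (fun x => c * u x) :=
  Sq.of_memLp hV (hu.m.const_mul c) ((hu.memLp hV).const_mul c)

theorem Sq.sum {ι : Type*} (hV : Continuous V) (s : Finset ι) {u : ι → E n → ℝ}
    (hu : ∀ i ∈ s, Sq V (u i)) : Sq V (fun x => ∑ i ∈ s, u i x) := by
  classical
  induction s using Finset.induction_on with
  | empty => simpa using (⟨measurable_const, by simp⟩ : Sq V (fun _ : E n => (0 : ℝ)))
  | insert a s ha ih =>
    have h := (hu a (Finset.mem_insert_self a s)).add hV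
      (ih fun i hi => hu i (Finset.mem_insert_of_mem hi))
    simpa [Finset.sum_insert ha] using h

/-- dominated by a constant times a square integrable function -/
theorem Sq.of_le (hV : Continuous V) {u v : E n → ℝ} (hv : Sq V v) (hm : Measurable u) {C : ℝ}
    (h : ∀ x, |u x| ≤ C * |v x|) : Sq V u := by
  refine Sq.of_memLp hV hm (MemLp.of_le_mul (c := C) (hv.memLp hV)
    (hm.aestronglyMeasurable.mono_ac (mu_ac V)) (Eventually.of_forall fun x => ?_))
  rw [Real.norm_eq_abs, Real.norm_eq_abs]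
  exact h x

theorem Sq.bdd_mul (hV : Continuous V) {u b : E n → ℝ} (hu : Sq V u) (hm : Measurable b) {C : ℝ}
    (h : ∀ x, |b x| ≤ C) : Sq V (fun x => b x * u x) :=
  hu.of_le hV (hm.mul hu.m) (C := C) fun x => by
    rw [abs_mul]
    exact mul_le_mul_of_nonneg_right (h x) (abs_nonneg _)

theorem Sq.int (hV : Continuous V) {u v : E n → ℝ} (hu : Sq V u) (hv : Sq V v) :
    Integrable (fun x => u x * v x * Real.exp (-V x)) := by
  have := (hu.memLp hV).integrable_mul (hv.memLp hV)
  exact (integrable_mu hV _).1 this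

theorem Sq.inner (hV : Continuous V) {u v : E n → ℝ} (hu : Sq V u) (hv : Sq V v) :
    inner ℝ ((hu.memLp hV).toLp u) ((hv.memLp hV).toLp v) = I V (fun x => u x * v x) :=
  inner_toLp hV _ _

/-- Cauchy-Schwarz -/
theorem Sq.cs (hV : Continuous V) {u v : E n → ℝ} (hu : Sq V u) (hv : Sq V v) :
    |I V (fun x => u x * v x)| ≤ Real.sqrt (I V (fun x => u x ^ 2)) * Real.sqrt (I V (fun x => v x ^ 2)) := by
  rw [← hu.inner hV hv, ← normsq_toLp hV (hu.memLp hV), ← normsq_toLp hV (hv.memLp hV),
    Real.sqrt_sq (norm_nonneg _), Real.sqrt_sq (norm_nonneg _)]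
  exact abs_real_inner_le_norm _ _

/-- convergence in `L²(e^{-V})` -/
def Lim (V : E n → ℝ) (f : ℕ → E n → ℝ) (u : E n → ℝ) : Prop :=
  Tendsto (fun m => I V (fun x => (f m x - u x) ^ 2)) atTop (𝓝 0)

theorem Lim.toLp (hV : Continuous V) {f : ℕ → E n → ℝ} {u : E n → ℝ} (hf : ∀ m, Sq V (f m))
    (hu : Sq V u) (h : Lim V f u) :
    Tendsto (fun m => ((hf m).memLp hV).toLp (f m)) atTop (𝓝 ((hu.memLp hV).toLp u)) := by
  rw [tendsto_iff_norm_sub_tendsto_zero]
  have h1 : Tendsto (fun m => Real.sqrt (I V (fun x => (f m x - u x) ^ 2))) atTop (𝓝 0) := by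
    have := (Real.continuous_sqrt.tendsto 0).comp h
    rwa [Real.sqrt_zero] at this
  refine h1.congr fun m => ?_
  rw [← MemLp.toLp_sub]
  have h2 := normsq_toLp hV (((hf m).memLp hV).sub (hu.memLp hV))
  have h3 : I V (fun x => (f m - u) x ^ 2) = I V (fun x => (f m x - u x) ^ 2) := rfl
  rw [h3] at h2
  rw [← h2, Real.sqrt_sq (norm_nonneg _)]

theorem Lim.of_toLp (hV : Continuous V) {f : ℕ → E n → ℝ} {u : E n → ℝ} (hf : ∀ m, Sq V (f m))
    (hu : Sq V u)
    (h : Tendsto (fun m => ((hf m).memLp hV).toLp (f m)) atTop (𝓝 ((hu.memLp hV).toLp u))) :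
    Lim V f u :=
  tendsto_I_of_tendsto hV (fun m => (hf m).memLp hV)
    ((ac_mu hV).ae_le (hu.memLp hV).coeFn_toLp) h

/-- products converge -/
theorem Lim.mul (hV : Continuous V) {f g : ℕ → E n → ℝ} {u v : E n → ℝ} (hf : ∀ m, Sq V (f m))
    (hg : ∀ m, Sq V (g m)) (hu : Sq V u) (hv : Sq V v) (h1 : Lim V f u) (h2 : Lim V g v) :
    Tendsto (fun m => I V (fun x => f m x * g m x)) atTop (𝓝 (I V (fun x => u x * v x))) := by
  have h3 := (h1.toLp hV hf hu).inner (𝕜 := ℝ) (h2.toLp hV hg hv)
  rw [hu.inner hV hv] at h3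
  refine h3.congr fun m => ?_
  rw [(hf m).inner hV (hg m)]

theorem Lim.const (u : E n → ℝ) : Lim V (fun _ => u) u := by
  unfold Lim
  have : (fun _ : ℕ => I V (fun x => (u x - u x) ^ 2)) = fun _ => 0 := by
    funext m
    simp [I]
  rw [this]
  exact tendsto_const_nhds

theorem Lim.congr_right {f : ℕ → E n → ℝ} {u v : E n → ℝ} (h : Lim V f u) (huv : ∀ᵐ x, u x = v x) :
    Lim V f v := by
  unfold Lim at h ⊢
  refine h.congr fun m => I_congr ?_
  filter_upwards [huv] with x hx
  rw [hx]

theorem Lim.add (hV : Continuous V) {f g : ℕ → E n → ℝ} {u v : E n → ℝ} (hf : ∀ m, Sq V (f m))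
    (hg : ∀ m, Sq V (g m)) (hu : Sq V u) (hv : Sq V v) (h1 : Lim V f u) (h2 : Lim V g v) :
    Lim V (fun m x => f m x + g m x) (fun x => u x + v x) := by
  refine Lim.of_toLp hV (fun m => (hf m).add hV (hg m)) (hu.add hV hv) ?_
  have := (h1.toLp hV hf hu).add (h2.toLp hV hg hv)
  exact this

theorem Lim.sub (hV : Continuous V) {f g : ℕ → E n → ℝ} {u v : E n → ℝ} (hf : ∀ m, Sq V (f m))
    (hg : ∀ m, Sq V (g m)) (hu : Sq V u) (hv : Sq V v) (h1 : Lim V f u) (h2 : Lim V g v) :
    Lim V (fun m x => f m x - g m x) (fun x => u x - v x) := by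
  refine Lim.of_toLp hV (fun m => (hf m).sub hV (hg m)) (hu.sub hV hv) ?_
  have := (h1.toLp hV hf hu).sub (h2.toLp hV hg hv)
  exact this

theorem Lim.const_mul (hV : Continuous V) {f : ℕ → E n → ℝ} {u : E n → ℝ} (hf : ∀ m, Sq V (f m))
    (hu : Sq V u) (h1 : Lim V f u) (c : ℝ) :
    Lim V (fun m x => c * f m x) (fun x => c * u x) := by
  refine Lim.of_toLp hV (fun m => (hf m).const_mul hV c) (hu.const_mul hV c) ?_
  have := (h1.toLp hV hf hu).const_smul c
  exact this

theorem I_mono_sq {a b : E n → ℝ} (ha : Integrable (fun x => a x * Real.exp (-V x)))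
    (hb : Integrable (fun x => b x * Real.exp (-V x))) (h : ∀ᵐ x, a x ≤ b x) : I V a ≤ I V b :=
  integral_mono_ae ha hb (h.mono fun _ hx => mul_le_mul_of_nonneg_right hx (Real.exp_pos _).le)

/-- a 1-Lipschitz function of the terms preserves the convergence -/
theorem Lim.comp (hV : Continuous V) {f : ℕ → E n → ℝ} {u : E n → ℝ} (hf : ∀ m, Sq V (f m))
    (hu : Sq V u) (h1 : Lim V f u) {φ : ℝ → ℝ} (hφ : ∀ a b, |φ a - φ b| ≤ |a - b|) :
    Lim V (fun m x => φ (f m x)) (fun x => φ (u x)) := by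
  unfold Lim at h1 ⊢
  refine squeeze_zero (fun m => ?_) (fun m => ?_) h1
  · unfold I
    exact integral_nonneg fun x => mul_nonneg (sq_nonneg _) (Real.exp_pos _).le
  · have hc : Continuous φ := by
      refine Metric.continuous_iff.2 fun a ε hε => ⟨ε, hε, fun b hb => ?_⟩
      rw [Real.dist_eq] at hb ⊢
      exact lt_of_le_of_lt (hφ b a) hb
    have hle : ∀ x, (φ (f m x) - φ (u x)) ^ 2 ≤ (f m x - u x) ^ 2 := fun x => by
      rw [← sq_abs, ← sq_abs (f m x - u x)]
      exact pow_le_pow_left₀ (abs_nonneg _) (hφ _ _) 2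
    have hi := ((hf m).sub hV hu).i
    have hm : Measurable fun x => φ (f m x) - φ (u x) :=
      (hc.measurable.comp (hf m).m).sub (hc.measurable.comp hu.m)
    refine I_mono_sq ?_ hi (Eventually.of_forall hle)
    have h2 : Sq V (fun x => φ (f m x) - φ (u x)) := ((hf m).sub hV hu).of_le hV hm (C := 1)
      (fun x => by rw [one_mul]; exact hφ _ _)
    exact h2.i

/-! ## the form on `Dom` -/

/-- `Γ(Du, Dv)` -/
noncomputable def GG (t : E n → Matrix (Fin n) (Fin n) ℝ) (Du Dv : Fin n → E n → ℝ) (x : E n) : ℝ :=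
  ∑ a, ∑ b, t x a b * Du a x * Dv b x

theorem sq_t_mul (h : TB V t) {u : E n → ℝ} (hu : Sq V u) (a b : Fin n) :
    Sq V (fun x => t x a b * u x) := by
  obtain ⟨C, hC⟩ := h.bt
  exact hu.bdd_mul h.V2.continuous (tll h.toTF a b).continuous.measurable fun x => hC x a b

theorem Lim.t_mul (h : TB V t) {f : ℕ → E n → ℝ} {u : E n → ℝ} (hf : ∀ m, Sq V (f m))
    (hu : Sq V u) (h1 : Lim V f u) (a b : Fin n) :
    Lim V (fun m x => t x a b * f m x) (fun x => t x a b * u x) := by
  have hV : Continuous V := h.V2.continuous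
  obtain ⟨C, hC⟩ := h.bt
  unfold Lim at h1 ⊢
  have h2 : Tendsto (fun m => C ^ 2 * I V (fun x => (f m x - u x) ^ 2)) atTop (𝓝 0) := by
    have := h1.const_mul (C ^ 2)
    rwa [mul_zero] at this
  refine squeeze_zero (fun m => ?_) (fun m => ?_) h2
  · unfold I
    exact integral_nonneg fun x => mul_nonneg (sq_nonneg _) (Real.exp_pos _).le
  · have hi := ((hf m).sub hV hu).i
    have e : C ^ 2 * I V (fun x => (f m x - u x) ^ 2) = I V (fun x => C ^ 2 * (f m x - u x) ^ 2) := by
      unfold I
      rw [← integral_const_mul]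
      congr 1; ext x; ring
    rw [e]
    refine I_mono_sq (((sq_t_mul h (hf m) a b).sub hV (sq_t_mul h hu a b)).i) ?_
      (Eventually.of_forall fun x => ?_)
    · have := hi.const_mul (C ^ 2)
      refine this.congr (Eventually.of_forall fun x => ?_)
      simp only []; ring
    · have e2 : t x a b * f m x - t x a b * u x = t x a b * (f m x - u x) := by ring
      rw [e2, mul_pow]
      refine mul_le_mul_of_nonneg_right ?_ (sq_nonneg _)
      rw [← sq_abs]
      exact pow_le_pow_left₀ (abs_nonneg _) (hC x a b) 2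

theorem lim_GG (h : TB V t) {F F' : ℕ → Fin n → E n → ℝ} {Du Dv : Fin n → E n → ℝ}
    (hF : ∀ m a, Sq V (F m a)) (hF' : ∀ m a, Sq V (F' m a)) (hu : ∀ a, Sq V (Du a))
    (hv : ∀ a, Sq V (Dv a)) (h1 : ∀ a, Lim V (fun m => F m a) (Du a))
    (h2 : ∀ a, Lim V (fun m => F' m a) (Dv a)) :
    Tendsto (fun m => I V (GG t (F m) (F' m))) atTop (𝓝 (I V (GG t Du Dv))) := by
  have hV : Continuous V := h.V2.continuous
  have e : ∀ (A B : Fin n → E n → ℝ), (∀ a, Sq V (A a)) → (∀ a, Sq V (B a)) →
      I V (GG t A B) = ∑ a, ∑ b, I V (fun x => (t x a b * A a x) * B b x) := by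
    intro A B hA hB
    unfold I GG
    have hi : ∀ a b, Integrable (fun x => t x a b * A a x * B b x * Real.exp (-V x)) := fun a b =>
      Sq.int hV (sq_t_mul h (hA a) a b) (hB b)
    have e1 : (fun x => (∑ a, ∑ b, t x a b * A a x * B b x) * Real.exp (-V x)) =
        fun x => ∑ a, ∑ b, t x a b * A a x * B b x * Real.exp (-V x) := by
      funext x
      rw [Finset.sum_mul]
      exact Finset.sum_congr rfl fun a _ => Finset.sum_mul _ _ _
    rw [e1, integral_finsetSum _ fun a _ => integrable_finsetSum _ fun b _ => hi a b]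
    refine Finset.sum_congr rfl fun a _ => ?_
    rw [integral_finsetSum _ fun b _ => hi a b]
  rw [e Du Dv hu hv]
  have e2 : (fun m => I V (GG t (F m) (F' m))) =
      fun m => ∑ a, ∑ b, I V (fun x => (t x a b * F m a x) * F' m b x) := by
    funext m
    exact e _ _ (hF m) (hF' m)
  rw [e2]
  refine tendsto_finsetSum _ fun a _ => tendsto_finsetSum _ fun b _ => ?_
  exact Lim.mul hV (fun m => sq_t_mul h (hF m a) a b) (fun m => hF' m b) (sq_t_mul h (hu a) a b) (hv b)
    ((h1 a).t_mul h (fun m => hF m a) (hu a) a b) (h2 b)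

section dom

variable {f f' : ℕ → E n → ℝ} {u v : E n → ℝ} {Du Dv : Fin n → E n → ℝ} {Au Av : E n → ℝ}

theorem Dom.su (d : Dom V t f u Du Au) : Sq V u := ⟨d.mu, d.iu⟩
theorem Dom.sD (d : Dom V t f u Du Au) (a : Fin n) : Sq V (Du a) := ⟨d.mD a, d.iD a⟩
theorem Dom.sA (d : Dom V t f u Du Au) : Sq V Au := ⟨d.mA, d.iA⟩
theorem sq_test (hV : Continuous V) {f : E n → ℝ} (hf : Test f) : Sq V f :=
  Sq.of_ci hV (CI.of_lc (Test.lc hf))
theorem sq_pd (hV : Continuous V) {f : E n → ℝ} (hf : Test f) (a : Fin n) : Sq V (pd a f) :=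
  sq_test hV (test_pd hf a)
theorem sq_L (h : TF V t) {f : E n → ℝ} (hf : Test f) : Sq V (fun x => -(Lt t f x)) :=
  (Sq.of_ci h.V2.continuous (CI.of_lc (lc_Lt h hf))).neg h.V2.continuous

/-- **energy identity** `E (-L u) v = E Γ(u, v)` -/
theorem Dom.energy (h : TB V t) (d : Dom V t f u Du Au) (d' : Dom V t f' v Dv Av) :
    I V (fun x => Au x * v x) = I V (GG t Du Dv) := by
  have hV : Continuous V := h.V2.continuous
  have h1 := Lim.mul hV (fun m => sq_L h.toTF (d.test m)) (fun m => sq_test hV (d'.test m))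
    d.sA d'.su d.lA d'.lu
  have h2 := lim_GG h (fun m a => sq_pd hV (d.test m) a) (fun m a => sq_pd hV (d'.test m) a)
    d.sD d'.sD (F := fun m a => pd a (f m)) (F' := fun m a => pd a (f' m)) d.lD d'.lD
  refine tendsto_nhds_unique h1 (h2.congr fun m => ?_)
  have h3 := ibpL' h.toTF (d.test m) (Test.lc (d'.test m))
  have h4 : I V (fun x => -(Lt t (f m) x) * f' m x) = - I V (fun x => Lt t (f m) x * f' m x) := by
    unfold I
    rw [← integral_neg]
    congr 1; ext x; ring
  rw [h4, h3, neg_neg]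
  rfl

/-- energy identity against Lipschitz functions with compact support -/
theorem Dom.energy_lc (h : TB V t) (d : Dom V t f u Du Au) {χ : E n → ℝ} (hχ : LC χ) :
    I V (fun x => Au x * χ x) = I V (GG t Du fun b => pd b χ) := by
  have hV : Continuous V := h.V2.continuous
  have sχ : Sq V χ := Sq.of_ci hV (CI.of_lc hχ)
  have sp : ∀ b, Sq V (pd b χ) := fun b => Sq.of_ci hV (CI.pd hχ b)
  have h1 := Lim.mul hV (fun m => sq_L h.toTF (d.test m)) (fun m => sχ) d.sA sχ d.lA (Lim.const χ)
  have h2 := lim_GG h (fun m a => sq_pd hV (d.test m) a) (fun m a => sp a)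
    d.sD sp (F := fun m a => pd a (f m)) (F' := fun m b => pd b χ) d.lD (fun a => Lim.const _)
  refine tendsto_nhds_unique h1 (h2.congr fun m => ?_)
  have h3 := ibpL' h.toTF (d.test m) hχ
  have h4 : I V (fun x => -(Lt t (f m) x) * χ x) = - I V (fun x => Lt t (f m) x * χ x) := by
    unfold I
    rw [← integral_neg]
    congr 1; ext x; ring
  rw [h4, h3, neg_neg]
  rfl

theorem GG_symm (h : TF V t) (A B : Fin n → E n → ℝ) (x : E n) : GG t A B x = GG t B A x := by
  unfold GG
  rw [Finset.sum_comm]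
  refine Finset.sum_congr rfl fun a _ => Finset.sum_congr rfl fun b _ => ?_
  rw [h.symm x b a]; ring

/-- **symmetry** -/
theorem Dom.symm (h : TB V t) (d : Dom V t f u Du Au) (d' : Dom V t f' v Dv Av) :
    I V (fun x => Au x * v x) = I V (fun x => u x * Av x) := by
  rw [d.energy h d']
  have e : I V (fun x => u x * Av x) = I V (fun x => Av x * u x) :=
    I_congr (Eventually.of_forall fun x => by ring)
  rw [e, d'.energy h d]
  exact I_congr (Eventually.of_forall fun x => GG_symm h.toTF _ _ x)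

theorem GG_low (h : TE V t lam Lam) (A : Fin n → E n → ℝ) (x : E n) :
    lam * ∑ a, A a x ^ 2 ≤ GG t A A x := by
  have h1 := h.low x (WithLp.toLp 2 fun a => A a x)
  rw [← sum_sq_eq] at h1
  exact h1

theorem GG_nonneg (h : TE V t lam Lam) (A : Fin n → E n → ℝ) (x : E n) : 0 ≤ GG t A A x := by
  refine le_trans ?_ (GG_low h A x)
  have := h.lam_pos
  positivity

theorem Dom.nonneg (h : TE V t lam Lam) (d : Dom V t f u Du Au) : 0 ≤ I V (fun x => Au x * u x) := by
  rw [d.energy h.toTB d]
  unfold I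
  exact integral_nonneg fun x => mul_nonneg (GG_nonneg h Du x) (Real.exp_pos _).le

theorem Dom.sub (h : TB V t) (d : Dom V t f u Du Au) (d' : Dom V t f' v Dv Av) :
    Dom V t (fun m x => f m x - f' m x) (fun x => u x - v x) (fun a x => Du a x - Dv a x)
      (fun x => Au x - Av x) := by
  have hV : Continuous V := h.V2.continuous
  have hts : ∀ m, Test (fun x => f m x - f' m x) := fun m =>
    ⟨(d.test m).1.sub (d'.test m).1, HasCompactSupport.sub (d.test m).2 (d'.test m).2⟩
  have e0 : ∀ m, (fun x => f m x - f' m x) = fun x => f m x + (-1) * f' m x := fun m => by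
    funext x; ring
  have ht1 : ∀ m, Test (fun x => (-1) * f' m x) := fun m =>
    ⟨contDiff_const.mul (d'.test m).1, (d'.test m).2.mul_left⟩
  have e1 : ∀ m a, pd a (fun x => f m x - f' m x) = fun x => pd a (f m) x - pd a (f' m) x := by
    intro m a
    rw [e0 m, pd_add' (test_diff (d.test m)) (test_diff (ht1 m)) a,
      pd_smul' (test_diff (d'.test m)) (-1) a]
    funext x; ring
  have e2 : ∀ m x, Lt t (fun x => f m x - f' m x) x = Lt t (f m) x - Lt t (f' m) x := by
    intro m x
    rw [e0 m, Lt_add (d.test m) (ht1 m), Lt_smul (d'.test m)]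
    ring
  have sA := d.sA.sub hV d'.sA
  have sU := d.su.sub hV d'.su
  have sD := fun a => (d.sD a).sub hV (d'.sD a)
  refine ⟨hts, sU.m, fun a => (sD a).m, sA.m, sU.i, fun a => (sD a).i, sA.i, ?_, fun a => ?_, ?_⟩
  · exact Lim.sub hV (fun m => sq_test hV (d.test m)) (fun m => sq_test hV (d'.test m)) d.su d'.su d.lu d'.lu
  · have := Lim.sub hV (fun m => sq_pd hV (d.test m) a) (fun m => sq_pd hV (d'.test m) a)
      (d.sD a) (d'.sD a) (d.lD a) (d'.lD a)
    unfold Lim at this
    refine this.congr fun m => ?_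
    rw [e1 m a]
  · have := Lim.sub hV (fun m => sq_L h.toTF (d.test m)) (fun m => sq_L h.toTF (d'.test m))
      d.sA d'.sA d.lA d'.lA
    unfold Lim at this
    refine this.congr fun m => I_congr (Eventually.of_forall fun x => ?_)
    rw [e2 m x]
    ring

/-- **uniqueness** -/
theorem Dom.unique (h : TE V t lam Lam) (d : Dom V t f u Du Au) (d' : Dom V t f' v Dv Av) {s : ℝ}
    (hs : 0 < s) (he : ∀ᵐ x, u x + s * Au x = v x + s * Av x) :
    (∀ᵐ x, u x = v x) ∧ (∀ a, ∀ᵐ x, Du a x = Dv a x) ∧ ∀ᵐ x, Au x = Av x := by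
  have hV : Continuous V := h.V2.continuous
  have dd := d.sub h.toTB d'
  have h0 : I V (fun x => (u x - v x) * (u x - v x)) + s * I V (fun x => (Au x - Av x) * (u x - v x)) = 0 := by
    have i1 := Sq.int hV dd.su dd.su
    have i2 := Sq.int hV dd.sA dd.su
    unfold I
    rw [← integral_const_mul, ← integral_add i1 (i2.const_mul s)]
    rw [← integral_zero (E n) ℝ (μ := volume)]
    refine integral_congr_ae ?_
    filter_upwards [he] with x hx
    have e : (u x - v x) + s * (Au x - Av x) = 0 := by linear_combination hx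
    have e2 : (u x - v x) * (u x - v x) * Real.exp (-V x) +
        s * ((Au x - Av x) * (u x - v x) * Real.exp (-V x)) =
        ((u x - v x) + s * (Au x - Av x)) * (u x - v x) * Real.exp (-V x) := by ring
    rw [e2, e]; simp
  have h1 : 0 ≤ I V (fun x => (Au x - Av x) * (u x - v x)) := dd.nonneg h
  have h2 : 0 ≤ I V (fun x => (u x - v x) * (u x - v x)) := by
    unfold I
    exact integral_nonneg fun x => mul_nonneg (mul_self_nonneg _) (Real.exp_pos _).le
  have h3 : s * I V (fun x => (Au x - Av x) * (u x - v x)) ≥ 0 := mul_nonneg hs.le h1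
  have h4 : I V (fun x => (u x - v x) * (u x - v x)) = 0 := by linarith
  have h5 : I V (fun x => (Au x - Av x) * (u x - v x)) = 0 := by
    have : s * I V (fun x => (Au x - Av x) * (u x - v x)) = 0 := by linarith
    exact (mul_eq_zero.1 this).resolve_left hs.ne'
  have hz : ∀ w : E n → ℝ, Sq V w → I V (fun x => w x ^ 2) ≤ 0 → ∀ᵐ x, w x = 0 := by
    intro w hw hle
    have h6 : ∫ x, w x ^ 2 * Real.exp (-V x) = 0 := le_antisymm hle
      (integral_nonneg fun x => mul_nonneg (sq_nonneg _) (Real.exp_pos _).le)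
    rw [integral_eq_zero_iff_of_nonneg (fun x => mul_nonneg (sq_nonneg _) (Real.exp_pos _).le) hw.i] at h6
    filter_upwards [h6] with x hx
    have := (mul_eq_zero.1 hx).resolve_right (Real.exp_pos _).ne'
    exact pow_eq_zero_iff two_ne_zero |>.1 this
  have hU : ∀ᵐ x, u x - v x = 0 := hz _ dd.su (by
    have : I V (fun x => (u x - v x) ^ 2) = I V (fun x => (u x - v x) * (u x - v x)) :=
      I_congr (Eventually.of_forall fun x => by ring)
    rw [this, h4])
  refine ⟨hU.mono fun x hx => sub_eq_zero.1 hx, fun a => ?_, ?_⟩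
  · have h6 : I V (GG t (fun a x => Du a x - Dv a x) fun a x => Du a x - Dv a x) = 0 := by
      rw [← dd.energy h.toTB dd]; exact h5
    have h7 : lam * I V (fun x => (Du a x - Dv a x) ^ 2) ≤ 0 := by
      rw [← h6]
      have e : lam * I V (fun x => (Du a x - Dv a x) ^ 2) =
          I V (fun x => lam * (Du a x - Dv a x) ^ 2) := by
        unfold I
        rw [← integral_const_mul]
        congr 1; ext x; ring
      rw [e]
      refine I_mono_sq ?_ ?_ (Eventually.of_forall fun x => ?_)
      · have := (dd.sD a).i.const_mul lam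
        refine this.congr (Eventually.of_forall fun x => ?_)
        simp only []; ring
      · unfold GG
        have e1 : (fun x => (∑ a, ∑ b, t x a b * (Du a x - Dv a x) * (Du b x - Dv b x)) * Real.exp (-V x)) =
            fun x => ∑ a, ∑ b, t x a b * (Du a x - Dv a x) * (Du b x - Dv b x) * Real.exp (-V x) := by
          funext x
          rw [Finset.sum_mul]
          exact Finset.sum_congr rfl fun a _ => Finset.sum_mul _ _ _
        rw [e1]
        exact integrable_finsetSum _ fun a _ => integrable_finsetSum _ fun b _ =>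
          Sq.int hV (sq_t_mul h.toTB (dd.sD a) a b) (dd.sD b)
      · refine le_trans ?_ (GG_low h (fun a x => Du a x - Dv a x) x)
        refine mul_le_mul_of_nonneg_left ?_ h.lam_pos.le
        exact Finset.single_le_sum (f := fun a => (Du a x - Dv a x) ^ 2)
          (fun i _ => sq_nonneg _) (Finset.mem_univ a)
    have h8 : I V (fun x => (Du a x - Dv a x) ^ 2) ≤ 0 := by
      by_contra hcon
      push Not at hcon
      have := mul_pos h.lam_pos hcon
      linarith
    exact (hz _ (dd.sD a) h8).mono fun x hx => sub_eq_zero.1 hx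
  · filter_upwards [hU, he] with x h1 h2
    have h3 : u x = v x := sub_eq_zero.1 h1
    rw [h3] at h2
    have h4 : s * Au x = s * Av x := by linarith
    exact mul_left_cancel₀ hs.ne' h4

end dom

end Vale.Agent.P245.H464
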