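import Vale.Agent.P245.H464.Base0

/-!
# P245 (helper464): `StmtStep` from `StmtStep0`.
-/

set_option linter.all false

open MeasureTheory Filter Topology
open scoped ContDiff NNReal ENNReal InnerProductSpace

namespace Vale.Agent.P245.H464

open Vale.Agent.P227.M Vale.Agent.P227.M.K814 Vale.Agent.P254.SN Vale.Agent.P245.E456

variable {n : ℕ} {V : E n → ℝ} {t : E n → Matrix (Fin n) (Fin n) ℝ} {c C : ℝ}

theorem step_of (h0 : K.StmtStep0) : K.StmtStep := by
  intro n V t c C hB s hs δ B σ H AH DH hσ hMF hdom hle hCS G AG DG hG hGs hDGs hGe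
  obtain ⟨l1, -, -, -, -, -⟩ := stmtLin n V t c C hB
  have hMF2 := K3.Chain.MF.mono hMF (le_max_left B (σ * B))
  have hs1 : 0 < 1 + s / 2 := by positivity
  have hs2 : 0 < 1 + 3 * s / 2 := by positivity
  have hs3 : 0 < 1 + 2 * s := by positivity
  set κ : ℝ := (1 + s) / (1 + 3 * s / 2) with hκ
  have hκ0 : 0 ≤ κ := by positivity
  obtain ⟨W, AW, DW, hW, hWs, hDWs, hWe⟩ := K3.Chain.solve hB (s := s / (1 + s / 2)) (by positivity)
    (G := fun x i j => (σ / (1 + s / 2)) * H x i j) (fun x i j => by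
      show (σ / (1 + s / 2)) * H x i j = (σ / (1 + s / 2)) * H x j i
      rw [hMF.symm x i j])
    (fun i j => by
      have := (l2_iff.1 (hMF.h1 i j).u2).const_mul hB.V2.continuous (σ / (1 + s / 2))
      exact ⟨this.m, this.i⟩)
  have hWe' : ∀ x i j, (1 + s / 2) * W x i j + s * AW x i j = σ * H x i j := by
    intro x i j
    have h1 := hWe x i j
    have h2 : (1 + s / 2) * (W x i j + s / (1 + s / 2) * AW x i j) =
      (1 + s / 2) * (σ / (1 + s / 2) * H x i j) := by rw [h1]
    field_simp at h2 ⊢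
    linarith
  obtain ⟨h1, h2, h3⟩ := h0 n V t c C hB s hs δ (max B (σ * B)) H AH (fun x i j => σ * H x i j) DH hMF2
    hdom hle (fun i j => ((hMF.h1 i j).u2.1).const_mul σ) (fun x i j => by
      show σ * H x i j = σ * H x j i
      rw [hMF.symm x i j])
    (by
      filter_upwards [hMF.upp] with x hx i j
      rw [abs_mul, abs_of_nonneg hσ]
      exact (mul_le_mul_of_nonneg_left (hx i j) hσ).trans (le_max_right _ _))
    (by
      filter_upwards [hCS] with x hx z ζ
      refine (hx z ζ).trans (le_of_eq ?_)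
      congr 1
      rw [Finset.mul_sum]
      refine Finset.sum_congr rfl fun i _ => ?_
      rw [Finset.mul_sum]
      exact Finset.sum_congr rfl fun j _ => by ring)
    G AG DG hG hGs hDGs hGe W AW DW hW (Eventually.of_forall hWe')
  refine ⟨h1, h2, ?_⟩
  have hR : ∀ᵐ x, ∀ v : Fin n → ℝ, 0 ≤ ∑ i, ∑ j, (κ * σ * G x i j - W x i j) * v i * v j := by
    refine mat_pos hB (s := s / (1 + s / 2)) (by positivity) (R := fun x i j => κ * σ * G x i j - W x i j)
      (AR := fun x i j => κ * σ * AG x i j - AW x i j)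
      (DR := fun a x i j => κ * σ * DG a x i j - DW a x i j) (fun i j => ?_) ?_
    · have k1 := l1 _ _ _ _ _ _ (hG i j) (hW i j) (κ * σ) (-1)
      refine (iff_of_eq ?_).1 k1
      congr 1 <;> (funext; ring)
    · filter_upwards [hGe, h2] with x hx h2x v
      have e : ∑ i, ∑ j, (κ * σ * G x i j - W x i j +
          s / (1 + s / 2) * (κ * σ * AG x i j - AW x i j)) * v i * v j =
          (σ * s ^ 2 / 2 / ((1 + 3 * s / 2) * (1 + s / 2))) *
            ((∑ i, ∑ j, G x i j * v i * v j) - ∑ i, ∑ j, AG x i j * v i * v j) := by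
        rw [← Finset.sum_sub_distrib, Finset.mul_sum]
        refine Finset.sum_congr rfl fun i _ => ?_
        rw [← Finset.sum_sub_distrib, Finset.mul_sum]
        refine Finset.sum_congr rfl fun j _ => ?_
        have e1 := hx i j
        have e2 := hWe' x i j
        have e3 : κ * σ * G x i j - W x i j + s / (1 + s / 2) * (κ * σ * AG x i j - AW x i j) =
            (σ * s ^ 2 / 2 / ((1 + 3 * s / 2) * (1 + s / 2))) * (G x i j - AG x i j) := by
          rw [hκ]
          rw [← e1] at e2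
          have e4 : W x i j = (σ * (G x i j + s * AG x i j) - s * AW x i j) / (1 + s / 2) := by
            rw [eq_div_iff hs1.ne']
            linarith
          rw [e4]
          field_simp
          ring
        rw [e3]
        ring
      rw [e]
      have := h2x v
      exact mul_nonneg (by positivity) (by linarith)
  obtain ⟨B', hMG⟩ := h1
  filter_upwards [hR, h3, hMG.low] with x hx h3x hlG z ζ
  have hT : (t x).PosDef := K.TE.posDef hB.toTE x
  have hG0 : ∀ v : Fin n → ℝ, 0 ≤ ∑ i, ∑ j, G x i j * v i * v j := fun v =>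
    (mul_nonneg hMF.d_pos.le (Finset.sum_nonneg fun i _ => sq_nonneg _)).trans (hlG v)
  refine (h3x z ζ).trans (mul_le_mul_of_nonneg_right ?_ (tens_nonneg hT.posSemidef hG0 ζ))
  have e2 := hx z
  have e3 : ∑ i, ∑ j, (κ * σ * G x i j - W x i j) * z i * z j =
      κ * σ * (∑ i, ∑ j, G x i j * z i * z j) - (∑ i, ∑ j, W x i j * z i * z j) := by
    rw [Finset.mul_sum, ← Finset.sum_sub_distrib]
    refine Finset.sum_congr rfl fun i _ => ?_
    rw [Finset.mul_sum, ← Finset.sum_sub_distrib]
    exact Finset.sum_congr rfl fun j _ => by ring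
  have e4 : ∑ k, ∑ l, (κ • W x) k l * z k * z l = κ * ∑ i, ∑ j, W x i j * z i * z j := by
    rw [Finset.mul_sum]
    refine Finset.sum_congr rfl fun i _ => ?_
    rw [Finset.mul_sum]
    refine Finset.sum_congr rfl fun j _ => ?_
    rw [Matrix.smul_apply, smul_eq_mul]
    ring
  have e7 := hG0 z
  rw [e4]
  rw [e3] at e2
  have e5 : κ * (∑ i, ∑ j, W x i j * z i * z j) ≤ κ * (κ * σ * (∑ i, ∑ j, G x i j * z i * z j)) :=
    mul_le_mul_of_nonneg_left (by linarith) hκ0
  refine e5.trans ?_
  have e6 : κ * κ ≤ (1 + s) / (1 + 2 * s) := by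
    rw [hκ, div_mul_div_comm, div_le_div_iff₀ (by positivity) (by positivity)]
    have h5 : (1 + s) * (1 + 2 * s) ≤ (1 + 3 * s / 2) * (1 + 3 * s / 2) := by nlinarith [sq_nonneg s]
    nlinarith [mul_le_mul_of_nonneg_left h5 (show (0:ℝ) ≤ 1 + s by positivity)]
  have e8 : κ * (κ * σ * ∑ i, ∑ j, G x i j * z i * z j) = (κ * κ) * (σ * ∑ i, ∑ j, G x i j * z i * z j) := by
    ring
  rw [e8]
  calc (κ * κ) * (σ * ∑ i, ∑ j, G x i j * z i * z j) ≤
      ((1 + s) / (1 + 2 * s)) * (σ * ∑ i, ∑ j, G x i j * z i * z j) :=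
        mul_le_mul_of_nonneg_right e6 (mul_nonneg hσ e7)
    _ = σ * (1 + s) / (1 + 2 * s) * ∑ i, ∑ j, G x i j * z i * z j := by ring

end Vale.Agent.P245.H464
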